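import Vale.Agent.P267.H551.OutB

/-! P267 / RRC-GLUE (O1) (helper551): a local operator with a smooth kernel is a kernel operator
`Kern.op`; sums of kernels. -/

set_option linter.unusedSectionVars false

open scoped Manifold ContDiff ComplexConjugate Matrix
open MeasureTheory Set Filter Topology

noncomputable section

namespace Vale.Agent.P267.H551

open Vale.Agent.P267.FL Vale.Agent.P267.RR Vale.Agent.P267.H462

variable {X : Type*} [TopologicalSpace X] [ChartedSpace C2 X] {A : FinAt X}
  {V : Type} [NormedAddCommGroup V] [NormedSpace ℂ V]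

/-! ### the functions `r b` -/

theorem r_of_notMem {b : Fin A.N} {w : C2} (hw : w ∉ A.K b) : A.r b w = 0 := by
  unfold FinAt.r
  split_ifs with h
  · refine image_eq_zero_of_notMem_tsupport fun h1 => hw ?_
    exact ⟨(A.e b).symm w, h1, (A.e b).right_inv h.1⟩
  · rfl

theorem rho_contDiffOn (b c : Fin A.N) :
    ContDiffOn ℝ ∞ (fun y => (A.rho b ((A.e c).symm y) : ℂ)) (A.e c).target := by
  have h := A.rho_smooth b (A.e c) (A.he c)
  refine h.congr fun y hy => ?_
  simp [loc0]

theorem continuous_of_supp {F : C2 → V} {O L : Set C2} (hO : IsOpen O) (hL : IsClosed L)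
    (hLO : L ⊆ O) (hF : ContinuousOn F O) (h0 : ∀ x, x ∉ L → F x = 0) : Continuous F := by
  rw [continuous_iff_continuousAt]
  intro x
  by_cases hx : x ∈ L
  · exact hF.continuousAt (hO.mem_nhds (hLO hx))
  · have : F =ᶠ[𝓝 x] fun _ => 0 := by
      filter_upwards [hL.isOpen_compl.mem_nhds hx] with y hy
      exact h0 y hy
    exact continuousAt_const.congr this.symm

theorem integrable_of_supp {F : C2 → V} {O L : Set C2} (hO : IsOpen O) (hL : IsCompact L)
    (hLO : L ⊆ O) (hF : ContinuousOn F O) (h0 : ∀ x, x ∉ L → F x = 0) : Integrable F :=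
  (continuous_of_supp hO hL.isClosed hLO hF h0).integrable_of_hasCompactSupport
    (HasCompactSupport.intro hL fun x hx => h0 x hx)

theorem integrable_r [CompactSpace X] {b : Fin A.N} {F : C2 → V} (hF : ContinuousOn F (A.O b)) :
    Integrable fun w => (A.r b w : ℂ) • F w := by
  refine integrable_of_supp (A.isOpen_O b) (isCompact_K b) (K_sub b) ?_ fun w hw => by
    simp [r_of_notMem hw]
  refine ContinuousOn.smul ?_ hF
  have h1 : ContinuousOn (fun y => (A.rho b ((A.e b).symm y) : ℂ)) (A.O b) :=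
    (rho_contDiffOn b b).continuousOn.mono fun y hy => hy.1
  refine h1.congr fun w hw => ?_
  simp only [FinAt.r, if_pos hw]

/-! ### sums of kernels -/

section kern

variable {S : SB A V}

theorem kern_integrable [CompactSpace X] [FiniteDimensional ℂ V] (k : Kern S) (u : S.Sec)
    {a b : Fin A.N} {z : C2} (hz : z ∈ A.O a) :
    Integrable fun w => (A.r b w : ℂ) • k.k a b z w (u.1 b w) := by
  refine integrable_r ?_
  have h1 : ContinuousOn (fun w => k.k a b z w) (A.O b) := by
    have h2 : ContDiffOn ℝ ∞ (fun p : C2 × C2 => k.k a b p.1 p.2) (A.O a ×ˢ A.O b) :=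
      contDiffOn_clm_of_apply fun v => k.smooth a b v
    exact h2.continuousOn.comp (f := fun w : C2 => (z, w)) (by fun_prop) fun w hw => ⟨hz, hw⟩
  exact h1.clm_apply (sec_smooth u b).continuousOn

/-- sums of kernels -/
def kernAdd (k k' : Kern S) : Kern S where
  k a b z w := k.k a b z w + k'.k a b z w
  smooth a b v := (k.smooth a b v).add (k'.smooth a b v)
  compat a a' b z hz w hw v := by
    simp only [add_apply, map_add, k.compat a a' b z hz w hw v, k'.compat a a' b z hz w hw v]

def kernZero (S : SB A V) : Kern S where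
  k _ _ _ _ := 0
  smooth _ _ _ := contDiffOn_const
  compat _ _ _ _ _ _ _ _ := by simp

def kernSmul (c : ℂ) (k : Kern S) : Kern S where
  k a b z w := c • k.k a b z w
  smooth a b v := contDiffOn_const.smul (k.smooth a b v)
  compat a a' b z hz w hw v := by
    simp only [smul_apply, map_smul, k.compat a a' b z hz w hw v]

def kernSum {ι : Type*} (t : Finset ι) (k : ι → Kern S) : Kern S where
  k a b z w := ∑ i ∈ t, (k i).k a b z w
  smooth a b v := by
    simp only [FunLike.coe_sum, Finset.sum_apply]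
    exact ContDiffOn.sum fun i _ => (k i).smooth a b v
  compat a a' b z hz w hw v := by
    simp only [FunLike.coe_sum, Finset.sum_apply, map_sum]
    exact Finset.sum_congr rfl fun i _ => (k i).compat a a' b z hz w hw v

theorem kernSmul_op (c : ℂ) (k : Kern S) (u : Fin A.N → C2 → V) :
    (kernSmul c k).op u = c • k.op u := by
  funext a z
  simp only [Kern.op, kernSmul, Pi.smul_apply]
  split_ifs with hz
  · rw [Finset.smul_sum]
    refine Finset.sum_congr rfl fun b _ => ?_
    rw [← integral_smul]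
    congr 1
    funext w
    rw [smul_apply, smul_comm]
  · rw [smul_zero]

theorem kernZero_op (u : Fin A.N → C2 → V) : (kernZero S).op u = 0 := by
  funext a z
  simp [Kern.op, kernZero]

theorem kernAdd_op [CompactSpace X] [FiniteDimensional ℂ V] (k k' : Kern S) (u : S.Sec) :
    (kernAdd k k').op u.1 = k.op u.1 + k'.op u.1 := by
  funext a z
  simp only [Kern.op, kernAdd, Pi.add_apply]
  split_ifs with hz
  · rw [← Finset.sum_add_distrib]
    refine Finset.sum_congr rfl fun b _ => ?_
    rw [← integral_add (kern_integrable k u hz) (kern_integrable k' u hz)]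
    congr 1
    funext w
    rw [add_apply, smul_add]
  · rw [add_zero]

theorem kernSum_op [CompactSpace X] [FiniteDimensional ℂ V] {ι : Type*} (t : Finset ι)
    (k : ι → Kern S) (u : S.Sec) : (kernSum t k).op u.1 = ∑ i ∈ t, (k i).op u.1 := by
  funext a z
  simp only [Finset.sum_apply]
  simp only [Kern.op, kernSum]
  split_ifs with hz
  · rw [Finset.sum_comm]
    refine Finset.sum_congr rfl fun b _ => ?_
    rw [← integral_finsetSum _ fun i _ => kern_integrable (k i) u hz]
    congr 1
    funext w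
    simp only [FunLike.coe_sum, Finset.sum_apply, Finset.smul_sum]
  · simp

end kern

/-! ### local operators with smooth kernels -/

section loc

/-- smooth kernels with compact support in `O c × O c` -/
structure SKer (A : FinAt X) (c : Fin A.N) (k : C2 → C2 → (V →L[ℂ] V)) : Prop where
  smooth : ContDiff ℝ ∞ fun p : C2 × C2 => k p.1 p.2
  supp : ∃ L, IsCompact L ∧ L ⊆ A.O c ∧ ∀ x y, k x y ≠ 0 → x ∈ L ∧ y ∈ L

theorem SKer.lker {c : Fin A.N} {k : C2 → C2 → (V →L[ℂ] V)} (h : SKer A c k) : LKer A c 0 k := by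
  refine ⟨Ker.of_contDiff h.smooth ?_, h.supp⟩
  obtain ⟨L, hL, -, hk⟩ := h.supp
  refine HasCompactSupport.intro (hL.prod hL) fun p hp => ?_
  by_contra hne
  exact hp (hk _ _ hne)

open Classical in
/-- the kernel of a local operator -/
def lkFun (S : SB A V) (c : Fin A.N) (k : C2 → C2 → (V →L[ℂ] V)) (a b : Fin A.N) (z w : C2) :
    V →L[ℂ] V :=
  if z ∈ A.ov a c ∧ w ∈ A.ov b c then
    ((‖(A.J b c w).det‖ ^ 2 : ℝ) : ℂ) • (S.T c a (A.tau a c z)).comp
      ((k (A.tau a c z) (A.tau b c w)).comp (S.T b c w))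
  else 0

variable [T2Space X] [IsManifold 𝓘(ℂ, C2) ω X] {S : SB A V}

theorem lkFun_smooth [FiniteDimensional ℂ V] {c : Fin A.N} {k : C2 → C2 → (V →L[ℂ] V)}
    (h : SKer A c k) (a b : Fin A.N) :
    ContDiffOn ℝ ∞ (fun p : C2 × C2 => lkFun S c k a b p.1 p.2) (A.O a ×ˢ A.O b) := by
  obtain ⟨L, hL, hLO, hk⟩ := h.supp
  rintro ⟨z, w⟩ ⟨hz, hw⟩
  refine ContDiffAt.contDiffWithinAt ?_
  have key : ∀ {a : Fin A.N} {z : C2}, z ∈ A.O a → z ∉ A.ov a c →
      ∀ᶠ z' in 𝓝 z, ∀ y ∈ L, (A.e c).symm y ≠ (A.e a).symm z' := by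
    intro a z hz hzc
    have h1 : ∀ y ∈ L, (A.e c).symm y ≠ (A.e a).symm z := by
      intro y hy hyz
      apply hzc
      refine ⟨hz, ?_⟩
      rw [← hyz]
      exact (hLO hy).2
    exact (eventually_not_mem hL hLO hz h1).mono fun z' hz' => hz'.2
  by_cases hzc : z ∈ A.ov a c
  · by_cases hwc : w ∈ A.ov b c
    · have h1 : (fun p : C2 × C2 => lkFun S c k a b p.1 p.2) =ᶠ[𝓝 (z, w)] fun p =>
          ((‖(A.J b c p.2).det‖ ^ 2 : ℝ) : ℂ) • (S.T c a (A.tau a c p.1)).comp
            ((k (A.tau a c p.1) (A.tau b c p.2)).comp (S.T b c p.2)) := by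
        filter_upwards [((A.isOpen_ov a c).prod (A.isOpen_ov b c)).mem_nhds ⟨hzc, hwc⟩] with p hp
        simp only [lkFun, if_pos (show p.1 ∈ A.ov a c ∧ p.2 ∈ A.ov b c from hp)]
      refine ContDiffAt.congr_of_eventuallyEq ?_ h1
      have f1 : ContDiffAt ℝ ∞ (fun p : C2 × C2 => p.1) (z, w) := contDiffAt_fst
      have f2 : ContDiffAt ℝ ∞ (fun p : C2 × C2 => p.2) (z, w) := contDiffAt_snd
      have t1 : ContDiffAt ℝ ∞ (fun p : C2 × C2 => A.tau a c p.1) (z, w) :=
        ContDiffAt.comp (g := A.tau a c) (f := fun p : C2 × C2 => p.1) (z, w)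
          (tau_contDiffAt_real hzc) f1
      have t2 : ContDiffAt ℝ ∞ (fun p : C2 × C2 => A.tau b c p.2) (z, w) :=
        ContDiffAt.comp (g := A.tau b c) (f := fun p : C2 × C2 => p.2) (z, w)
          (tau_contDiffAt_real hwc) f2
      have s1 : ContDiffAt ℝ ∞ (fun p : C2 × C2 => S.T c a (A.tau a c p.1)) (z, w) :=
        ((sb_contDiffOn S c a).contDiffAt
          ((A.isOpen_ov c a).mem_nhds (FinAt.tau_mem hzc))).comp (z, w) t1
      have s2 : ContDiffAt ℝ ∞ (fun p : C2 × C2 => S.T b c p.2) (z, w) :=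
        ((sb_contDiffOn S b c).contDiffAt ((A.isOpen_ov b c).mem_nhds hwc)).comp (z, w) f2
      have s3 : ContDiffAt ℝ ∞ (fun p : C2 × C2 => k (A.tau a c p.1) (A.tau b c p.2)) (z, w) :=
        ContDiffAt.comp (g := fun p : C2 × C2 => k p.1 p.2)
          (f := fun p : C2 × C2 => (A.tau a c p.1, A.tau b c p.2)) (z, w)
          h.smooth.contDiffAt (t1.prodMk t2)
      have j1 : ∀ p i : Fin 2, ContDiffAt ℝ ∞ (fun q : C2 × C2 => A.J b c q.2 p i) (z, w) :=
        fun p i => ContDiffAt.comp (g := fun y : C2 => A.J b c y p i)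
          (f := fun p : C2 × C2 => p.2) (z, w)
          (((FinAt.J_analyticAt hwc p i).contDiffAt (n := ∞)).restrict_scalars ℝ) f2
      have j2 : ContDiffAt ℝ ∞ (fun q : C2 × C2 => (A.J b c q.2).det) (z, w) := by
        simp only [Matrix.det_fin_two]
        exact ((j1 0 0).mul (j1 1 1)).sub ((j1 0 1).mul (j1 1 0))
      have j3 : ContDiffAt ℝ ∞ (fun q : C2 × C2 => ((‖(A.J b c q.2).det‖ ^ 2 : ℝ) : ℂ)) (z, w) :=
        Complex.ofRealCLM.contDiff.contDiffAt.comp (z, w) (j2.norm_sq ℝ)
      exact j3.smul (contDiff_comp_clm.contDiffAt.comp (z, w)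
        (s1.prodMk (contDiff_comp_clm.contDiffAt.comp (z, w) (s3.prodMk s2))))
    · have h1 : (fun p : C2 × C2 => lkFun S c k a b p.1 p.2) =ᶠ[𝓝 (z, w)] fun _ => 0 := by
        have h2 : ∀ᶠ p : C2 × C2 in 𝓝 (z, w), ∀ y ∈ L, (A.e c).symm y ≠ (A.e b).symm p.2 :=
          (continuous_snd.tendsto (z, w)).eventually (key hw hwc)
        filter_upwards [h2] with p hp
        simp only [lkFun]
        split_ifs with h3
        · have h4 : k (A.tau a c p.1) (A.tau b c p.2) = 0 := by
            by_contra hne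
            exact hp _ (hk _ _ hne).2 (FinAt.symm_tau h3.2)
          simp [h4]
        · rfl
      exact contDiffAt_const.congr_of_eventuallyEq h1
  · have h1 : (fun p : C2 × C2 => lkFun S c k a b p.1 p.2) =ᶠ[𝓝 (z, w)] fun _ => 0 := by
      have h2 : ∀ᶠ p : C2 × C2 in 𝓝 (z, w), ∀ y ∈ L, (A.e c).symm y ≠ (A.e a).symm p.1 :=
        (continuous_fst.tendsto (z, w)).eventually (key hz hzc)
      filter_upwards [h2] with p hp
      simp only [lkFun]
      split_ifs with h3
      · have h4 : k (A.tau a c p.1) (A.tau b c p.2) = 0 := by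
          by_contra hne
          exact hp _ (hk _ _ hne).1 (FinAt.symm_tau h3.1)
        simp [h4]
      · rfl
    exact contDiffAt_const.congr_of_eventuallyEq h1

theorem lkFun_compat {c : Fin A.N} (k : C2 → C2 → (V →L[ℂ] V)) (a a' b : Fin A.N) {z : C2}
    (hz : z ∈ A.ov a a') (w : C2) (v : V) :
    lkFun S c k a' b (A.tau a a' z) w v = S.T a a' z (lkFun S c k a b z w v) := by
  by_cases hw : w ∈ A.ov b c
  · by_cases hc : z ∈ A.ov a c
    · have h1 : A.tau a a' z ∈ A.ov a' c := (mem_ov_tau hz).2 hc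
      simp only [lkFun, if_pos (show z ∈ A.ov a c ∧ w ∈ A.ov b c from ⟨hc, hw⟩),
        if_pos (show A.tau a a' z ∈ A.ov a' c ∧ w ∈ A.ov b c from ⟨h1, hw⟩), smul_apply,
        ContinuousLinearMap.comp_apply, FinAt.tau_comp c hz, map_smul]
      have h2 : A.tau a c z ∈ A.ov c a := FinAt.tau_mem hc
      have h3 : A.tau a c z ∈ A.ov c a' := (mem_ov_tau hc).2 hz
      have h4 := S.comp c a a' (A.tau a c z) h2 h3 (k (A.tau a c z) (A.tau b c w) (S.T b c w v))
      rw [FinAt.tau_tau hc] at h4
      rw [h4]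
    · have h1 : A.tau a a' z ∉ A.ov a' c := fun h => hc ((mem_ov_tau hz).1 h)
      simp [lkFun, hc, h1]
  · simp [lkFun, hw]

/-- **(O1)** the kernel of a local operator with smooth kernel -/
def kernLO [FiniteDimensional ℂ V] (S : SB A V) (c : Fin A.N) {k : C2 → C2 → (V →L[ℂ] V)}
    (h : SKer A c k) : Kern S where
  k a b z w := lkFun S c k a b z w
  smooth a b v := by
    have h1 := lkFun_smooth (S := S) h a b
    have h2 : ContDiff ℝ ∞ fun f : V →L[ℂ] V => f v :=
      ((ContinuousLinearMap.apply ℂ V v).contDiff.restrict_scalars ℝ)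
    exact h2.comp_contDiffOn h1
  compat a a' b z hz w _ v := lkFun_compat k a a' b hz w v

theorem integral_ov (b c : Fin A.N) (F : C2 → V) :
    ∫ y in A.ov c b, F y = ∫ w in A.ov b c, ‖(A.J b c w).det‖ ^ 2 • F (A.tau b c w) := by
  have h := integral_trans (A.he b) (A.he c) ((A.isOpen_U b).inter (A.isOpen_U c))
    (inter_subset_left.trans (A.U_sub b)) (inter_subset_right.trans (A.U_sub c)) F
  rw [FinAt.ov_eq A c b, FinAt.ov_eq A b c, inter_comm (A.U c) (A.U b)]
  exact h

/-- **(O1)** a local operator with smooth kernel is a kernel operator -/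
theorem kernLO_op [CompactSpace X] [FiniteDimensional ℂ V] (S : SB A V) (c : Fin A.N)
    {k : C2 → C2 → (V →L[ℂ] V)} (h : SKer A c k) {m : ℕ} (hm : m < 4) (h' : LKer A c m k)
    (u : S.Sec) : (LO S S c hm h' u).1 = (kernLO S c h).op u.1 := by
  have : CompleteSpace V := FiniteDimensional.complete ℂ V
  obtain ⟨L, hL, hLO, hk⟩ := h.supp
  rw [LO_val]
  funext a z
  by_cases hz : z ∈ A.O a
  swap
  · have h1 : z ∉ A.ov a c := fun h => hz h.1
    rw [extz_of_notMem S _ h1]
    simp [Kern.op, hz]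
  by_cases hzc : z ∈ A.ov a c
  swap
  · rw [extz_of_notMem S _ hzc]
    have h1 : ∀ b w, (kernLO S c h).k a b z w = 0 := by
      intro b w
      simp [kernLO, lkFun, hzc]
    simp [Kern.op, hz, h1]
  rw [extz_of_mem S _ hzc]
  simp only [Kern.op, if_pos hz]
  set y0 := A.tau a c z with hy0
  set G : C2 → V := fun y => S.T c a y0 (k y0 y (u.1 c y)) with hG
  have hG0 : ∀ y, y ∉ L → G y = 0 := by
    intro y hy
    have : k y0 y = 0 := by
      by_contra hne
      exact hy (hk _ _ hne).2
    simp [hG, this]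
  have hGc : ContinuousOn G (A.O c) := by
    have h1 : Continuous fun y => k y0 y :=
      h.smooth.continuous.comp (by fun_prop : Continuous fun y : C2 => (y0, y))
    exact (S.T c a y0).continuous.comp_continuousOn
      (h1.continuousOn.clm_apply (sec_smooth u c).continuousOn)
  -- each summand
  have h1 : ∀ b, ∫ w, (A.r b w : ℂ) • (kernLO S c h).k a b z w (u.1 b w) =
      ∫ y, (A.rho b ((A.e c).symm y) : ℂ) • G y := by
    intro b
    have e1 : ∫ w, (A.r b w : ℂ) • (kernLO S c h).k a b z w (u.1 b w) =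
        ∫ w in A.ov b c, ‖(A.J b c w).det‖ ^ 2 •
          ((A.rho b ((A.e c).symm (A.tau b c w)) : ℂ) • G (A.tau b c w)) := by
      rw [← integral_indicator (A.isOpen_ov b c).measurableSet]
      congr 1
      funext w
      by_cases hw : w ∈ A.ov b c
      · rw [indicator_of_mem hw]
        simp only [kernLO, lkFun, if_pos (show z ∈ A.ov a c ∧ w ∈ A.ov b c from ⟨hzc, hw⟩),
          smul_apply, ContinuousLinearMap.comp_apply]
        rw [FinAt.symm_tau hw, ← sec_compat u hw, ← hy0]
        simp only [FinAt.r, if_pos hw.1, hG]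
        rw [smul_comm, Complex.coe_smul]
      · rw [indicator_of_notMem hw]
        simp [kernLO, lkFun, hw]
    rw [e1, ← integral_ov b c (fun y => (A.rho b ((A.e c).symm y) : ℂ) • G y),
      ← integral_indicator (A.isOpen_ov c b).measurableSet]
    congr 1
    funext y
    by_cases hy : y ∈ A.ov c b
    · rw [indicator_of_mem hy]
    · rw [indicator_of_notMem hy]
      by_cases hyL : y ∈ L
      · have h2 : (A.e c).symm y ∉ A.U b := fun h2 => hy ⟨hLO hyL, h2⟩
        have h3 : A.rho b ((A.e c).symm y) = 0 :=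
          image_eq_zero_of_notMem_tsupport fun h4 => h2 (A.rho_supp b h4)
        simp [h3]
      · rw [hG0 y hyL, smul_zero]
  simp_rw [h1]
  have hint : ∀ b ∈ (Finset.univ : Finset (Fin A.N)),
      Integrable fun y => (A.rho b ((A.e c).symm y) : ℂ) • G y := by
    intro b _
    refine integrable_of_supp (A.isOpen_O c) hL hLO ?_ fun y hy => by rw [hG0 y hy, smul_zero]
    exact ((rho_contDiffOn b c).continuousOn.mono fun y hy => hy.1).smul hGc
  rw [← integral_finsetSum _ hint]
  have h2 : ∀ y, ∑ b, (A.rho b ((A.e c).symm y) : ℂ) • G y = G y := by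
    intro y
    rw [← Finset.sum_smul]
    have := A.rho_sum ((A.e c).symm y)
    have h3 : ∑ b, (A.rho b ((A.e c).symm y) : ℂ) = 1 := by
      exact_mod_cast this
    rw [h3, one_smul]
  simp_rw [h2]
  have h3 : Integrable fun y => k y0 y (u.1 c y) := h'.integrable hm (sec_smooth u c) y0
  exact ((S.T c a y0).integral_comp_comm h3).symm

end loc

end Vale.Agent.P267.H551
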