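import Vale.Agent.P267.H551.OutK

/-! P267 / RRC-GLUE (O2) (helper551): the trace density of a local operator with smooth kernel. -/

set_option linter.unusedSectionVars false

open scoped Manifold ContDiff ComplexConjugate Matrix
open MeasureTheory Set Filter Topology

noncomputable section

namespace Vale.Agent.P267.H551

open Vale.Agent.P267.FL Vale.Agent.P267.RR Vale.Agent.P267.H462

variable {X : Type*} [TopologicalSpace X] [ChartedSpace C2 X] {A : FinAt X}
  {V : Type} [NormedAddCommGroup V] [NormedSpace ℂ V] [FiniteDimensional ℂ V]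

/-- the trace -/
def trc (V : Type) [NormedAddCommGroup V] [NormedSpace ℂ V] [FiniteDimensional ℂ V] :
    (V →L[ℂ] V) →L[ℂ] ℂ :=
  LinearMap.toContinuousLinearMap ((LinearMap.trace ℂ V).comp (ContinuousLinearMap.coeLM ℂ))

theorem trc_apply (f : V →L[ℂ] V) : trc V f = LinearMap.trace ℂ V (f : V →ₗ[ℂ] V) := rfl

theorem trc_comm (f g : V →L[ℂ] V) : trc V (f.comp g) = trc V (g.comp f) := by
  rw [trc_apply, trc_apply]
  exact LinearMap.trace_mul_comm ℂ (f : V →ₗ[ℂ] V) (g : V →ₗ[ℂ] V)

theorem trc_conj {f P Q : V →L[ℂ] V} (h : ∀ v, Q (P v) = v) :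
    trc V (P.comp (f.comp Q)) = trc V f := by
  rw [trc_comm]
  congr 1
  ext v
  simp [h]

variable [T2Space X] [IsManifold 𝓘(ℂ, C2) ω X] {S : SB A V}

theorem trc_lkFun {c : Fin A.N} (k : C2 → C2 → (V →L[ℂ] V)) {a : Fin A.N} {z : C2}
    (hz : z ∈ A.ov a c) : trc V (lkFun S c k a a z z) =
      ((‖(A.J a c z).det‖ ^ 2 : ℝ) : ℂ) * trc V (k (A.tau a c z) (A.tau a c z)) := by
  simp only [lkFun, if_pos (show z ∈ A.ov a c ∧ z ∈ A.ov a c from ⟨hz, hz⟩)]
  rw [map_smul, trc_conj (fun v => ?_), smul_eq_mul]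
  have h := sb_inv (S := S) (FinAt.tau_mem hz) v
  rwa [FinAt.tau_tau hz] at h

theorem trc_lkFun_zero {c : Fin A.N} (k : C2 → C2 → (V →L[ℂ] V)) {a : Fin A.N} {z : C2}
    (hz : z ∉ A.ov a c) : trc V (lkFun S c k a a z z) = 0 := by
  simp [lkFun, hz]

/-- the trace density of the kernel of a local operator, at points of the chart `a` -/
theorem trc_kernLO {c : Fin A.N} {k : C2 → C2 → (V →L[ℂ] V)} (h : SKer A c k) (a : Fin A.N)
    (z : C2) : LinearMap.trace ℂ V ((kernLO S c h).k a a z z : V →ₗ[ℂ] V) =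
      trc V (lkFun S c k a a z z) := rfl

/-- **(O2)**, with a weight `φ` -/
theorem trace_kernLO_weight {c : Fin A.N} {k : C2 → C2 → (V →L[ℂ] V)} (h : SKer A c k) :
    ∑ a, ∫ z, (A.r a z : ℂ) * trc V ((kernLO S c h).k a a z z) = ∫ z, trc V (k z z) := by
  obtain ⟨L, hL, hLO, hk⟩ := h.supp
  have hG0 : ∀ y, y ∉ L → trc V (k y y) = 0 := by
    intro y hy
    have : k y y = 0 := by
      by_contra hne
      exact hy (hk _ _ hne).2
    simp [this]
  have hGc : Continuous fun y => trc V (k y y) := by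
    have h1 : Continuous fun y => k y y :=
      h.smooth.continuous.comp (by fun_prop : Continuous fun y : C2 => (y, y))
    exact (trc V).continuous.comp h1
  have h1 : ∀ a, ∫ z, (A.r a z : ℂ) * trc V ((kernLO S c h).k a a z z) =
      ∫ y, (A.rho a ((A.e c).symm y) : ℂ) • trc V (k y y) := by
    intro a
    have e1 : ∫ z, (A.r a z : ℂ) * trc V ((kernLO S c h).k a a z z) =
        ∫ w in A.ov a c, ‖(A.J a c w).det‖ ^ 2 •
          ((A.rho a ((A.e c).symm (A.tau a c w)) : ℂ) • trc V (k (A.tau a c w) (A.tau a c w))) := by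
      rw [← integral_indicator (A.isOpen_ov a c).measurableSet]
      congr 1
      funext w
      by_cases hw : w ∈ A.ov a c
      · rw [indicator_of_mem hw]
        change (A.r a w : ℂ) * trc V (lkFun S c k a a w w) = _
        rw [trc_lkFun k hw, FinAt.symm_tau hw]
        simp only [FinAt.r, if_pos hw.1, smul_eq_mul, Complex.real_smul]
        ring
      · rw [indicator_of_notMem hw]
        change (A.r a w : ℂ) * trc V (lkFun S c k a a w w) = _
        rw [trc_lkFun_zero k hw, mul_zero]
    rw [e1, ← integral_ov a c (fun y => (A.rho a ((A.e c).symm y) : ℂ) • trc V (k y y)),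
      ← integral_indicator (A.isOpen_ov c a).measurableSet]
    congr 1
    funext y
    by_cases hy : y ∈ A.ov c a
    · rw [indicator_of_mem hy]
    · rw [indicator_of_notMem hy]
      by_cases hyL : y ∈ L
      · have h2 : (A.e c).symm y ∉ A.U a := fun h2 => hy ⟨hLO hyL, h2⟩
        have h3 : A.rho a ((A.e c).symm y) = 0 :=
          image_eq_zero_of_notMem_tsupport fun h4 => h2 (A.rho_supp a h4)
        simp [h3]
      · rw [hG0 y hyL, smul_zero]
  simp_rw [h1]
  have hint : ∀ b ∈ (Finset.univ : Finset (Fin A.N)),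
      Integrable fun y => (A.rho b ((A.e c).symm y) : ℂ) • trc V (k y y) := by
    intro b _
    refine integrable_of_supp (A.isOpen_O c) hL hLO ?_ fun y hy => by rw [hG0 y hy, smul_zero]
    exact ((rho_contDiffOn b c).continuousOn.mono fun y hy => hy.1).smul hGc.continuousOn
  rw [← integral_finsetSum _ hint]
  have h2 : ∀ y, ∑ b, (A.rho b ((A.e c).symm y) : ℂ) • trc V (k y y) = trc V (k y y) := by
    intro y
    rw [← Finset.sum_smul]
    have := A.rho_sum ((A.e c).symm y)
    have h3 : ∑ b, (A.rho b ((A.e c).symm y) : ℂ) = 1 := by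
      exact_mod_cast this
    rw [h3, one_smul]
  simp_rw [h2]

theorem integrable_trace [CompactSpace X] (k : Kern S) (a : Fin A.N) :
    Integrable fun z => (A.r a z : ℂ) * trc V (k.k a a z z) := by
  refine integrable_r (F := fun z => trc V (k.k a a z z)) ?_
  have h2 : ContDiffOn ℝ ∞ (fun p : C2 × C2 => k.k a a p.1 p.2) (A.O a ×ˢ A.O a) :=
    contDiffOn_clm_of_apply fun v => k.smooth a a v
  have h3 : ContinuousOn (fun z => k.k a a z z) (A.O a) :=
    h2.continuousOn.comp (f := fun w : C2 => (w, w)) (by fun_prop) fun w hw => ⟨hw, hw⟩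
  exact (trc V).continuous.comp_continuousOn h3

/-- the trace of a kernel -/
def ktr (k : Kern S) : ℂ := ∑ a, ∫ z, (A.r a z : ℂ) * trc V (k.k a a z z)

theorem ktr_kernLO {c : Fin A.N} {k : C2 → C2 → (V →L[ℂ] V)} (h : SKer A c k) :
    ktr (kernLO S c h) = ∫ z, trc V (k z z) := trace_kernLO_weight h

theorem ktr_add [CompactSpace X] (k k' : Kern S) : ktr (kernAdd k k') = ktr k + ktr k' := by
  unfold ktr
  rw [← Finset.sum_add_distrib]
  refine Finset.sum_congr rfl fun a _ => ?_
  rw [← integral_add (integrable_trace k a) (integrable_trace k' a)]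
  congr 1
  funext z
  simp only [kernAdd, map_add]
  ring

theorem ktr_smul (c : ℂ) (k : Kern S) : ktr (kernSmul c k) = c * ktr k := by
  unfold ktr
  rw [Finset.mul_sum]
  refine Finset.sum_congr rfl fun a _ => ?_
  rw [← smul_eq_mul c, ← integral_smul]
  congr 1
  funext z
  simp only [kernSmul, map_smul, smul_eq_mul]
  ring

theorem ktr_zero : ktr (kernZero S) = 0 := by
  simp [ktr, kernZero]

theorem ktr_sum [CompactSpace X] {ι : Type*} (t : Finset ι) (k : ι → Kern S) :
    ktr (kernSum t k) = ∑ i ∈ t, ktr (k i) := by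
  unfold ktr
  rw [Finset.sum_comm]
  refine Finset.sum_congr rfl fun a _ => ?_
  rw [← integral_finsetSum _ fun i _ => integrable_trace (k i) a]
  congr 1
  funext z
  simp only [kernSum, map_sum, Finset.mul_sum]

end Vale.Agent.P267.H551
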