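import Vale.Agent.P267.H551.WkOp

/-! P267 / RRC-T (helper551): derivatives of weakly singular integral operators,
integration by parts against the kernel. -/

set_option linter.unusedSectionVars false

open scoped ContDiff Topology
open MeasureTheory Metric Set Filter

namespace Vale.Agent.P267.H551

noncomputable section

universe u

/-! ### the integral of a derivative with an integrable singularity -/

section sing

variable {E : Type u} [NormedAddCommGroup E] [NormedSpace ℝ E] [FiniteDimensional ℝ E]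
  [Nontrivial E] [MeasurableSpace E] [BorelSpace E] (μ : Measure E) [μ.IsAddHaarMeasure]
  {G : Type u} [NormedAddCommGroup G] [NormedSpace ℝ G]

/-- the standard bump: `1` on the unit ball, `0` outside the ball of radius `2` -/
def bmp (E : Type u) [NormedAddCommGroup E] [NormedSpace ℝ E] [FiniteDimensional ℝ E] :
    ContDiffBump (0 : E) := ⟨1, 2, one_pos, one_lt_two⟩

/-- `bmp (n s)`: concentrated at `0` -/
def th (n : ℕ) (s : E) : ℝ := bmp E (((n : ℝ) + 1) • s)

theorem th_contDiff (n : ℕ) {m : ℕ∞} : ContDiff ℝ m (th (E := E) n) := by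
  unfold th
  exact (bmp E).contDiff.comp (contDiff_const_smul _)

theorem th_nonneg (n : ℕ) (s : E) : 0 ≤ th n s := (bmp E).nonneg
theorem th_le_one (n : ℕ) (s : E) : th n s ≤ 1 := (bmp E).le_one

theorem th_eq_zero {n : ℕ} {s : E} (h : 2 ≤ ((n : ℝ) + 1) * ‖s‖) : th n s = 0 := by
  unfold th
  apply (bmp E).zero_of_le_dist
  rw [dist_zero_right, norm_smul, Real.norm_of_nonneg (by positivity)]
  exact h

theorem th_eq_one {n : ℕ} {s : E} (h : ((n : ℝ) + 1) * ‖s‖ ≤ 1) : th n s = 1 := by
  unfold th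
  apply (bmp E).one_of_mem_closedBall
  rw [mem_closedBall, dist_zero_right, norm_smul, Real.norm_of_nonneg (by positivity)]
  exact h

theorem eventually_th_eq_zero {s : E} (hs : s ≠ 0) : ∀ᶠ n : ℕ in atTop, th n s = 0 := by
  have hn : 0 < ‖s‖ := norm_pos_iff.2 hs
  obtain ⟨N, hN⟩ := exists_nat_gt (2 / ‖s‖)
  filter_upwards [eventually_ge_atTop N] with n hnN
  apply th_eq_zero
  rw [div_lt_iff₀ hn] at hN
  have : (N : ℝ) ≤ n := by exact_mod_cast hnN
  nlinarith

theorem fderiv_th (n : ℕ) (s : E) : fderiv ℝ (th n) s =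
    ((n : ℝ) + 1) • fderiv ℝ (bmp E) (((n : ℝ) + 1) • s) := by
  unfold th
  have h1 : HasFDerivAt (fun s : E => ((n : ℝ) + 1) • s)
      (((n : ℝ) + 1) • ContinuousLinearMap.id ℝ E) s :=
    ContinuousLinearMap.hasFDerivAt (((n : ℝ) + 1) • ContinuousLinearMap.id ℝ E)
  have h2 : DifferentiableAt ℝ (bmp E) (((n : ℝ) + 1) • s) :=
    ((bmp E).contDiff (n := 1)).differentiable one_ne_zero _
  have h3 := HasFDerivAt.comp s (f := fun s : E => ((n : ℝ) + 1) • s) (g := bmp E)
    h2.hasFDerivAt h1
  refine h3.fderiv.trans ?_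
  ext v
  simp

theorem exists_bound_fderiv_bmp : ∃ L : ℝ, 0 ≤ L ∧ ∀ s : E, ‖fderiv ℝ (bmp E) s‖ ≤ L := by
  have h1 : Continuous (fderiv ℝ (bmp E)) :=
    ((bmp E).contDiff (n := 1)).continuous_fderiv one_ne_zero
  have h2 : HasCompactSupport (fderiv ℝ (bmp E)) := (bmp E).hasCompactSupport.fderiv (𝕜 := ℝ)
  obtain ⟨C, hC⟩ := h2.exists_bound_of_continuous h1
  exact ⟨max C 0, le_max_right _ _, fun s => (hC s).trans (le_max_left _ _)⟩

theorem fderiv_bmp_eq_zero {s : E} (h : 2 < ‖s‖) : fderiv ℝ (bmp E) s = 0 := by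
  have : (bmp E : E → ℝ) =ᶠ[𝓝 s] fun _ => 0 := by
    have h1 : ∀ᶠ q in 𝓝 s, 2 < ‖q‖ := continuous_norm.continuousAt.eventually_const_lt h
    filter_upwards [h1] with q hq
    apply (bmp E).zero_of_le_dist
    rw [dist_zero_right]
    exact hq.le
  rw [this.fderiv_eq]
  simp

theorem fderiv_bmp_eq_zero' {s : E} (h : ‖s‖ < 1) : fderiv ℝ (bmp E) s = 0 := by
  have : (bmp E : E → ℝ) =ᶠ[𝓝 s] fun _ => 1 := by
    have h1 : ∀ᶠ q in 𝓝 s, ‖q‖ < 1 := continuous_norm.continuousAt.eventually_lt_const h
    filter_upwards [h1] with q hq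
    apply (bmp E).one_of_mem_closedBall
    rw [mem_closedBall, dist_zero_right]
    exact hq.le
  rw [this.fderiv_eq]
  simp

/-- `n ‖Dχ(n s)‖ ≤ 2 L / ‖s‖` -/
theorem exists_bound_fderiv_th : ∃ L : ℝ, 0 ≤ L ∧ ∀ (n : ℕ) (s : E),
    ‖fderiv ℝ (th n) s‖ ≤ L * ‖s‖⁻¹ := by
  obtain ⟨L, hL0, hL⟩ := exists_bound_fderiv_bmp (E := E)
  refine ⟨2 * L, by positivity, fun n s => ?_⟩
  rw [fderiv_th, norm_smul, Real.norm_of_nonneg (by positivity)]
  by_cases hs : s = 0
  · subst hs
    rw [fderiv_bmp_eq_zero' (by simp)]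
    simp
  have hn : 0 < ‖s‖ := norm_pos_iff.2 hs
  by_cases h : ((n : ℝ) + 1) * ‖s‖ ≤ 2
  · have h1 : (n : ℝ) + 1 ≤ 2 * ‖s‖⁻¹ := by
      rw [← div_eq_mul_inv, le_div_iff₀ hn]; exact h
    calc ((n : ℝ) + 1) * ‖fderiv ℝ (bmp E) (((n : ℝ) + 1) • s)‖ ≤ (2 * ‖s‖⁻¹) * L :=
          mul_le_mul h1 (hL _) (norm_nonneg _) (by positivity)
      _ = 2 * L * ‖s‖⁻¹ := by ring
  · rw [fderiv_bmp_eq_zero]
    · simp only [norm_zero, mul_zero]
      positivity
    · rw [norm_smul, Real.norm_of_nonneg (by positivity)]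
      exact not_le.1 h

/-- truncation -/
def trn (n : ℕ) (g : E → G) (s : E) : G := (1 - th n s) • g s

theorem hasFDerivAt_trn (n : ℕ) {g : E → G} (hg : ∀ s, s ≠ 0 → DifferentiableAt ℝ g s) (s : E) :
    HasFDerivAt (trn n g) ((1 - th n s) • fderiv ℝ g s - (fderiv ℝ (th n) s).smulRight (g s)) s := by
  by_cases hs : s = 0
  · subst hs
    have h1 : trn n g =ᶠ[𝓝 0] fun _ => 0 := by
      have hpos : (0 : ℝ) < ((n : ℝ) + 1)⁻¹ := by positivity
      filter_upwards [Metric.ball_mem_nhds (0 : E) hpos] with s hs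
      have : th n s = 1 := by
        apply th_eq_one
        rw [mem_ball, dist_zero_right] at hs
        calc ((n : ℝ) + 1) * ‖s‖ ≤ ((n : ℝ) + 1) * ((n : ℝ) + 1)⁻¹ := by gcongr
          _ = 1 := mul_inv_cancel₀ (by positivity)
      simp [trn, this]
    have h2 : th n (0 : E) = 1 := th_eq_one (by simp)
    have h3 : fderiv ℝ (th n) (0 : E) = 0 := by
      rw [fderiv_th, fderiv_bmp_eq_zero' (by simp), smul_zero]
    rw [h2, h3]
    simp only [sub_self, zero_smul]
    have h4 : (0 : E →L[ℝ] ℝ).smulRight (g 0) = 0 := by ext v; simp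
    rw [h4, sub_zero]
    exact (hasFDerivAt_const (0 : G) (0 : E)).congr_of_eventuallyEq h1
  · have h1 : HasFDerivAt (fun s => 1 - th n s) (-(fderiv ℝ (th n) s)) s := by
      have := ((th_contDiff n (m := 1)).differentiable (by simp) s).hasFDerivAt
      exact this.const_sub 1
    have h2 := h1.smul (hg s hs).hasFDerivAt
    have e : (1 - th n s) • fderiv ℝ g s - (fderiv ℝ (th n) s).smulRight (g s) =
        (1 - th n s) • fderiv ℝ g s + (-fderiv ℝ (th n) s).smulRight (g s) := by
      ext v
      simp [sub_eq_add_neg]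
    rw [e]
    exact h2

/-- **the integral of the derivative vanishes, with an integrable singularity at `0`** -/
theorem integral_fderiv_eq_zero_of_sing {g : E → G} (v : E)
    (hg : ∀ s, s ≠ 0 → DifferentiableAt ℝ g s)
    (hi : Integrable g μ) (hi2 : Integrable (fun s => ‖s‖⁻¹ * ‖g s‖) μ)
    (hi3 : Integrable (fun s => fderiv ℝ g s v) μ) : ∫ s, fderiv ℝ g s v ∂μ = 0 := by
  obtain ⟨L, hL0, hL⟩ := exists_bound_fderiv_th (E := E)
  -- derivative of the truncation
  set d : ℕ → E → G := fun n s =>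
    (1 - th n s) • fderiv ℝ g s v - (fderiv ℝ (th n) s v) • g s with hd
  have hmeas1 : ∀ n, AEStronglyMeasurable (fun s : E => 1 - th n s) μ := fun n =>
    (continuous_const.sub (th_contDiff n (m := 0)).continuous).aestronglyMeasurable
  have hmeas2 : ∀ n, AEStronglyMeasurable (fun s : E => fderiv ℝ (th n) s v) μ := fun n =>
    (((th_contDiff n (m := 1)).continuous_fderiv (by simp)).clm_apply
      continuous_const).aestronglyMeasurable
  have hdm : ∀ n, AEStronglyMeasurable (d n) μ := fun n =>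
    ((hmeas1 n).smul hi3.aestronglyMeasurable).sub ((hmeas2 n).smul hi.aestronglyMeasurable)
  have hth : ∀ n (s : E), ‖1 - th n s‖ ≤ 1 := by
    intro n s
    rw [Real.norm_eq_abs, abs_le]
    constructor <;> linarith [th_nonneg n s, th_le_one n s]
  set bd : E → ℝ := fun s => ‖fderiv ℝ g s v‖ + L * ‖v‖ * (‖s‖⁻¹ * ‖g s‖) with hbd
  have hbdi : Integrable bd μ := hi3.norm.add (hi2.const_mul _)
  have hdb : ∀ n s, ‖d n s‖ ≤ bd s := by
    intro n s
    refine (norm_sub_le _ _).trans ?_
    rw [norm_smul, norm_smul]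
    refine add_le_add ?_ ?_
    · calc _ ≤ 1 * ‖fderiv ℝ g s v‖ := by gcongr; exact hth n s
        _ = _ := one_mul _
    · have h1 : ‖fderiv ℝ (th n) s v‖ ≤ L * ‖s‖⁻¹ * ‖v‖ :=
        (ContinuousLinearMap.le_opNorm _ _).trans (by gcongr; exact hL n s)
      calc _ ≤ L * ‖s‖⁻¹ * ‖v‖ * ‖g s‖ := by gcongr
        _ = _ := by ring
  have hint : ∀ n, ∫ s, d n s ∂μ = 0 := by
    intro n
    have hder : ∀ s, HasLineDerivAt ℝ (trn n g) (d n s) s v := by
      intro s
      have := (hasFDerivAt_trn n hg s).hasLineDerivAt v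
      simpa [hd] using this
    have hti : Integrable (trn n g) μ := by
      refine hi.norm.mono' ((hmeas1 n).smul hi.aestronglyMeasurable)
        (Eventually.of_forall fun s => ?_)
      unfold trn
      rw [norm_smul]
      calc _ ≤ 1 * ‖g s‖ := by gcongr; exact hth n s
        _ = _ := one_mul _
    have hdi : Integrable (d n) μ := hbdi.mono' (hdm n) (Eventually.of_forall (hdb n))
    have := integral_bilinear_hasLineDerivAt_right_eq_neg_left_of_integrable
      (μ := μ) (f := fun _ : E => (1 : ℝ)) (f' := fun _ => 0) (g := trn n g) (g' := d n) (v := v)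
      (B := ContinuousLinearMap.lsmul ℝ ℝ) (by simp) (by simpa using hdi) (by simpa using hti)
      (fun s _ => by
        simpa using (hasFDerivAt_const (1 : ℝ) s).hasLineDerivAt v) (fun s _ => hder s)
    simpa using this
  have hlim : Tendsto (fun n => ∫ s, d n s ∂μ) atTop (𝓝 (∫ s, fderiv ℝ g s v ∂μ)) := by
    refine tendsto_integral_of_dominated_convergence bd hdm hbdi
      (fun n => Eventually.of_forall (hdb n)) ?_
    filter_upwards [ae_ne_zero μ] with s hs
    have h1 : ∀ᶠ n : ℕ in atTop, d n s = fderiv ℝ g s v := by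
      have hn : 0 < ‖s‖ := norm_pos_iff.2 hs
      obtain ⟨N, hN⟩ := exists_nat_gt (2 / ‖s‖)
      filter_upwards [eventually_ge_atTop N] with n hnN
      rw [div_lt_iff₀ hn] at hN
      have h2 : (N : ℝ) ≤ n := by exact_mod_cast hnN
      have h3 : 2 < ((n : ℝ) + 1) * ‖s‖ := by nlinarith
      have h4 : th n s = 0 := th_eq_zero h3.le
      have h5 : fderiv ℝ (th n) s = 0 := by
        rw [fderiv_th, fderiv_bmp_eq_zero, smul_zero]
        rw [norm_smul, Real.norm_of_nonneg (by positivity)]
        exact h3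
      simp only [hd, h4, h5]
      simp
    exact tendsto_const_nhds.congr' (h1.mono fun n hn => hn.symm)
  have := tendsto_nhds_unique hlim (by simp only [hint]; exact tendsto_const_nhds)
  exact this

end sing

/-! ### derivatives of the operators -/

section op

variable {E : Type u} [NormedAddCommGroup E] [NormedSpace ℝ E] [FiniteDimensional ℝ E]
  [Nontrivial E] [MeasurableSpace E] [BorelSpace E] (μ : Measure E) [μ.IsAddHaarMeasure]
  {M F G : Type u} [NormedAddCommGroup M] [NormedSpace ℝ M] [NormedAddCommGroup F]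
  [NormedSpace ℝ F] [NormedAddCommGroup G] [NormedSpace ℝ G]
  (B : M →L[ℝ] F →L[ℝ] G)

/-- the integrand is integrable for every continuous function (the kernel is compactly
supported) -/
theorem Ker.integrable_bil' {a : ℕ} {k : E → E → M} (h : Ker 0 a k)
    (ha : a < Module.finrank ℝ E) {f : E → F} (hf : Continuous f) (x : E) :
    Integrable (fun y => B (k x y) (f y)) μ := by
  have : ProperSpace E := FiniteDimensional.proper_real E
  obtain ⟨ρ, hρ⟩ := h.supp
  obtain ⟨c, hc⟩ := (isCompact_closedBall (0 : E) ρ).exists_bound_of_continuousOn hf.continuousOn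
  have hm : AEStronglyMeasurable ((closedBall (0 : E) ρ).indicator f) μ :=
    hf.aestronglyMeasurable.indicator measurableSet_closedBall
  have hb : ∀ y, ‖(closedBall (0 : E) ρ).indicator f y‖ ≤ max c 0 := by
    intro y
    by_cases hy : y ∈ closedBall (0 : E) ρ
    · rw [indicator_of_mem hy]
      exact (hc y hy).trans (le_max_left _ _)
    · rw [indicator_of_notMem hy, norm_zero]
      exact le_max_right _ _
  have h1 := h.integrable_bil μ B ha hm hb x
  refine h1.congr (Eventually.of_forall fun y => ?_)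
  by_cases hy : y ∈ closedBall (0 : E) ρ
  · simp only [indicator_of_mem hy]
  · have : k x y = 0 := by
      by_contra hne
      exact hy (by simpa using (hρ x y hne).2)
    simp [this]

theorem Ker.integrable_bil_add {a : ℕ} {k : E → E → M} (h : Ker 0 a k)
    (ha : a < Module.finrank ℝ E) {f : E → F} (hf : Continuous f) (x : E) :
    Integrable (fun s => B (k x (x + s)) (f (x + s))) μ :=
  (h.integrable_bil' μ B ha hf x).comp_add_left x

theorem Ker.hasFDerivAt_diag {a : ℕ} {k : E → E → M} (h : Ker 1 a k) {x s : E} (hs : s ≠ 0) :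
    HasFDerivAt (fun x => k x (x + s)) (H551.dk k x (x + s)) x := by
  have := h.ph.hasFDerivAt (q := x) hs
  simpa [H551.dk] using this

/-- the derivative falls on the kernel along the diagonal and on the function -/
theorem Ker.hasFDerivAt_Tk' {a : ℕ} {k : E → E → M} (h : Ker 1 a k)
    (ha : a < Module.finrank ℝ E) {f : E → F} (hf : ContDiff ℝ 1 f) (x : E) :
    HasFDerivAt (Tk μ B k f)
      (Tk μ (B.precompL E) (H551.dk k) f x + Tk μ (B.precompR E) k (fderiv ℝ f) x) x := by
  set g : E → E → G := fun q s => B (k q (q + s)) (f (q + s)) with hg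
  have hph : PH 1 a g := by
    have h2 : PH 1 0 fun (q : E) (s : E) => f (q + s) := by
      refine PH.of_contDiff ?_
      exact hf.comp (by fun_prop)
    have := h.ph.bilin B h2
    simpa using this
  obtain ⟨ρ, hρ⟩ := h.supp
  have hR : ∀ q s, 2 * ρ < ‖s‖ → g q s = 0 := by
    intro q s hs
    have : k q (q + s) = 0 := by
      by_contra hne
      obtain ⟨h1, h2⟩ := hρ _ _ hne
      have h3 : ‖s‖ ≤ ‖q + s‖ + ‖q‖ := by
        calc ‖s‖ = ‖(q + s) - q‖ := by congr 1; abel
          _ ≤ _ := norm_sub_le _ _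
      linarith
    simp [hg, this]
  have h1 := hph.hasFDerivAt_integral μ ha hR x
  have e1 : (fun q => ∫ s, g q s ∂μ) = Tk μ B k f := funext fun q => (Tk_eq μ B k f q).symm
  rw [e1] at h1
  have hd : Ker 0 a (H551.dk k) := Ker.dk (N := 0) (by simpa using h)
  have h0 : Ker 0 a k := h.of_le zero_le_one
  have e2 : ∫ s, dq g x s ∂μ =
      Tk μ (B.precompL E) (H551.dk k) f x + Tk μ (B.precompR E) k (fderiv ℝ f) x := by
    rw [Tk_eq, Tk_eq, ← integral_add (hd.integrable_bil_add μ (B.precompL E) ha hf.continuous x)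
      (h0.integrable_bil_add μ (B.precompR E) ha (hf.continuous_fderiv one_ne_zero) x)]
    refine integral_congr_ae ?_
    filter_upwards [ae_ne_zero μ] with s hs
    have h3 := h.hasFDerivAt_diag (x := x) hs
    have h4 : HasFDerivAt (fun q : E => f (q + s)) (fderiv ℝ f (x + s)) x := by
      have h5 : HasFDerivAt (fun q : E => q + s) (ContinuousLinearMap.id ℝ E) x :=
        (hasFDerivAt_id x).add_const s
      exact HasFDerivAt.comp x (f := fun q : E => q + s) (g := f)
        (hf.differentiable one_ne_zero _).hasFDerivAt h5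
    have h6 := B.hasFDerivAt_of_bilinear h3 h4
    have h7 : dq g x s = _ := h6.fderiv
    rw [h7, add_comm]
  rwa [e2] at h1

theorem Ker.hasFDerivAt_slice {a : ℕ} {k : E → E → M} (h : Ker 1 a k) {f : E → F}
    (hf : ContDiff ℝ 1 f) (x : E) {s : E} (hs : s ≠ 0) :
    HasFDerivAt (fun s => B (k x (x + s)) (f (x + s)))
      (B.precompL E (H551.ky k x (x + s)) (f (x + s)) +
        B.precompR E (k x (x + s)) (fderiv ℝ f (x + s))) s := by
  have h5 : HasFDerivAt (fun q : E => x + q) (ContinuousLinearMap.id ℝ E) s :=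
    (hasFDerivAt_id s).const_add x
  have hne : x + s ≠ x := by simpa using hs
  have h3 : HasFDerivAt (fun s : E => k x (x + s)) (H551.ky k x (x + s)) s :=
    HasFDerivAt.comp s (f := fun q : E => x + q) (g := k x) (h.hasFDerivAt_y hne) h5
  have h4 : HasFDerivAt (fun q : E => f (x + q)) (fderiv ℝ f (x + s)) s :=
    HasFDerivAt.comp s (f := fun q : E => x + q) (g := f)
      (hf.differentiable one_ne_zero _).hasFDerivAt h5
  have h6 := B.hasFDerivAt_of_bilinear h3 h4
  rwa [add_comm] at h6

/-- **integration by parts against a weakly singular kernel** -/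
theorem Ker.Tk_fderiv {a : ℕ} {k : E → E → M} (h : Ker 1 a k)
    (ha : a + 1 < Module.finrank ℝ E) {f : E → F} (hf : ContDiff ℝ 1 f) (x v : E) :
    Tk μ B k (fun y => fderiv ℝ f y v) x = - Tk μ B (fun x y => H551.ky k x y v) f x := by
  have : ProperSpace E := FiniteDimensional.proper_real E
  have hd : Ker 0 (a + 1) (H551.ky k) := Ker.ky (N := 0) (by simpa using h)
  have h0 : Ker 0 a k := h.of_le zero_le_one
  have ha' : a < Module.finrank ℝ E := by omega
  set g : E → G := fun s => B (k x (x + s)) (f (x + s)) with hg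
  have hder := fun s (hs : s ≠ 0) => h.hasFDerivAt_slice B hf x (s := s) hs
  have hi : Integrable g μ := h0.integrable_bil_add μ B ha' hf.continuous x
  have hI1 : Integrable (fun s => B.precompL E (H551.ky k x (x + s)) (f (x + s))) μ :=
    hd.integrable_bil_add μ (B.precompL E) ha hf.continuous x
  have hI2 : Integrable (fun s => B.precompR E (k x (x + s)) (fderiv ℝ f (x + s))) μ :=
    h0.integrable_bil_add μ (B.precompR E) ha' (hf.continuous_fderiv one_ne_zero) x
  have hJ1 : Integrable (fun s => B (H551.ky k x (x + s) v) (f (x + s))) μ := by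
    simpa using hI1.apply_continuousLinearMap v
  have hJ2 : Integrable (fun s => B (k x (x + s)) (fderiv ℝ f (x + s) v)) μ := by
    simpa using hI2.apply_continuousLinearMap v
  have hae : (fun s => fderiv ℝ g s v) =ᵐ[μ] fun s => B (H551.ky k x (x + s) v) (f (x + s)) +
      B (k x (x + s)) (fderiv ℝ f (x + s) v) := by
    filter_upwards [ae_ne_zero μ] with s hs
    rw [(hder s hs).fderiv]
    simp
  have hi3 : Integrable (fun s => fderiv ℝ g s v) μ := (hJ1.add hJ2).congr hae.symm
  have hi2 : Integrable (fun s => ‖s‖⁻¹ * ‖g s‖) μ := by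
    obtain ⟨C, R, hC0, hR0, hC⟩ := h0.bound
    obtain ⟨c, hc⟩ := (isCompact_closedBall x R).exists_bound_of_continuousOn
      hf.continuous.continuousOn
    refine (integrable_bound μ ha (‖B‖ * C * max c 0) R).mono' ?_ ?_
    · exact (measurable_norm.inv.aestronglyMeasurable).mul hi.aestronglyMeasurable.norm
    · filter_upwards [ae_ne_zero μ] with s hs
      have h1 := hC x s hs
      have hn : 0 < ‖s‖ := norm_pos_iff.2 hs
      rw [Real.norm_of_nonneg (by positivity)]
      by_cases hsR : s ∈ closedBall (0 : E) R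
      · rw [indicator_of_mem hsR] at h1 ⊢
        have h2 : ‖f (x + s)‖ ≤ max c 0 := by
          refine (hc _ ?_).trans (le_max_left _ _)
          simpa using hsR
        calc ‖s‖⁻¹ * ‖g s‖ ≤ ‖s‖⁻¹ * (‖B‖ * ‖k x (x + s)‖ * ‖f (x + s)‖) := by
              gcongr; exact B.le_opNorm₂ _ _
          _ ≤ ‖s‖⁻¹ * (‖B‖ * (C * (‖s‖ ^ a)⁻¹) * max c 0) := by
              gcongr
          _ = ‖B‖ * C * max c 0 * (‖s‖ ^ (a + 1))⁻¹ := by
              rw [pow_succ, mul_inv]; ring
      · rw [indicator_of_notMem hsR] at h1 ⊢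
        have h2 : k x (x + s) = 0 := norm_le_zero_iff.1 h1
        simp [hg, h2]
  have hz := integral_fderiv_eq_zero_of_sing μ v
    (fun s hs => (hder s hs).differentiableAt) hi hi2 hi3
  rw [integral_congr_ae hae, integral_add hJ1 hJ2] at hz
  rw [Tk_eq, Tk_eq]
  exact eq_neg_of_add_eq_zero_right hz

theorem Ker.Tk_precompL_apply {a : ℕ} {k : E → E → (E →L[ℝ] M)} (h : Ker 0 a k)
    (ha : a < Module.finrank ℝ E) {f : E → F} (hf : Continuous f) (x v : E) :
    Tk μ (B.precompL E) k f x v = Tk μ B (fun x y => k x y v) f x := by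
  have := ContinuousLinearMap.integral_apply (h.integrable_bil' μ (B.precompL E) ha hf x) v
  unfold Tk
  rw [this]
  simp

theorem Ker.Tk_precompR_apply {a : ℕ} {k : E → E → M} (h : Ker 0 a k)
    (ha : a < Module.finrank ℝ E) {f : E → (E →L[ℝ] F)} (hf : Continuous f) (x v : E) :
    Tk μ (B.precompR E) k f x v = Tk μ B k (fun y => f y v) x := by
  have := ContinuousLinearMap.integral_apply (h.integrable_bil' μ (B.precompR E) ha hf x) v
  unfold Tk
  rw [this]
  simp

/-- **the derivative of the operator** -/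
theorem Ker.hasFDerivAt_Tk {a : ℕ} {k : E → E → M} (h : Ker 1 a k)
    (ha : a + 1 < Module.finrank ℝ E) {f : E → F} (hf : ContDiff ℝ 1 f) (x : E) :
    HasFDerivAt (Tk μ B k f) (Tk μ (B.precompL E) (H551.kx k) f x) x := by
  have ha' : a < Module.finrank ℝ E := by omega
  have hd : Ker 0 a (H551.dk k) := Ker.dk (N := 0) (by simpa using h)
  have hy : Ker 0 (a + 1) (H551.ky k) := Ker.ky (N := 0) (by simpa using h)
  have hx : Ker 0 (a + 1) (H551.kx k) := Ker.kx (N := 0) (by simpa using h)
  have h0 : Ker 0 a k := h.of_le zero_le_one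
  have h1 := h.hasFDerivAt_Tk' μ B ha' hf x
  have e : Tk μ (B.precompL E) (H551.dk k) f x + Tk μ (B.precompR E) k (fderiv ℝ f) x =
      Tk μ (B.precompL E) (H551.kx k) f x := by
    ext v
    rw [add_apply, hd.Tk_precompL_apply μ B ha' hf.continuous,
      h0.Tk_precompR_apply μ B ha' (hf.continuous_fderiv one_ne_zero), h.Tk_fderiv μ B ha hf,
      hx.Tk_precompL_apply μ B ha hf.continuous, ← sub_eq_add_neg]
    have hJ1 : Integrable (fun y => B (H551.dk k x y v) (f y)) μ := by
      simpa using (hd.integrable_bil' μ (B.precompL E) ha' hf.continuous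
        x).apply_continuousLinearMap v
    have hJ2 : Integrable (fun y => B (H551.ky k x y v) (f y)) μ := by
      simpa using (hy.integrable_bil' μ (B.precompL E) ha hf.continuous
        x).apply_continuousLinearMap v
    unfold Tk
    rw [← integral_sub hJ1 hJ2]
    refine integral_congr_ae (Eventually.of_forall fun y => ?_)
    simp [H551.kx]
  rwa [e] at h1

/-- a directional derivative of the operator -/
theorem Ker.fderiv_Tk_apply {a : ℕ} {k : E → E → M} (h : Ker 1 a k)
    (ha : a + 1 < Module.finrank ℝ E) {f : E → F} (hf : ContDiff ℝ 1 f) (x v : E) :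
    fderiv ℝ (Tk μ B k f) x v = Tk μ B (fun x y => H551.kx k x y v) f x := by
  rw [(h.hasFDerivAt_Tk μ B ha hf x).fderiv]
  exact (Ker.kx (N := 0) (by simpa using h) : Ker 0 (a + 1) (H551.kx k)).Tk_precompL_apply μ B ha
    hf.continuous x v

end op

end

end Vale.Agent.P267.H551
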