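import Vale.Agent.P267.H551.WkDiff

/-! P267 / RRC-T (helper551): closure properties of kernels, kernels on an open set,
homogeneous kernels, cut-offs. -/

set_option linter.unusedSectionVars false

open scoped ContDiff Topology
open MeasureTheory Metric Set Filter

namespace Vale.Agent.P267.H551

noncomputable section

universe u

/-! ### closure properties of `Ker` -/

section closure

variable {E : Type u} [NormedAddCommGroup E] [NormedSpace ℝ E] [FiniteDimensional ℝ E]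
  {M M' M'' : Type u} [NormedAddCommGroup M] [NormedSpace ℝ M] [NormedAddCommGroup M']
  [NormedSpace ℝ M'] [NormedAddCommGroup M''] [NormedSpace ℝ M'']
  {N : WithTop ℕ∞} {a b : ℕ}

theorem Ker.add {k k' : E → E → M} (h : Ker N a k) (h' : Ker N a k') :
    Ker N a fun x y => k x y + k' x y := by
  refine ⟨h.ph.add h'.ph, ?_⟩
  obtain ⟨ρ, hρ⟩ := h.supp
  obtain ⟨ρ', hρ'⟩ := h'.supp
  refine ⟨max ρ ρ', fun x y hne => ?_⟩
  by_cases h1 : k x y = 0
  · have h2 : k' x y ≠ 0 := by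
      intro h2; exact hne (by rw [h1, h2, add_zero])
    exact ⟨(hρ' _ _ h2).1.trans (le_max_right _ _), (hρ' _ _ h2).2.trans (le_max_right _ _)⟩
  · exact ⟨(hρ _ _ h1).1.trans (le_max_left _ _), (hρ _ _ h1).2.trans (le_max_left _ _)⟩

theorem Ker.neg {k : E → E → M} (h : Ker N a k) : Ker N a fun x y => -k x y := by
  refine ⟨h.ph.neg, ?_⟩
  obtain ⟨ρ, hρ⟩ := h.supp
  exact ⟨ρ, fun x y hne => hρ x y fun h1 => hne (by rw [h1, neg_zero])⟩

theorem Ker.sub {k k' : E → E → M} (h : Ker N a k) (h' : Ker N a k') :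
    Ker N a fun x y => k x y - k' x y := by
  simpa [sub_eq_add_neg] using h.add h'.neg

theorem Ker.zero : Ker N a fun (_ _ : E) => (0 : M) :=
  ⟨⟨0, contDiffOn_const, fun q s r _ _ => by simp⟩, 0, fun x y h => absurd rfl h⟩

theorem Ker.sum {ι : Type*} {t : Finset ι} {k : ι → E → E → M} (h : ∀ i ∈ t, Ker N a (k i)) :
    Ker N a fun x y => ∑ i ∈ t, k i x y := by
  classical
  induction t using Finset.induction_on with
  | empty => simpa using Ker.zero
  | insert i t hi ih =>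
    simp only [Finset.sum_insert hi]
    exact (h i (Finset.mem_insert_self i t)).add (ih fun j hj => h j (Finset.mem_insert_of_mem hj))

theorem Ker.raise {k : E → E → M} (h : Ker N a k) (hab : a ≤ b) : Ker N b k :=
  ⟨h.ph.raise_le hab, h.supp⟩

theorem Ker.clm {k : E → E → M} (A : M →L[ℝ] M') (h : Ker N a k) :
    Ker N a fun x y => A (k x y) := by
  refine ⟨h.ph.clm A, ?_⟩
  obtain ⟨ρ, hρ⟩ := h.supp
  exact ⟨ρ, fun x y hne => hρ x y fun h1 => hne (by rw [h1, map_zero])⟩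

/-- orders add -/
theorem Ker.bilin {k : E → E → M} {k' : E → E → M'} (B : M →L[ℝ] M' →L[ℝ] M'')
    (h : Ker N a k) (h' : PH N b fun x s => k' x (x + s)) :
    Ker N (a + b) fun x y => B (k x y) (k' x y) := by
  refine ⟨h.ph.bilin B h', ?_⟩
  obtain ⟨ρ, hρ⟩ := h.supp
  exact ⟨ρ, fun x y hne => hρ x y fun h1 => hne (by rw [h1, map_zero, zero_apply])⟩

/-- multiplication by a smooth function -/
theorem Ker.bilin_smooth {k : E → E → M} (B : M →L[ℝ] M' →L[ℝ] M'') (h : Ker N a k)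
    {k' : E × E → M'} (h' : ContDiff ℝ N k') : Ker N a fun x y => B (k x y) (k' (x, y)) := by
  have h2 : PH N 0 fun x s => k' (x, x + s) := by
    refine PH.of_contDiff ?_
    exact h'.comp (by fun_prop)
  simpa using h.bilin (k' := fun x y => k' (x, y)) B h2

/-- multiplication by a smooth scalar function -/
theorem Ker.smul_smooth {k : E → E → M} (h : Ker N a k) {φ : E × E → ℝ}
    (h' : ContDiff ℝ N φ) : Ker N a fun x y => φ (x, y) • k x y := by
  obtain ⟨⟨Φ, h1, h2⟩, ρ, hρ⟩ := h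
  refine ⟨⟨fun z => φ (z.1, z.1 + z.2.2 • z.2.1) • Φ z, ?_, fun x s r hs hr => ?_⟩, ρ,
    fun x y hne => hρ x y fun h1 => hne (by rw [h1, smul_zero])⟩
  · have h3 : ContDiff ℝ N fun z : E × E × ℝ => (z.1, z.1 + z.2.2 • z.2.1) := by fun_prop
    exact (h'.comp h3).contDiffOn.smul h1
  · have h3 := h2 x s r hs hr
    dsimp only at h3 ⊢
    rw [h3, smul_comm]

/-- the transposed kernel -/
theorem Ker.swap {k : E → E → M} (h : Ker N a k) : Ker N a fun x y => k y x := by
  obtain ⟨⟨Φ, h1, h2⟩, ρ, hρ⟩ := h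
  refine ⟨⟨fun z => Φ (z.1 + z.2.2 • z.2.1, -z.2.1, z.2.2), ?_, fun x s r hs hr => ?_⟩,
    ρ, fun x y hne => (hρ _ _ hne).symm⟩
  · refine h1.comp (f := fun z : E × E × ℝ => (z.1 + z.2.2 • z.2.1, -z.2.1, z.2.2)) ?_ ?_
    · have : ContDiff ℝ N fun z : E × E × ℝ => (z.1 + z.2.2 • z.2.1, -z.2.1, z.2.2) := by
        fun_prop
      exact this.contDiffOn
    · intro z hz
      exact neg_ne_zero.2 hz
  · have := h2 (x + r • s) (-s) r (neg_ne_zero.2 hs) hr
    simpa using this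

/-- a compactly supported smooth kernel -/
theorem Ker.of_contDiff {k : E → E → M} (h : ContDiff ℝ N fun p : E × E => k p.1 p.2)
    (hs : HasCompactSupport fun p : E × E => k p.1 p.2) : Ker N 0 k := by
  refine ⟨PH.of_contDiff ?_, ?_⟩
  · have : ContDiff ℝ N fun p : E × E => (p.1, p.1 + p.2) := by fun_prop
    exact h.comp this
  · obtain ⟨C, hC⟩ := hs.isCompact.isBounded.exists_norm_le
    refine ⟨C, fun x y hne => ?_⟩
    have h1 : ‖((x, y) : E × E)‖ ≤ C := hC _ (subset_tsupport _ hne)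
    exact ⟨(norm_fst_le _).trans h1, (norm_snd_le _).trans h1⟩

end closure

/-! ### kernels on an open set of pairs -/

section loc

variable {E : Type u} [NormedAddCommGroup E] [NormedSpace ℝ E]
  {M M' M'' : Type u} [NormedAddCommGroup M] [NormedSpace ℝ M] [NormedAddCommGroup M']
  [NormedSpace ℝ M'] [NormedAddCommGroup M''] [NormedSpace ℝ M'']
  {N : WithTop ℕ∞} {a b : ℕ} {D D' : Set (E × E)}

/-- smooth cut-off functions -/
theorem exists_cutoff [FiniteDimensional ℝ E] {K U : Set E} (hK : IsCompact K) (hU : IsOpen U)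
    (hKU : K ⊆ U) : ∃ χ : E → ℝ, ContDiff ℝ ∞ χ ∧ HasCompactSupport χ ∧ tsupport χ ⊆ U ∧
      (∀ᶠ x in 𝓝ˢ K, χ x = 1) ∧ ∀ x, χ x ∈ Icc (0 : ℝ) 1 := by
  have : ProperSpace E := FiniteDimensional.proper_real E
  obtain ⟨L, hL, hKL, hLU⟩ := exists_compact_between hK hU hKU
  obtain ⟨f, h1, h2, h3⟩ := exists_contMDiffMap_one_nhds_of_subset_interior (n := (⊤ : ℕ∞))
    (modelWithCornersSelf ℝ E) hK.isClosed hKL
  have hs : tsupport f ⊆ L := by
    refine closure_minimal (fun x hx => ?_) hL.isClosed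
    by_contra hxL
    exact hx (h2 x hxL)
  refine ⟨f, f.contMDiff.contDiff, ?_, hs.trans hLU, h1, h3⟩
  exact hL.of_isClosed_subset (isClosed_tsupport _) hs

/-- domain of the profiles -/
def KDom (D : Set (E × E)) : Set (E × E × ℝ) := {z | z.2.1 ≠ 0 ∧ (z.1, z.1 + z.2.2 • z.2.1) ∈ D}

/-- kernel of order `a` along the diagonal, on the set `D` of pairs `(x, y)` -/
def KerOn (N : WithTop ℕ∞) (a : ℕ) (D : Set (E × E)) (k : E → E → M) : Prop :=
  ∃ Φ : E × E × ℝ → M, ContDiffOn ℝ N Φ (KDom D) ∧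
    ∀ x s r, s ≠ 0 → 0 < r → (x, x + r • s) ∈ D → k x (x + r • s) = ((r : ℝ) ^ a)⁻¹ • Φ (x, s, r)

theorem isOpen_KDom (hD : IsOpen D) : IsOpen (KDom D) := by
  have h1 : Continuous fun z : E × E × ℝ => z.2.1 := by fun_prop
  have h2 : Continuous fun z : E × E × ℝ => (z.1, z.1 + z.2.2 • z.2.1) := by fun_prop
  exact (isOpen_ne.preimage h1).inter (hD.preimage h2)

theorem KerOn.mono {k : E → E → M} (h : KerOn N a D k) (hD : D' ⊆ D) : KerOn N a D' k := by
  obtain ⟨Φ, h1, h2⟩ := h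
  exact ⟨Φ, h1.mono fun z hz => ⟨hz.1, hD hz.2⟩, fun x s r hs hr hd => h2 x s r hs hr (hD hd)⟩

theorem KerOn.of_le {N' : WithTop ℕ∞} {k : E → E → M} (h : KerOn N a D k) (hN : N' ≤ N) :
    KerOn N' a D k := by
  obtain ⟨Φ, h1, h2⟩ := h
  exact ⟨Φ, h1.of_le hN, h2⟩

theorem KerOn.congr {k k' : E → E → M} (h : KerOn N a D k)
    (hk : ∀ x y, (x, y) ∈ D → x ≠ y → k' x y = k x y) : KerOn N a D k' := by
  obtain ⟨Φ, h1, h2⟩ := h
  refine ⟨Φ, h1, fun x s r hs hr hd => ?_⟩
  rw [hk _ _ hd, h2 x s r hs hr hd]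
  intro h
  exact smul_ne_zero hr.ne' hs (by simpa using h.symm)

theorem KerOn.raise {k : E → E → M} (h : KerOn N a D k) : KerOn N (a + 1) D k := by
  obtain ⟨Φ, h1, h2⟩ := h
  refine ⟨fun z => z.2.2 • Φ z, ?_, fun x s r hs hr hd => ?_⟩
  · refine ContDiffOn.smul ?_ h1
    fun_prop
  · dsimp only
    rw [h2 x s r hs hr hd, smul_smul, pow_succ]
    congr 1
    field_simp

theorem KerOn.raise_le {k : E → E → M} (h : KerOn N a D k) (hab : a ≤ b) : KerOn N b D k := by
  induction b, hab using Nat.le_induction with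
  | base => exact h
  | succ n _ ih => exact ih.raise

theorem KerOn.zero : KerOn N a D fun (_ _ : E) => (0 : M) :=
  ⟨0, contDiffOn_const, fun x s r _ _ _ => by simp⟩

theorem KerOn.add {k k' : E → E → M} (h : KerOn N a D k) (h' : KerOn N a D k') :
    KerOn N a D fun x y => k x y + k' x y := by
  obtain ⟨Φ, h1, h2⟩ := h
  obtain ⟨Φ', h1', h2'⟩ := h'
  refine ⟨fun z => Φ z + Φ' z, h1.add h1', fun x s r hs hr hd => ?_⟩
  dsimp only
  rw [h2 x s r hs hr hd, h2' x s r hs hr hd, smul_add]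

theorem KerOn.neg {k : E → E → M} (h : KerOn N a D k) : KerOn N a D fun x y => -k x y := by
  obtain ⟨Φ, h1, h2⟩ := h
  refine ⟨fun z => -Φ z, h1.neg, fun x s r hs hr hd => ?_⟩
  dsimp only
  rw [h2 x s r hs hr hd, smul_neg]

theorem KerOn.sub {k k' : E → E → M} (h : KerOn N a D k) (h' : KerOn N a D k') :
    KerOn N a D fun x y => k x y - k' x y := by
  simpa [sub_eq_add_neg] using h.add h'.neg

theorem KerOn.sum {ι : Type*} {t : Finset ι} {k : ι → E → E → M}
    (h : ∀ i ∈ t, KerOn N a D (k i)) : KerOn N a D fun x y => ∑ i ∈ t, k i x y := by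
  classical
  induction t using Finset.induction_on with
  | empty => simpa using KerOn.zero
  | insert i t hi ih =>
    simp only [Finset.sum_insert hi]
    exact (h i (Finset.mem_insert_self i t)).add (ih fun j hj => h j (Finset.mem_insert_of_mem hj))

theorem KerOn.clm {k : E → E → M} (A : M →L[ℝ] M') (h : KerOn N a D k) :
    KerOn N a D fun x y => A (k x y) := by
  obtain ⟨Φ, h1, h2⟩ := h
  refine ⟨fun z => A (Φ z), A.contDiff.comp_contDiffOn h1, fun x s r hs hr hd => ?_⟩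
  dsimp only
  rw [h2 x s r hs hr hd, map_smul]

/-- orders add -/
theorem KerOn.bilin {k : E → E → M} {k' : E → E → M'} (B : M →L[ℝ] M' →L[ℝ] M'')
    (h : KerOn N a D k) (h' : KerOn N b D k') :
    KerOn N (a + b) D fun x y => B (k x y) (k' x y) := by
  obtain ⟨Φ, h1, h2⟩ := h
  obtain ⟨Φ', h1', h2'⟩ := h'
  refine ⟨fun z => B (Φ z) (Φ' z), ?_, fun x s r hs hr hd => ?_⟩
  · exact (B.contDiff.comp_contDiffOn h1).clm_apply h1'
  · dsimp only
    rw [h2 x s r hs hr hd, h2' x s r hs hr hd]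
    simp only [map_smul, smul_apply, smul_smul]
    congr 1
    rw [pow_add, mul_inv]
    ring

/-- a smooth function on `D` has order `0` -/
theorem KerOn.of_contDiffOn {k : E × E → M} (h : ContDiffOn ℝ N k D) :
    KerOn N 0 D fun x y => k (x, y) := by
  refine ⟨fun z => k (z.1, z.1 + z.2.2 • z.2.1), ?_, fun x s r hs hr _ => by simp⟩
  have h1 : ContDiff ℝ N fun z : E × E × ℝ => (z.1, z.1 + z.2.2 • z.2.1) := by fun_prop
  exact h.comp h1.contDiffOn fun z hz => hz.2

/-- multiplication by a smooth real function on `D` -/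
theorem KerOn.smul_contDiffOn {k : E → E → M} (h : KerOn N a D k) {φ : E × E → ℝ}
    (h' : ContDiffOn ℝ N φ D) : KerOn N a D fun x y => φ (x, y) • k x y := by
  obtain ⟨Φ, h1, h2⟩ := h
  refine ⟨fun z => φ (z.1, z.1 + z.2.2 • z.2.1) • Φ z, ?_, fun x s r hs hr hd => ?_⟩
  · have h3 : ContDiff ℝ N fun z : E × E × ℝ => (z.1, z.1 + z.2.2 • z.2.1) := by fun_prop
    exact (h'.comp h3.contDiffOn fun z hz => hz.2).smul h1
  · dsimp only
    rw [h2 x s r hs hr hd, smul_comm]

/-- products of complex kernels -/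
theorem KerOn.mul {E : Type} [NormedAddCommGroup E] [NormedSpace ℝ E]
    {D : Set (E × E)} {k k' : E → E → ℂ} (h : KerOn N a D k) (h' : KerOn N b D k') :
    KerOn N (a + b) D fun x y => k x y * k' x y := by
  simpa using h.bilin (ContinuousLinearMap.mul ℝ ℂ) h'

/-- **homogeneous kernels**: `h (A (x, y) (y - x))`, `h` homogeneous of degree `-a`, `A (x, y)`
injective on `D` -/
theorem KerOn.homog {V : Type u} [NormedAddCommGroup V] [NormedSpace ℝ V] {h : V → M}
    (hh : ContDiffOn ℝ N h {v | v ≠ 0})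
    (hom : ∀ (r : ℝ) (v : V), 0 < r → v ≠ 0 → h (r • v) = ((r : ℝ) ^ a)⁻¹ • h v)
    {A : E × E → (E →L[ℝ] V)} (hA : ContDiffOn ℝ N A D)
    (hinj : ∀ p ∈ D, ∀ s, s ≠ 0 → A p s ≠ 0) :
    KerOn N a D fun x y => h (A (x, y) (y - x)) := by
  refine ⟨fun z => h (A (z.1, z.1 + z.2.2 • z.2.1) z.2.1), ?_, fun x s r hs hr hd => ?_⟩
  · have h1 : ContDiff ℝ N fun z : E × E × ℝ => (z.1, z.1 + z.2.2 • z.2.1) := by fun_prop
    have h2 : ContDiffOn ℝ N (fun z : E × E × ℝ => A (z.1, z.1 + z.2.2 • z.2.1)) (KDom D) :=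
      hA.comp h1.contDiffOn fun z hz => hz.2
    have h3 : ContDiffOn ℝ N (fun z : E × E × ℝ => z.2.1) (KDom D) := by fun_prop
    exact hh.comp (h2.clm_apply h3) fun z hz => hinj _ hz.2 _ hz.1
  · dsimp only
    rw [add_sub_cancel_left, map_smul, hom r _ hr (hinj _ hd s hs)]

/-- **cut-off**: a local kernel times a smooth function supported in `D` is a kernel -/
theorem KerOn.cut [FiniteDimensional ℝ E] (hD : IsOpen D) {k : E → E → M} (h : KerOn N a D k)
    {η : E × E → ℝ} (hη : ContDiff ℝ N η) (hs : HasCompactSupport η) (hsub : tsupport η ⊆ D) :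
    Ker N a fun x y => η (x, y) • k x y := by
  obtain ⟨Φ, h1, h2⟩ := h
  have hc : ContDiff ℝ N fun z : E × E × ℝ => (z.1, z.1 + z.2.2 • z.2.1) := by fun_prop
  refine ⟨⟨fun z => η (z.1, z.1 + z.2.2 • z.2.1) • Φ z, ?_, fun x s r hs hr => ?_⟩, ?_⟩
  · intro z hz
    by_cases hzD : (z.1, z.1 + z.2.2 • z.2.1) ∈ D
    · have h3 : ContDiffAt ℝ N Φ z :=
        h1.contDiffAt ((isOpen_KDom hD).mem_nhds ⟨hz, hzD⟩)
      exact ((hη.comp hc).contDiffAt.smul h3).contDiffWithinAt
    · have h3 : ∀ᶠ w in 𝓝 z, (w.1, w.1 + w.2.2 • w.2.1) ∉ tsupport η := by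
        have h4 : (z.1, z.1 + z.2.2 • z.2.1) ∈ (tsupport η)ᶜ := fun h5 => hzD (hsub h5)
        exact hc.continuous.continuousAt.eventually
          ((isClosed_tsupport η).isOpen_compl.mem_nhds h4)
      have h4 : (fun z : E × E × ℝ => η (z.1, z.1 + z.2.2 • z.2.1) • Φ z) =ᶠ[𝓝 z]
          fun _ => 0 := by
        filter_upwards [h3] with w hw
        rw [image_eq_zero_of_notMem_tsupport hw, zero_smul]
      exact ((contDiffAt_const (c := (0 : M))).congr_of_eventuallyEq h4).contDiffWithinAt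
  · by_cases hd : (x, x + r • s) ∈ D
    · dsimp only
      rw [h2 x s r hs hr hd, smul_comm]
    · have h3 : η (x, x + r • s) = 0 :=
        image_eq_zero_of_notMem_tsupport fun h5 => hd (hsub h5)
      dsimp only
      rw [h3, zero_smul, zero_smul, smul_zero]
  · obtain ⟨C, hC⟩ := hs.isCompact.isBounded.exists_norm_le
    refine ⟨C, fun x y hne => ?_⟩
    have h0 : η (x, y) ≠ 0 := fun h0 => hne (by simp [h0])
    have h1 : ‖((x, y) : E × E)‖ ≤ C := hC _ (subset_tsupport _ h0)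
    exact ⟨(norm_fst_le _).trans h1, (norm_snd_le _).trans h1⟩

/-- a local kernel is smooth off the diagonal -/
theorem KerOn.contDiffOn {k : E → E → M} (h : KerOn N a D k) :
    ContDiffOn ℝ N (fun p : E × E => k p.1 p.2) {p | p ∈ D ∧ p.1 ≠ p.2} := by
  obtain ⟨Φ, h1, h2⟩ := h
  have h3 : ContDiffOn ℝ N (fun p : E × E => Φ (p.1, p.2 - p.1, 1)) {p | p ∈ D ∧ p.1 ≠ p.2} := by
    refine h1.comp (f := fun p : E × E => (p.1, p.2 - p.1, (1 : ℝ))) ?_ ?_
    · fun_prop
    · rintro p ⟨hp, hne⟩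
      refine ⟨sub_ne_zero.2 (Ne.symm hne), ?_⟩
      simpa using hp
  refine h3.congr fun p hp => ?_
  have := h2 p.1 (p.2 - p.1) 1 (sub_ne_zero.2 (Ne.symm hp.2)) one_pos (by simpa using hp.1)
  simpa using this

/-- a local kernel times a smooth function supported in `D`, off the diagonal, is smooth -/
theorem KerOn.contDiff_off (hD : IsOpen D) {k : E → E → M} (h : KerOn N a D k)
    {φ : E × E → ℝ} (hφ : ContDiff ℝ N φ) (hsub : ∀ p ∈ tsupport φ, p ∈ D ∧ p.1 ≠ p.2) :
    ContDiff ℝ N fun p : E × E => φ p • k p.1 p.2 := by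
  rw [contDiff_iff_contDiffAt]
  intro p
  by_cases hp : p ∈ tsupport φ
  · have h1 := h.contDiffOn
    have hop : IsOpen {p : E × E | p ∈ D ∧ p.1 ≠ p.2} :=
      hD.inter (isOpen_ne_fun continuous_fst continuous_snd)
    exact hφ.contDiffAt.smul (h1.contDiffAt (hop.mem_nhds (hsub p hp)))
  · have h4 : (fun p : E × E => φ p • k p.1 p.2) =ᶠ[𝓝 p] fun _ => 0 := by
      filter_upwards [(isClosed_tsupport φ).isOpen_compl.mem_nhds hp] with w hw
      rw [image_eq_zero_of_notMem_tsupport hw, zero_smul]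
    exact (contDiffAt_const (c := (0 : M))).congr_of_eventuallyEq h4

/-- a local kernel vanishing off a compact subset of `D` is a kernel -/
theorem KerOn.of_support [FiniteDimensional ℝ E] (hD : IsOpen D) {k : E → E → M}
    (h : KerOn ∞ a D k) {S : Set (E × E)} (hS : IsCompact S) (hSD : S ⊆ D)
    (hz : ∀ p ∉ S, k p.1 p.2 = 0) : Ker ∞ a k := by
  obtain ⟨χ, h1, h2, h3, h4, -⟩ := exists_cutoff hS hD hSD
  have h5 := h.cut hD h1 h2 h3
  have e : (fun x y => χ (x, y) • k x y) = k := by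
    funext x y
    by_cases hp : (x, y) ∈ S
    · rw [h4.self_of_nhdsSet _ hp, one_smul]
    · rw [hz _ hp, smul_zero]
  rwa [e] at h5

end loc

end

end Vale.Agent.P267.H551
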