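import Vale.Agent.P267.H551.RRC
import Vale.Agent.P267.H667.Rep

/-! P267 / RRC-T (helper551): the Koppelman homotopy with an arbitrary cut-off `θ (x, y)`. -/

set_option linter.unusedSectionVars false

open scoped ContDiff Topology ComplexConjugate
open MeasureTheory Metric Set Filter

namespace Vale.Agent.P267.H551

open Vale.Agent.P267.H433
open Vale.Agent.P267.H667 (K sq cst)

noncomputable section

theorem nn_eq_sq (s : V2) : nn s = (sq s : ℂ) := by
  simp [nn, H667.sq, Complex.mul_conj]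

/-- the kernel of `H667` -/
theorem K_eq (j : Fin 2) (s : V2) : K j s = (cst : ℂ) * bk s j := by
  simp only [K, H667.Ke, bk, nn_eq_sq, H667.cj, smul_eq_mul]
  push_cast
  ring

theorem K_smul {r : ℝ} (hr : 0 < r) (s : V2) (j : Fin 2) :
    K j (r • s) = ((r : ℝ) ^ 3)⁻¹ • K j s := by
  rw [K_eq, K_eq, bk_smul hr]
  simp only [Complex.real_smul]
  ring

/-- `bmk (y - x) e_1 = -cst⁻¹ K 0 (x - y)`, `bmk (y - x) e_0 = cst⁻¹ K 1 (x - y)` -/
theorem bmk_ee (s : V2) : bmk s (ee 0) = -bk s 1 ∧ bmk s (ee 1) = bk s 0 := by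
  constructor <;> simp [bmk_eq, ee]

theorem bk_neg (s : V2) (k : Fin 2) : bk (-s) k = -bk s k := by
  simp [bk, nn]

theorem kerOn_K {D : Set VV} (j : Fin 2) : KerOn ∞ 3 D fun x y : V2 => K j (x - y) := by
  have h1 := (kerOn_bk (D := D) (N := ∞) j).clm
    ((ContinuousLinearMap.mul ℝ ℂ) (-(cst : ℂ)))
  refine h1.congr fun x y _ _ => ?_
  rw [K_eq, ← neg_sub y x, bk_neg]
  simp

variable {θ : VV → ℝ} (hθ : ContDiff ℝ ∞ θ) (hs : HasCompactSupport θ)
include hθ hs

theorem ker_K (j : Fin 2) : Ker ∞ 3 fun x y : V2 => θ (x, y) • K j (x - y) :=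
  (kerOn_K (D := univ) j).cut isOpen_univ hθ hs (subset_univ _)

theorem hasCompactSupport_dbv (v : VV) : HasCompactSupport (dbv v fun p => (θ p : ℂ)) := by
  refine HasCompactSupport.intro hs fun p hp => ?_
  exact dbv_eq_zero hp

theorem ker_KE (v : VV) (j : Fin 2) :
    Ker ∞ 3 fun x y : V2 => dbv v (fun p => (θ p : ℂ)) (x, y) • K j (x - y) :=
  (kerOn_K (D := univ) j).cutC isOpen_univ (contDiff_dbv hθ v) (hasCompactSupport_dbv hθ hs v)
    (subset_univ _)

omit hs in
theorem dbv_thetaK (w : V2) (j : Fin 2) {x y : V2} (hxy : y ≠ x) :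
    dbv ((w, w) : VV) (fun p : VV => θ p • K j (p.1 - p.2)) (x, y) =
      dbv ((w, w) : VV) (fun p => (θ p : ℂ)) (x, y) • K j (x - y) := by
  have hdθ : DifferentiableAt ℝ (fun p => (θ p : ℂ)) (x, y) :=
    (Complex.ofRealCLM.contDiff.comp hθ : ContDiff ℝ ∞ fun p => (θ p : ℂ)).differentiable
      (by simp) _
  have hne : x - y ≠ 0 := sub_ne_zero.2 (Ne.symm hxy)
  have hK : DifferentiableAt ℝ (K j) (x - y) :=
    (H667.contDiffAt_K (n := 1) hne).differentiableAt one_ne_zero
  have h1 : HasFDerivAt (fun p : VV => p.1 - p.2)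
      (ContinuousLinearMap.fst ℝ V2 V2 - ContinuousLinearMap.snd ℝ V2 V2) (x, y) :=
    hasFDerivAt_fst.sub hasFDerivAt_snd
  have h2 : HasFDerivAt (fun p : VV => K j (p.1 - p.2)) ((fderiv ℝ (K j) (x - y)).comp
      (ContinuousLinearMap.fst ℝ V2 V2 - ContinuousLinearMap.snd ℝ V2 V2)) (x, y) :=
    HasFDerivAt.comp (x, y) (f := fun p : VV => p.1 - p.2) (g := K j) hK.hasFDerivAt h1
  have h3 : dbv ((w, w) : VV) (fun p : VV => K j (p.1 - p.2)) (x, y) = 0 := by
    unfold dbv
    rw [h2.fderiv]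
    simp
  have e1 : (fun p : VV => θ p • K j (p.1 - p.2)) = fun p => (θ p : ℂ) • K j (p.1 - p.2) := by
    funext q
    rw [Complex.coe_smul]
  rw [e1, dbv_smul hdθ h2.differentiableAt, h3, smul_zero, add_zero]

variable {V : Type} [NormedAddCommGroup V] [NormedSpace ℂ V] [CompleteSpace V]

/-- scalar kernels acting on vector valued functions -/
abbrev TT (k : V2 → V2 → ℂ) (u : V2 → V) (x : V2) : V :=
  Tk volume (ContinuousLinearMap.lsmul ℝ ℂ : ℂ →L[ℝ] V →L[ℝ] V) k u x

omit hθ hs [CompleteSpace V] in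
theorem TT_eq (k : V2 → V2 → ℂ) (u : V2 → V) (x : V2) : TT k u x = ∫ y, k x y • u y := rfl

omit [CompleteSpace V] in
theorem integrable_TT {a : ℕ} {k : V2 → V2 → ℂ} (hk : Ker ∞ a k) (ha : a < 4) {u : V2 → V}
    (hu : Continuous u) (x : V2) : Integrable fun y => k x y • u y := by
  have h4 : a < Module.finrank ℝ V2 := by
    rw [show Module.finrank ℝ V2 = 4 from finrank_V2]; exact ha
  exact (hk.of_le (N' := 0) (by simp)).integrable_bil' volume
    (ContinuousLinearMap.lsmul ℝ ℂ : ℂ →L[ℝ] V →L[ℝ] V) h4 hu x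

omit hθ hs in
theorem db_eq_dbv (j : Fin 2) (f : V2 → V) (z : V2) : H667.db j f z = dbv (ee j) f z := by
  rw [H667.db_eq_complex, dbv]
  have : Complex.I • ee j = Pi.single j Complex.I := by
    funext i
    by_cases h : i = j
    · subst h; simp [ee]
    · simp [ee, h]
  rw [this, ee]

/-- **(k0)** -/
theorem kop0 {u : V2 → V} (hu : ContDiff ℝ 1 u) (x : V2) :
    ∑ j, TT (fun x y => θ (x, y) • K j (x - y)) (dbv (ee j) u) x =
      θ (x, x) • u x -
        ∑ j, TT (fun x y => dbv ((0, ee j) : VV) (fun p => (θ p : ℂ)) (x, y) • K j (x - y)) u x := by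
  set v : V2 → V := fun y => (θ (x, y) : ℂ) • u y with hv
  have hθx : ContDiff ℝ ∞ fun y : V2 => (θ (x, y) : ℂ) :=
    Complex.ofRealCLM.contDiff.comp (hθ.comp (contDiff_prodMk_right x))
  have hvd : ContDiff ℝ 1 v := (hθx.of_le (by exact_mod_cast le_top)).smul hu
  have hvc : HasCompactSupport v := by
    have h1 : HasCompactSupport fun y : V2 => θ (x, y) :=
      hs.comp_isClosedEmbedding (g := fun y : V2 => ((x, y) : VV)) (by
        refine Topology.IsClosedEmbedding.of_continuous_injective_isClosedMap (by fun_prop)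
          (fun a b h => (Prod.mk.inj h).2) ?_
        intro S hS
        have : (fun y : V2 => ((x, y) : VV)) '' S = {x} ×ˢ S := by
          ext ⟨a, b⟩
          simp only [mem_image, Prod.mk.injEq, mem_prod, mem_singleton_iff]
          constructor
          · rintro ⟨y, hy, rfl, rfl⟩; exact ⟨rfl, hy⟩
          · rintro ⟨rfl, hb⟩; exact ⟨b, hb, rfl, rfl⟩
        rw [this]
        exact isClosed_singleton.prod hS)
    refine HasCompactSupport.intro h1 fun y hy => ?_
    have : θ (x, y) = 0 := image_eq_zero_of_notMem_tsupport (f := fun y : V2 => θ (x, y)) hy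
    simp [hv, this]
  have h1 := H667.rep hvd hvc x
  have h2 : ∀ j, ∫ w, K j w • H667.db j v (x - w) =
      TT (fun x y => θ (x, y) • K j (x - y)) (dbv (ee j) u) x +
      TT (fun x y => dbv ((0, ee j) : VV) (fun p => (θ p : ℂ)) (x, y) • K j (x - y)) u x := by
    intro j
    have h3 : ∫ w, K j w • H667.db j v (x - w) = ∫ y, K j (x - y) • H667.db j v y := by
      have := integral_sub_left_eq_self (μ := (volume : Measure V2))
        (fun y => K j (x - y) • H667.db j v y) x
      rw [← this]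
      simp
    have hc1 : Continuous (dbv (ee j) u) := by
      unfold dbv
      have := hu.continuous_fderiv one_ne_zero
      fun_prop
    rw [h3, TT_eq, TT_eq, ← integral_add (integrable_TT hθ hs (ker_K hθ hs j) (by norm_num) hc1 x)
      (integrable_TT hθ hs (ker_KE hθ hs ((0, ee j) : VV) j) (by norm_num) hu.continuous x)]
    refine integral_congr_ae (Eventually.of_forall fun y => ?_)
    simp only
    have e1 : DifferentiableAt ℝ (fun y : V2 => (θ (x, y) : ℂ)) y :=
      hθx.differentiable (by simp) y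
    have e2 := dbv_smul (v := ee j) (x := y) e1 (hu.differentiable one_ne_zero y)
    have e3 : dbv (ee j) (fun y : V2 => (θ (x, y) : ℂ)) y =
        dbv ((0, ee j) : VV) (fun p => (θ p : ℂ)) (x, y) := by
      have hdθ : DifferentiableAt ℝ (fun p : VV => (θ p : ℂ)) (x, y) :=
        (Complex.ofRealCLM.contDiff.comp hθ : ContDiff ℝ ∞ fun p => (θ p : ℂ)).differentiable
          (by simp) _
      have h5 : HasFDerivAt (fun y' : V2 => ((x, y') : VV)) (ContinuousLinearMap.inr ℝ V2 V2) y :=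
        hasFDerivAt_prodMk_right x y
      have h6 := HasFDerivAt.comp y (f := fun y' : V2 => ((x, y') : VV))
        (g := fun p : VV => (θ p : ℂ)) hdθ.hasFDerivAt h5
      have h7 : fderiv ℝ (fun y : V2 => (θ (x, y) : ℂ)) y = _ := h6.fderiv
      unfold dbv
      rw [h7]
      simp
    rw [db_eq_dbv, hv, e2, e3, smul_add, smul_smul, smul_smul, add_comm]
    congr 1
    · rw [mul_comm, Complex.real_smul]
    · rw [mul_comm]
      rfl
  have h4 : ∑ j, ∫ w, K j w • H667.db j v (x - w) = θ (x, x) • u x := by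
    rw [h1, hv]
    simp
  rw [← h4, eq_sub_iff_add_eq, ← Finset.sum_add_distrib]
  exact Finset.sum_congr rfl fun j _ => (h2 j).symm

theorem dbv_TT (w : V2) (j : Fin 2) {u : V2 → V} (hu : ContDiff ℝ 1 u) (x : V2) :
    dbv w (TT (fun x y => θ (x, y) • K j (x - y)) u) x =
      TT (fun x y => dbv ((w, w) : VV) (fun p => (θ p : ℂ)) (x, y) • K j (x - y)) u x +
      TT (fun x y => θ (x, y) • K j (x - y)) (dbv w u) x := by
  have h4 : 3 < Module.finrank ℝ V2 := by
    rw [show Module.finrank ℝ V2 = 4 from finrank_V2]; norm_num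
  have h1 := Ker.dbv_Tk' (K := fun p : VV => θ p • K j (p.1 - p.2)) volume
    (ContinuousLinearMap.lsmul ℝ ℂ : ℂ →L[ℝ] V →L[ℝ] V) CB_lsmul
    ((ker_K hθ hs j).of_le (by exact_mod_cast le_top)) h4 hu w x
  have h2 := Tk_congr volume (ContinuousLinearMap.lsmul ℝ ℂ : ℂ →L[ℝ] V →L[ℝ] V) (f := u) (x := x)
    (k := fun x y => dbv ((w, w) : VV) (fun p : VV => θ p • K j (p.1 - p.2)) (x, y))
    (k' := fun x y => dbv ((w, w) : VV) (fun p => (θ p : ℂ)) (x, y) • K j (x - y))
    (fun y hy => dbv_thetaK hθ w j hy)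
  rw [h2] at h1
  exact h1

/-- **(k2)** -/
theorem kop2 {u : V2 → V} (hu : ContDiff ℝ 1 u) (x : V2) :
    ∑ i, dbv (ee i) (TT (fun x y => θ (x, y) • K i (x - y)) u) x = θ (x, x) • u x +
      ∑ i, TT (fun x y => dbv ((ee i, 0) : VV) (fun p => (θ p : ℂ)) (x, y) • K i (x - y)) u x := by
  have h0 := kop0 hθ hs hu x
  have h1 : ∀ i, TT (fun x y => dbv ((ee i, ee i) : VV) (fun p => (θ p : ℂ)) (x, y) • K i (x - y)) u x
      = TT (fun x y => dbv ((ee i, 0) : VV) (fun p => (θ p : ℂ)) (x, y) • K i (x - y)) u x +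
        TT (fun x y => dbv ((0, ee i) : VV) (fun p => (θ p : ℂ)) (x, y) • K i (x - y)) u x := by
    intro i
    rw [TT_eq, TT_eq, TT_eq, ← integral_add
      (integrable_TT hθ hs (ker_KE hθ hs ((ee i, 0) : VV) i) (by norm_num) hu.continuous x)
      (integrable_TT hθ hs (ker_KE hθ hs ((0, ee i) : VV) i) (by norm_num) hu.continuous x)]
    refine integral_congr_ae (Eventually.of_forall fun y => ?_)
    simp only
    rw [← add_smul, ← add_smul]
    congr 2
    have : ((ee i, ee i) : VV) = (ee i, 0) + (0, ee i) := by simp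
    unfold dbv
    rw [this, smul_add ((Complex.I : ℂ)) ((ee i, 0) : VV), map_add, map_add]
    module
  simp_rw [fun i => dbv_TT hθ hs (ee i) i hu x, h1, Finset.sum_add_distrib]
  rw [h0]
  abel

/-- **(k1)** -/
theorem kop1 {u : Fin 2 → V2 → V} (hu : ∀ i, ContDiff ℝ 1 (u i)) (i : Fin 2) (x : V2) :
    dbv (ee i) (fun x => ∑ j, TT (fun x y => θ (x, y) • K j (x - y)) (u j) x) x =
      θ (x, x) • u i x +
      ∑ j, TT (fun x y => θ (x, y) • K j (x - y))
        (fun y => dbv (ee i) (u j) y - dbv (ee j) (u i) y) x +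
      ∑ j, TT (fun x y => dbv ((ee i, ee i) : VV) (fun p => (θ p : ℂ)) (x, y) • K j (x - y))
        (u j) x -
      ∑ j, TT (fun x y => dbv ((0, ee j) : VV) (fun p => (θ p : ℂ)) (x, y) • K j (x - y))
        (u i) x := by
  have h4 : 3 < Module.finrank ℝ V2 := by
    rw [show Module.finrank ℝ V2 = 4 from finrank_V2]; norm_num
  have hd : ∀ j, DifferentiableAt ℝ (TT (fun x y => θ (x, y) • K j (x - y)) (u j)) x := by
    intro j
    have := Ker.contDiff_Tk_nat (m := 1) volume (ContinuousLinearMap.lsmul ℝ ℂ : ℂ →L[ℝ] V →L[ℝ] V)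
      ((ker_K hθ hs j).of_le (by exact_mod_cast le_top)) h4 (hu j)
    exact this.differentiable (by simp) x
  have hsum : dbv (ee i) (fun x => ∑ j, TT (fun x y => θ (x, y) • K j (x - y)) (u j) x) x =
      ∑ j, dbv (ee i) (TT (fun x y => θ (x, y) • K j (x - y)) (u j)) x := by
    simp only [Fin.sum_univ_two]
    exact dbv_add (hd 0) (hd 1)
  have hc : ∀ i j, Continuous (dbv (ee i) (u j)) := by
    intro i j
    unfold dbv
    have := (hu j).continuous_fderiv one_ne_zero
    fun_prop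
  have h0 := kop0 hθ hs (hu i) x
  have h1 : ∀ j, TT (fun x y => θ (x, y) • K j (x - y)) (dbv (ee i) (u j)) x =
      TT (fun x y => θ (x, y) • K j (x - y))
        (fun y => dbv (ee i) (u j) y - dbv (ee j) (u i) y) x +
      TT (fun x y => θ (x, y) • K j (x - y)) (dbv (ee j) (u i)) x := by
    intro j
    rw [TT_eq, TT_eq, TT_eq, ← integral_add
      (integrable_TT (u := fun y => dbv (ee i) (u j) y - dbv (ee j) (u i) y)
        hθ hs (ker_K hθ hs j) (by norm_num) ((hc i j).sub (hc j i)) x)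
      (integrable_TT hθ hs (ker_K hθ hs j) (by norm_num) (hc j i) x)]
    refine integral_congr_ae (Eventually.of_forall fun y => ?_)
    simp only
    rw [← smul_add, sub_add_cancel]
  rw [hsum]
  simp_rw [fun j => dbv_TT hθ hs (ee i) j (hu j) x, h1, Finset.sum_add_distrib]
  rw [h0]
  abel

end

end Vale.Agent.P267.H551
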