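import Vale.Agent.P267.H551.WkC

/-! P267 / RRC-T (helper551): the kernels of RRC-LOC (helper433) are weakly singular:
`uu` of order 1, `T.C` of order 2, `bmk` of order 3; operator identities. -/

set_option linter.unusedSectionVars false

open scoped ContDiff Topology ComplexConjugate
open MeasureTheory Metric Set Filter

namespace Vale.Agent.P267.H551

open Vale.Agent.P267.H433

noncomputable section

/-! ### the homogeneous functions -/

theorem contDiff_conj {N : WithTop ℕ∞} : ContDiff ℝ N fun z : ℂ => conj z :=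
  Complex.conjCLE.contDiff

theorem contDiff_nn {N : WithTop ℕ∞} : ContDiff ℝ N nn := by
  unfold nn
  have h : ∀ k : Fin 2, ContDiff ℝ N fun s : V2 => s k := fun k => by fun_prop
  exact ((h 0).mul (contDiff_conj.comp (h 0))).add ((h 1).mul (contDiff_conj.comp (h 1)))

theorem contDiffOn_nn_inv {N : WithTop ℕ∞} :
    ContDiffOn ℝ N (fun s : V2 => (nn s)⁻¹) {v | v ≠ 0} :=
  contDiff_nn.contDiffOn.inv fun _ hs => nn_ne hs

theorem nn_smul (r : ℝ) (s : V2) : nn (r • s) = (r : ℂ) ^ 2 * nn s := by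
  simp only [nn, Pi.smul_apply, Complex.real_smul, map_mul, Complex.conj_ofReal]
  ring

theorem contDiffOn_uu {N : WithTop ℕ∞} (k : Fin 2) :
    ContDiffOn ℝ N (fun s : V2 => uu s k) {v | v ≠ 0} := by
  unfold uu
  have h : ContDiff ℝ N fun s : V2 => conj (s k) :=
    contDiff_conj.comp (by fun_prop : ContDiff ℝ N fun s : V2 => s k)
  exact h.contDiffOn.mul contDiffOn_nn_inv

theorem uu_smul {r : ℝ} (hr : 0 < r) (s : V2) (k : Fin 2) :
    uu (r • s) k = ((r : ℝ) ^ 1)⁻¹ • uu s k := by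
  have hr' : (r : ℂ) ≠ 0 := by exact_mod_cast hr.ne'
  simp only [uu, nn_smul, Pi.smul_apply, Complex.real_smul, map_mul, Complex.conj_ofReal, pow_one,
    Complex.ofReal_inv, mul_inv]
  field_simp

/-- the Bochner-Martinelli kernel, homogeneous of degree `-3` -/
def bk (s : V2) (k : Fin 2) : ℂ := conj (s k) * ((nn s)⁻¹) ^ 2

theorem bmk_eq (s w : V2) : bmk s w = bk s 0 * conj (w 1) - bk s 1 * conj (w 0) := by
  simp only [bmk, bk]
  ring

theorem contDiffOn_bk {N : WithTop ℕ∞} (k : Fin 2) :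
    ContDiffOn ℝ N (fun s : V2 => bk s k) {v | v ≠ 0} := by
  unfold bk
  have h : ContDiff ℝ N fun s : V2 => conj (s k) :=
    contDiff_conj.comp (by fun_prop : ContDiff ℝ N fun s : V2 => s k)
  exact h.contDiffOn.mul (contDiffOn_nn_inv.pow 2)

theorem bk_smul {r : ℝ} (hr : 0 < r) (s : V2) (k : Fin 2) :
    bk (r • s) k = ((r : ℝ) ^ 3)⁻¹ • bk s k := by
  have hr' : (r : ℂ) ≠ 0 := by exact_mod_cast hr.ne'
  simp only [bk, nn_smul, Pi.smul_apply, Complex.real_smul, map_mul, Complex.conj_ofReal,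
    Complex.ofReal_inv, Complex.ofReal_pow, mul_inv]
  field_simp

section

variable {D : Set VV} {N : WithTop ℕ∞}

theorem kerOn_uu (k : Fin 2) : KerOn N 1 D fun x y : V2 => uu (y - x) k := by
  have := KerOn.homog (D := D) (N := N) (h := fun s : V2 => uu s k) (contDiffOn_uu k)
    (fun r v hr _ => uu_smul hr v k) (A := fun _ : V2 × V2 => ContinuousLinearMap.id ℝ V2)
    contDiffOn_const (fun _ _ s hs => hs)
  simpa using this

theorem kerOn_bk (k : Fin 2) : KerOn N 3 D fun x y : V2 => bk (y - x) k := by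
  have := KerOn.homog (D := D) (N := N) (h := fun s : V2 => bk s k) (contDiffOn_bk k)
    (fun r v hr _ => bk_smul hr v k) (A := fun _ : V2 × V2 => ContinuousLinearMap.id ℝ V2)
    contDiffOn_const (fun _ _ s hs => hs)
  simpa using this

end

/-! ### the transition -/

section tr

variable {A : Type} [NormedRing A] [NormedAlgebra ℂ A] {T : Tr A} {D : Set VV} {Ω : Set V2}

/-- the elementary matrix `s ↦ s_k e_i` -/
def el (i k : Fin 2) : V2 →L[ℝ] V2 :=
  (ContinuousLinearMap.single ℝ (fun _ : Fin 2 => ℂ) i).comp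
    (ContinuousLinearMap.proj (R := ℝ) (φ := fun _ : Fin 2 => ℂ) k)

theorem el_apply (i k : Fin 2) (s : V2) : el i k s = Pi.single i (s k) := rfl

/-- the matrix `M` as an operator -/
def Mop (T : Tr A) (p : VV) : V2 →L[ℝ] V2 := ∑ i, ∑ k, T.M i k p • el i k

theorem Mop_apply (T : Tr A) (p : VV) (s : V2) (i : Fin 2) :
    Mop T p s i = s 0 * T.M i 0 p + s 1 * T.M i 1 p := by
  simp only [Mop, Fin.sum_univ_two, add_apply, smul_apply, el_apply, Pi.add_apply, Pi.smul_apply,
    smul_eq_mul]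
  fin_cases i <;> simp <;> ring

variable (h : T.On D Ω)
include h

theorem contDiffOn_real {W : Type} [NormedAddCommGroup W] [NormedSpace ℂ W] {F : VV → W}
    (hF : ContDiffOn ℂ ∞ F D) : ContDiffOn ℝ ∞ F D := hF.restrict_scalars ℝ

theorem contDiffOn_Mop : ContDiffOn ℝ ∞ (Mop T) D := by
  unfold Mop
  refine ContDiffOn.sum fun i _ => ContDiffOn.sum fun k _ => ?_
  exact ((h.cM i k).restrict_scalars ℝ).smul contDiffOn_const

theorem Mop_ne {p : VV} (hp : p ∈ D) {s : V2} (hs : s ≠ 0) : Mop T p s ≠ 0 := by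
  intro h0
  apply hs
  have e0 := congrFun h0 0
  have e1 := congrFun h0 1
  rw [Mop_apply] at e0 e1
  simp only [Pi.zero_apply] at e0 e1
  have hd := h.dM_ne p hp
  have k0 : s 0 * T.dM p = 0 := by
    simp only [Tr.dM]
    linear_combination (T.M 1 1 p) * e0 - T.M 0 1 p * e1
  have k1 : s 1 * T.dM p = 0 := by
    simp only [Tr.dM]
    linear_combination -(T.M 1 0 p) * e0 + T.M 0 0 p * e1
  funext i
  fin_cases i
  · exact (mul_eq_zero.1 k0).resolve_right hd
  · exact (mul_eq_zero.1 k1).resolve_right hd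

theorem Mop_sub {x y : V2} (hp : (x, y) ∈ D) : Mop T (x, y) (y - x) = T.f y - T.f x := by
  funext i
  rw [Mop_apply]
  have := h.f_sub hp i
  simp only [Pi.sub_apply]
  simp only at this
  rw [this]

/-- homogeneous kernels of `f y - f x` -/
theorem kerOn_f {M : Type} [NormedAddCommGroup M] [NormedSpace ℝ M] {a : ℕ} {g : V2 → M}
    (hg : ContDiffOn ℝ ∞ g {v | v ≠ 0})
    (hom : ∀ (r : ℝ) (v : V2), 0 < r → v ≠ 0 → g (r • v) = ((r : ℝ) ^ a)⁻¹ • g v) :
    KerOn ∞ a D fun x y : V2 => g (T.f y - T.f x) := by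
  have := KerOn.homog (D := D) (N := ∞) (h := g) hg hom (A := Mop T) (contDiffOn_Mop h)
    (fun p hp s hs => Mop_ne h hp hs)
  refine this.congr fun x y hp _ => ?_
  rw [Mop_sub h hp]

theorem kerOn_ub (k : Fin 2) : KerOn ∞ 1 D fun x y : V2 => uu (T.f y - T.f x) k :=
  kerOn_f h (g := fun s => uu s k) (contDiffOn_uu k) (fun _ v hr _ => uu_smul hr v k)

theorem kerOn_bkf (k : Fin 2) : KerOn ∞ 3 D fun x y : V2 => bk (T.f y - T.f x) k :=
  kerOn_f h (g := fun s => bk s k) (contDiffOn_bk k) (fun _ v hr _ => bk_smul hr v k)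

theorem kerOn_b (k : Fin 2) : KerOn ∞ 1 D fun x y : V2 => T.b k (x, y) := by
  have h0 := (KerOn.of_contDiffOn ((h.cM 0 k).restrict_scalars ℝ)).mul (kerOn_ub h 0)
  have h1 := (KerOn.of_contDiffOn ((h.cM 1 k).restrict_scalars ℝ)).mul (kerOn_ub h 1)
  have := h0.add h1
  simpa [Tr.b] using this

/-- **the kernel `C` has order `2`** -/
theorem kerOn_C : KerOn ∞ 2 D fun x y : V2 => T.C (x, y) := by
  have hu : ∀ k, KerOn ∞ 1 D fun x y : V2 => uu (y - x) k • (1 : A) + T.J k (x, y) := by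
    intro k
    have h1 : KerOn ∞ 1 D fun x y : V2 => uu (y - x) k • (1 : A) := by
      exact (kerOn_uu (D := D) (N := ∞) k).clm
        (((ContinuousLinearMap.lsmul ℝ ℂ : ℂ →L[ℝ] A →L[ℝ] A).flip) (1 : A))
    exact h1.add (KerOn.of_contDiffOn ((h.cJ k).restrict_scalars ℝ)).raise
  have h1 := (kerOn_b h 1).bilin (ContinuousLinearMap.lsmul ℝ ℂ : ℂ →L[ℝ] A →L[ℝ] A) (hu 0)
  have h0 := (kerOn_b h 0).bilin (ContinuousLinearMap.lsmul ℝ ℂ : ℂ →L[ℝ] A →L[ℝ] A) (hu 1)
  exact h1.sub h0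

/-- kernels of Bochner-Martinelli type, transported -/
theorem kerOn_bmkf {w : VV → V2} (hw : ContDiffOn ℝ ∞ w D) :
    KerOn ∞ 3 D fun x y : V2 => bmk (T.f y - T.f x) (w (x, y)) := by
  have hc : ∀ k, KerOn ∞ 0 D fun x y : V2 => conj (w (x, y) k) := by
    intro k
    have h1 : ContDiffOn ℝ ∞ (fun p => conj (w p k)) D :=
      contDiff_conj.comp_contDiffOn
        ((by fun_prop : ContDiff ℝ ∞ fun s : V2 => s k).comp_contDiffOn hw)
    exact KerOn.of_contDiffOn h1
  have h0 := (kerOn_bkf h 0).mul (hc 1)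
  have h1 := (kerOn_bkf h 1).mul (hc 0)
  refine (h0.sub h1).congr fun x y _ _ => ?_
  rw [bmk_eq]

/-! ### cut off kernels -/

variable {η : VV → ℝ} (hη : ContDiff ℝ ∞ η) (hs : HasCompactSupport η) (hsub : tsupport η ⊆ D)
include hη hs hsub

theorem ker_C : Ker ∞ 2 fun x y : V2 => η (x, y) • T.C (x, y) := (kerOn_C h).cut h.oD hη hs hsub

omit [NormedRing A] [NormedAlgebra ℂ A] h hs hsub in
theorem contDiff_dbv (v : VV) : ContDiff ℝ ∞ (dbv v fun p => (η p : ℂ)) := by
  unfold dbv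
  have h1 : ContDiff ℝ ∞ fun p => (η p : ℂ) := Complex.ofRealCLM.contDiff.comp hη
  have h2 : ContDiff ℝ ∞ (fderiv ℝ fun p => (η p : ℂ)) := h1.fderiv_right (by simp)
  have h3 : ∀ v : VV, ContDiff ℝ ∞ fun p => fderiv ℝ (fun p => (η p : ℂ)) p v := fun v =>
    h2.clm_apply contDiff_const
  have h4 : ContDiff ℝ ∞ fun p => Complex.I • fderiv ℝ (fun p => (η p : ℂ)) p (Complex.I • v) :=
    (h3 _).const_smul Complex.I
  exact ((h3 v).add h4).const_smul (1 / 2 : ℂ)

omit [NormedRing A] [NormedAlgebra ℂ A] h hη hs hsub in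
theorem dbv_eq_zero {v p : VV} (hp : p ∉ tsupport η) : dbv v (fun p => (η p : ℂ)) p = 0 := by
  have h1 : (fun p => (η p : ℂ)) =ᶠ[𝓝 p] fun _ => 0 := by
    filter_upwards [(isClosed_tsupport η).isOpen_compl.mem_nhds hp] with w hw
    rw [image_eq_zero_of_notMem_tsupport hw, Complex.ofReal_zero]
  rw [dbv_congr h1, dbv_const]

/-- the error kernels -/
theorem ker_E (v : VV) : Ker ∞ 2 fun x y : V2 => dbv v (fun p => (η p : ℂ)) (x, y) • T.C (x, y) := by
  have h1 : KerOn ∞ 0 D fun x y : V2 => dbv v (fun p => (η p : ℂ)) (x, y) :=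
    KerOn.of_contDiffOn (contDiff_dbv hη v).contDiffOn
  have h2 := h1.bilin (ContinuousLinearMap.lsmul ℝ ℂ : ℂ →L[ℝ] A →L[ℝ] A) (kerOn_C h)
  refine KerOn.of_support h.oD (S := tsupport η) (by simpa using h2) hs hsub fun p hp => ?_
  rw [Prod.mk.eta, dbv_eq_zero hp, zero_smul]

omit hη hs hsub in
theorem cjac_snd : ContDiffOn ℝ ∞ (fun p : VV => T.jac p.2) D :=
  (h.comp_snd h.cjac).restrict_scalars ℝ

omit hη hs hsub in
theorem cee : ContDiffOn ℝ ∞ (fun p : VV => T.ei p.1 * T.e p.2) D :=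
  ((h.comp_fst h.hei).mul (h.comp_snd h.he)).restrict_scalars ℝ

omit hη hs hsub in
theorem kerOn_Bf {w : VV → V2} (hw : ContDiffOn ℝ ∞ w D) :
    KerOn ∞ 3 D fun x y : V2 => (T.jac y * bmk (T.f y - T.f x) (w (x, y))) • (T.ei x * T.e y) := by
  have h1 := (KerOn.of_contDiffOn (cjac_snd h)).mul (kerOn_bmkf h hw)
  have h2 := h1.bilin (ContinuousLinearMap.lsmul ℝ ℂ : ℂ →L[ℝ] A →L[ℝ] A)
    (KerOn.of_contDiffOn (cee h))
  simpa using h2

/-- the transported Bochner-Martinelli kernels -/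
theorem ker_Bf {w : VV → V2} (hw : ContDiffOn ℝ ∞ w D) : Ker ∞ 3 fun x y : V2 =>
    η (x, y) • ((T.jac y * bmk (T.f y - T.f x) (w (x, y))) • (T.ei x * T.e y)) :=
  (kerOn_Bf h hw).cut h.oD hη hs hsub

omit hη hs hsub h in
theorem kerOn_Ba {w : VV → V2} (hw : ContDiffOn ℝ ∞ w D) :
    KerOn ∞ 3 D fun x y : V2 => bmk (y - x) (w (x, y)) • (1 : A) := by
  have hc : ∀ k, KerOn ∞ 0 D fun x y : V2 => conj (w (x, y) k) := by
    intro k
    have h1 : ContDiffOn ℝ ∞ (fun p => conj (w p k)) D :=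
      contDiff_conj.comp_contDiffOn
        ((by fun_prop : ContDiff ℝ ∞ fun s : V2 => s k).comp_contDiffOn hw)
    exact KerOn.of_contDiffOn h1
  have h0 := (kerOn_bk (D := D) (N := ∞) 0).mul (hc 1)
  have h1 := (kerOn_bk (D := D) (N := ∞) 1).mul (hc 0)
  have h2 := (h0.sub h1).clm
    (((ContinuousLinearMap.lsmul ℝ ℂ : ℂ →L[ℝ] A →L[ℝ] A).flip) (1 : A))
  refine h2.congr fun x y _ _ => ?_
  rw [bmk_eq]
  rfl

/-- the flat Bochner-Martinelli kernels -/
theorem ker_Ba {w : VV → V2} (hw : ContDiffOn ℝ ∞ w D) : Ker ∞ 3 fun x y : V2 =>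
    η (x, y) • (bmk (y - x) (w (x, y)) • (1 : A)) :=
  (kerOn_Ba hw).cut h.oD hη hs hsub

/-- `∂̄` of the cut off kernel -/
theorem dbv_etaC [CompleteSpace A] {p : VV} (hne : p.2 ≠ p.1) (v : VV) :
    dbv v (fun p => η p • T.C p) p = dbv v (fun p => (η p : ℂ)) p • T.C p +
      (η p • ((T.jac p.2 * bmk (T.f p.2 - T.f p.1)
        (fderiv ℂ T.f p.2 v.2 - fderiv ℂ T.f p.1 v.1)) • (T.ei p.1 * T.e p.2)) -
      η p • (bmk (p.2 - p.1) (v.2 - v.1) • (1 : A))) := by
  by_cases hp : p ∈ D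
  · have hdη : DifferentiableAt ℝ (fun p => (η p : ℂ)) p :=
      (Complex.ofRealCLM.contDiff.comp hη : ContDiff ℝ ∞ fun p => (η p : ℂ)).differentiable
        (by simp) p
    have hdC : DifferentiableAt ℝ T.C p := by
      have h1 := (kerOn_C h).contDiffOn
      have hop : IsOpen {p : VV | p ∈ D ∧ p.1 ≠ p.2} :=
        h.oD.inter (isOpen_ne_fun continuous_fst continuous_snd)
      exact (h1.differentiableOn (by simp)).differentiableAt (hop.mem_nhds ⟨hp, Ne.symm hne⟩)
    have e1 : (fun p => η p • T.C p) = fun p => (η p : ℂ) • T.C p := by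
      funext q
      rw [Complex.coe_smul]
    rw [e1, dbv_smul hdη hdC, h.dbv_C' hp (sub_ne_zero.2 hne), Complex.coe_smul, smul_sub]
  · have hp' : p ∉ tsupport η := fun h1 => hp (hsub h1)
    have h1 : (fun p => η p • T.C p) =ᶠ[𝓝 p] fun _ => 0 := by
      filter_upwards [(isClosed_tsupport η).isOpen_compl.mem_nhds hp'] with w hw
      rw [image_eq_zero_of_notMem_tsupport hw, zero_smul]
    rw [dbv_congr h1, dbv_const, dbv_eq_zero hp', image_eq_zero_of_notMem_tsupport hp']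
    simp

variable [CompleteSpace A] {V W : Type} [NormedAddCommGroup V] [NormedSpace ℂ V]
  [NormedAddCommGroup W] [NormedSpace ℂ W] {B : A →L[ℝ] V →L[ℝ] W} (hB : CB B)
include hB

/-- **(t1)** `T_C (∂̄_w u)`, in `∂̄_w = dbv w` -/
theorem Tk_C_dbv {u : V2 → V} (hu : ContDiff ℝ 1 u) (w x : V2) :
    Tk volume B (fun x y => η (x, y) • T.C (x, y)) (dbv w u) x =
      -Tk volume B (fun x y => dbv ((0, w) : VV) (fun p => (η p : ℂ)) (x, y) • T.C (x, y)) u x -
      Tk volume B (fun x y => η (x, y) • ((T.jac y * bmk (T.f y - T.f x)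
        (fderiv ℂ T.f y w)) • (T.ei x * T.e y))) u x +
      Tk volume B (fun x y => η (x, y) • (bmk (y - x) w • (1 : A))) u x := by
  have hC : Ker 1 2 fun x y : V2 => η (x, y) • T.C (x, y) :=
    (ker_C h hη hs hsub).of_le (by exact_mod_cast le_top)
  have h4 : 2 + 1 < Module.finrank ℝ V2 := by
    rw [show Module.finrank ℝ V2 = 4 from finrank_V2]; norm_num
  have h4' : 2 < Module.finrank ℝ V2 := by omega
  have h4'' : 3 < Module.finrank ℝ V2 := by omega
  rw [Ker.Tk_dbv (K := fun p => η p • T.C p) volume B hB hC h4 hu w x]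
  have hw : ContDiffOn ℝ ∞ (fun p : VV => fderiv ℂ T.f p.2 w) D := by
    have h1 : ContDiffOn ℂ ∞ (fun y => fderiv ℂ T.f y w) Ω :=
      (h.hf.fderiv_of_isOpen h.isOpen (m := ∞) (by simp)).clm_apply contDiffOn_const
    exact (h.comp_snd h1).restrict_scalars ℝ
  have i1 := ((ker_E h hη hs hsub ((0, w) : VV)).of_le (N' := 0) (by simp)).integrable_bil'
    volume B h4' hu.continuous x
  have i2 := ((ker_Bf h hη hs hsub hw).of_le (N' := 0) (by simp)).integrable_bil'
    volume B h4'' hu.continuous x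
  have i3 := ((ker_Ba h hη hs hsub (w := fun _ => w) contDiffOn_const).of_le
    (N' := 0) (by simp)).integrable_bil' volume B h4'' hu.continuous x
  have e : Tk volume B (fun x y => dbv ((0, w) : VV) (fun p => η p • T.C p) (x, y)) u x =
      Tk volume B (fun x y => dbv ((0, w) : VV) (fun p => (η p : ℂ)) (x, y) • T.C (x, y)) u x +
      (Tk volume B (fun x y => η (x, y) • ((T.jac y * bmk (T.f y - T.f x)
        (fderiv ℂ T.f y w)) • (T.ei x * T.e y))) u x -
      Tk volume B (fun x y => η (x, y) • (bmk (y - x) w • (1 : A))) u x) := by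
    refine int_comb3 volume i1 i2 i3 ?_
    filter_upwards [ae_ne volume x] with y hy
    have e1 := dbv_etaC h hη hs hsub (p := (x, y)) hy ((0, w) : VV)
    simp only [e1, map_zero, sub_zero, map_add, map_sub, add_apply, sub_apply]
  rw [e]
  abel

/-- **(t2)** `∂̄_w (T_C u)` -/
theorem dbv_Tk_C {u : V2 → V} (hu : ContDiff ℝ 1 u) (w x : V2) :
    dbv w (Tk volume B (fun x y => η (x, y) • T.C (x, y)) u) x =
      Tk volume B (fun x y => dbv ((w, 0) : VV) (fun p => (η p : ℂ)) (x, y) • T.C (x, y)) u x -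
      Tk volume B (fun x y => η (x, y) • ((T.jac y * bmk (T.f y - T.f x)
        (fderiv ℂ T.f x w)) • (T.ei x * T.e y))) u x +
      Tk volume B (fun x y => η (x, y) • (bmk (y - x) w • (1 : A))) u x := by
  have hC : Ker 1 2 fun x y : V2 => η (x, y) • T.C (x, y) :=
    (ker_C h hη hs hsub).of_le (by exact_mod_cast le_top)
  have h4 : 2 + 1 < Module.finrank ℝ V2 := by
    rw [show Module.finrank ℝ V2 = 4 from finrank_V2]; norm_num
  have h4' : 2 < Module.finrank ℝ V2 := by omega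
  have h4'' : 3 < Module.finrank ℝ V2 := by omega
  rw [Ker.dbv_Tk (K := fun p => η p • T.C p) volume B hB hC h4 hu w x]
  have hw : ContDiffOn ℝ ∞ (fun p : VV => fderiv ℂ T.f p.1 w) D := by
    have h1 : ContDiffOn ℂ ∞ (fun y => fderiv ℂ T.f y w) Ω :=
      (h.hf.fderiv_of_isOpen h.isOpen (m := ∞) (by simp)).clm_apply contDiffOn_const
    exact (h.comp_fst h1).restrict_scalars ℝ
  have i1 := ((ker_E h hη hs hsub ((w, 0) : VV)).of_le (N' := 0) (by simp)).integrable_bil'
    volume B h4' hu.continuous x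
  have i2 := ((ker_Bf h hη hs hsub hw).of_le (N' := 0) (by simp)).integrable_bil'
    volume B h4'' hu.continuous x
  have i3 := ((ker_Ba h hη hs hsub (w := fun _ => w) contDiffOn_const).of_le
    (N' := 0) (by simp)).integrable_bil' volume B h4'' hu.continuous x
  have e : ∀ a b c : W, a - b + c = a + (c - b) := fun a b c => by abel
  rw [e]
  refine int_comb3 volume i1 i3 i2 ?_
  filter_upwards [ae_ne volume x] with y hy
  have e1 := dbv_etaC h hη hs hsub (p := (x, y)) hy ((w, 0) : VV)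
  have e2 : ∀ s w : V2, bmk s (0 - w) = - bmk s w := by
    intro s w
    simp only [bmk, Pi.sub_apply, Pi.zero_apply, map_sub, map_zero]
    ring
  have e3 : ∀ s w : V2, bmk s (-w) = - bmk s w := by
    intro s w
    have := e2 s w
    rwa [zero_sub] at this
  simp only [e1, map_zero, zero_sub, e3, map_add, map_sub, add_apply, sub_apply, mul_neg,
    neg_smul, smul_neg, map_neg, neg_apply]
  abel

end tr

end

end Vale.Agent.P267.H551
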