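import Vale.Agent.P267.H462.Gl

/-! P267 / RRC-GLUE (helper551): `K0`, `K1`, `K2`: `ρ_a (1 - ∂̄ B_a - B_a ∂̄)` is a local operator
with smooth kernel. -/

set_option linter.unusedSectionVars false

open scoped Manifold ContDiff ComplexConjugate Matrix
open MeasureTheory Set Filter Topology Metric

noncomputable section

namespace Vale.Agent.P267.H551

open Vale.Agent.P267.FL Vale.Agent.P267.RR Vale.Agent.P267.H462
open Vale.Agent.P267.H667 (IsCutoff kc cst)
open Vale.Agent.P267.H433 (Tr dbv ee VV V2)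

variable {X : Type*} [TopologicalSpace X] [ChartedSpace C2 X] {A : FinAt X}
  {r : ℕ} {B : Bun A r} (G : Gl B)

theorem dzb_eq_dbv {V : Type} [NormedAddCommGroup V] [NormedSpace ℂ V] (j : Fin 2) (f : C2 → V)
    (z : C2) : dzb j f z = dbv (ee j) f z := by
  rw [dzb, dbv]
  have : Complex.I • ee j = Pi.single j Complex.I := by
    funext i
    by_cases h : i = j
    · subst h; simp [ee]
    · simp [ee, h]
  rw [this, ee]

/-- the cut-off function of `B1 a`, `B2 a` -/
def th2 (a : Fin A.N) (p : VV) : ℝ := G.χ a p.1 * G.η (p.1 - p.2)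

theorem th2_smooth (a : Fin A.N) : ContDiff ℝ ∞ (th2 G a) := G.cutfn_smooth a

theorem th2_comp (a : Fin A.N) : HasCompactSupport (th2 G a) := G.cutfn_comp a

theorem th2_tsupport (a : Fin A.N) : tsupport (th2 G a) ⊆ G.LL a ×ˢ G.LL a := by
  refine closure_minimal (fun p hp => ?_) ((G.isCompact_LL a).prod (G.isCompact_LL a)).isClosed
  have hp' : G.χ a p.1 * G.η (p.1 - p.2) ≠ 0 := hp
  exact G.mem_LL (left_ne_zero_of_mul hp') (right_ne_zero_of_mul hp')

theorem th2_K (a : Fin A.N) (x y : V2) (j : Fin 2) :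
    (G.χ a x : ℂ) * kc G.η j (x - y) = th2 G a (x, y) • H667.K j (x - y) := by
  simp only [kc, th2, Complex.real_smul]
  push_cast
  ring

theorem th2_one {a : Fin A.N} {x : C2} (hx : x ∈ A.K a) : ∀ᶠ p in 𝓝 (x, x), th2 G a p = 1 := by
  have h1 : ∀ᶠ p : VV in 𝓝 (x, x), G.χ a p.1 = 1 :=
    (continuous_fst.tendsto (x, x)).eventually (G.χ_cut_K a hx)
  have h2 : ∀ᶠ p : VV in 𝓝 (x, x), G.η (p.1 - p.2) = 1 := by
    have h3 : Tendsto (fun p : VV => p.1 - p.2) (𝓝 (x, x)) (𝓝 0) := by
      have : Continuous fun p : VV => p.1 - p.2 := by fun_prop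
      simpa using this.tendsto (x, x)
    exact h3.eventually G.η_cut.one
  filter_upwards [h1, h2] with p hp1 hp2
  simp [th2, hp1, hp2]

/-- the coefficient function `ρ_a(x) (∂̄_v θ)(x, y)` -/
def rdt (a : Fin A.N) (v : VV) (p : VV) : ℂ :=
  rc A a a p.1 * dbv v (fun p => (th2 G a p : ℂ)) p

theorem rdt_eq_zero {a : Fin A.N} {v p : VV} (hp : p ∉ tsupport (th2 G a)) : rdt G a v p = 0 := by
  rw [rdt, dbv_eq_zero hp, mul_zero]

theorem rdt_smooth (a : Fin A.N) (v : VV) : ContDiff ℝ ∞ (rdt G a v) := by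
  have h1 : ContDiff ℝ ∞ (dbv v fun p => (th2 G a p : ℂ)) := contDiff_dbv (th2_smooth G a) v
  refine contDiff_of_supp (O := A.O a ×ˢ univ) ((A.isOpen_O a).prod isOpen_univ)
    (isClosed_tsupport (th2 G a)) (fun p hp => ⟨G.LL_sub a (th2_tsupport G a hp).1, mem_univ _⟩)
    ?_ (fun p hp => rdt_eq_zero G hp)
  refine ContDiffOn.mul ?_ h1.contDiffOn
  exact (rc_smooth a a).comp contDiff_fst.contDiffOn fun p hp => hp.1

theorem rdt_off_diag (a : Fin A.N) (v : VV) : ∀ p ∈ tsupport (rdt G a v), p.1 ≠ p.2 := by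
  rintro ⟨x, y⟩ hp hxy
  have hxy' : x = y := hxy
  subst hxy'
  have key : rdt G a v =ᶠ[𝓝 (x, x)] fun _ => 0 := by
    by_cases hxO : x ∈ A.O a
    · by_cases hxK : (A.e a).symm x ∈ tsupport (A.rho a)
      · have hx : x ∈ A.K a := ⟨_, hxK, (A.e a).right_inv hxO.1⟩
        have h1 := (th2_one G hx).eventually_nhds
        filter_upwards [h1] with p hp1
        have h2 : (fun p => (th2 G a p : ℂ)) =ᶠ[𝓝 p] fun _ => 1 := by
          filter_upwards [hp1] with q hq
          rw [hq, Complex.ofReal_one]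
        rw [rdt, Vale.Agent.P267.H433.dbv_congr h2, Vale.Agent.P267.H433.dbv_const, mul_zero]
      · have h1 : ∀ᶠ p : VV in 𝓝 (x, x), rc A a a p.1 = 0 :=
          (continuous_fst.tendsto (x, x)).eventually (rc_eventually_zero hxO hxK)
        filter_upwards [h1] with p hp1
        rw [rdt, hp1, zero_mul]
    · have h1 : (x, x) ∉ tsupport (th2 G a) := fun h => hxO (G.LL_sub a (th2_tsupport G a h).1)
      filter_upwards [(isClosed_tsupport _).isOpen_compl.mem_nhds h1] with p hp1
      exact rdt_eq_zero G hp1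
  exact (notMem_tsupport_iff_eventuallyEq.2 key) hp

/-- the scalar smooth kernels `ρ_a(x) (∂̄_v θ)(x, y) K_j(x - y)` -/
def sm (a : Fin A.N) (v : VV) (j : Fin 2) (x y : V2) : ℂ :=
  rdt G a v (x, y) * H667.K j (x - y)

theorem sm_smooth (a : Fin A.N) (v : VV) (j : Fin 2) :
    ContDiff ℝ ∞ fun p : VV => sm G a v j p.1 p.2 := by
  have h := (kerOn_K (D := univ) j).contDiff_offC isOpen_univ (rdt_smooth G a v)
    fun p hp => ⟨mem_univ _, rdt_off_diag G a v p hp⟩
  exact h

theorem sm_ne {a : Fin A.N} {v : VV} {j : Fin 2} {x y : V2} (h : sm G a v j x y ≠ 0) :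
    x ∈ G.LL a ∧ y ∈ G.LL a := by
  have h1 : (x, y) ∈ tsupport (th2 G a) := by
    by_contra h2
    exact h (by rw [sm, rdt_eq_zero G h2, zero_mul])
  exact th2_tsupport G a h1

theorem sm_diag (a : Fin A.N) (v : VV) (j : Fin 2) (x : V2) : sm G a v j x x = 0 := by
  rw [sm, sub_self, H667.K_zero, mul_zero]

/-- the kernel without the factor `ρ_a(x)` -/
def em (a : Fin A.N) (v : VV) (j : Fin 2) (x y : V2) : ℂ :=
  dbv v (fun p => (th2 G a p : ℂ)) (x, y) * H667.K j (x - y)

theorem rc_em (a : Fin A.N) (v : VV) (j : Fin 2) (x y : V2) :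
    rc A a a x * em G a v j x y = sm G a v j x y := by
  rw [sm, rdt, em, mul_assoc]

theorem em_ker (a : Fin A.N) (v : VV) (j : Fin 2) : Ker ∞ 3 (em G a v j) :=
  ker_KE (th2_smooth G a) (th2_comp G a) v j

theorem em_ne {a : Fin A.N} {v : VV} {j : Fin 2} {x y : V2} (h : em G a v j x y ≠ 0) :
    y ∈ G.LL a := by
  have h1 : (x, y) ∈ tsupport (th2 G a) := by
    by_contra h2
    exact h (by rw [em, dbv_eq_zero h2, zero_mul])
  exact (th2_tsupport G a h1).2

section main

variable [T2Space X] [IsManifold 𝓘(ℂ, C2) ω X]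

theorem K_sub_LL (a : Fin A.N) : A.K a ⊆ G.LL a := by
  intro x hx
  obtain ⟨N, hN, hK, h1⟩ := G.χ_one a
  have h2 : G.χ a x ≠ 0 := by rw [h1 x (hK hx)]; exact one_ne_zero
  have h3 : G.η (x - x) ≠ 0 := by
    rw [sub_self, G.η_cut.one.self_of_nhds]; exact one_ne_zero
  exact (G.mem_LL h2 h3).1

theorem im_sp (a : Fin A.N) : im A a (sp A a) = A.K a := rfl

theorem th2_diag {a : Fin A.N} {x : C2} (hx : x ∈ A.K a) : th2 G a (x, x) = 1 :=
  (th2_one G hx).self_of_nhds

/-- `θ K_j` acting on vector valued functions -/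
theorem IK_kB1 {a : Fin A.N} {f : C2 → Fin 2 → Fin r → ℂ} (hf : Continuous f) (x : C2) :
    IK (G.kB1 a) f x =
      ∑ j, H551.TT (fun x y => th2 G a (x, y) • H667.K j (x - y)) (fun y => f y j) x := by
  unfold IK
  have h1 : ∀ y, G.kB1 a x y (f y) = ∑ j, (th2 G a (x, y) • H667.K j (x - y)) • f y j := by
    intro y
    simp only [Gl.kB1, FunLike.coe_sum, Finset.sum_apply, smul_apply,
      ContinuousLinearMap.proj_apply, th2_K]
  simp_rw [h1]
  rw [integral_finsetSum]
  · rfl
  · intro j _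
    exact integrable_TT (th2_smooth G a) (th2_comp G a) (ker_K (th2_smooth G a) (th2_comp G a) j)
      (by norm_num) (by fun_prop) x

theorem kB1_ne {a : Fin A.N} {x y : C2} (h : G.kB1 a x y ≠ 0) : y ∈ G.LL a := by
  by_contra hcon
  apply h
  refine Finset.sum_eq_zero fun j _ => ?_
  have : (G.χ a x : ℂ) * kc G.η j (x - y) = 0 := by
    by_contra hne
    exact hcon (G.mem_LL (G.kc_ne hne).1 (G.kc_ne hne).2).2
  rw [this]
  exact zero_smul ℂ (ContinuousLinearMap.proj (R := ℂ) (φ := fun _ : Fin 2 => Fin r → ℂ) j)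

theorem kB2_ne {a : Fin A.N} {x y : C2} (h : G.kB2 a x y ≠ 0) : y ∈ G.LL a := by
  by_contra hcon
  apply h
  have : ∀ j, (G.χ a x : ℂ) * kc G.η j (x - y) = 0 := by
    intro j
    by_contra hne
    exact hcon (G.mem_LL (G.kc_ne hne).1 (G.kc_ne hne).2).2
  rw [Gl.kB2, this, this]
  have : (![-0, 0] : Fin 2 → ℂ) = 0 := by
    funext i
    fin_cases i <;> simp
  rw [this, map_zero]

theorem integrable_em {V : Type} [NormedAddCommGroup V] [NormedSpace ℂ V] [CompleteSpace V]
    (a : Fin A.N) (v : VV) (j : Fin 2) {g : C2 → V} (hg : Continuous g) (x : C2) :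
    Integrable fun y => em G a v j x y • g y :=
  integrable_TT (th2_smooth G a) (th2_comp G a) (em_ker G a v j) (by norm_num) hg x

/-! #### degree 0 -/

/-- the remainder kernel in degree `0` -/
def κ0 (a : Fin A.N) (z w : C2) : EA r :=
  (∑ j, em G a (0, ee j) j z w) • ContinuousLinearMap.id ℂ (Fin r → ℂ)

theorem κ0_comp (a : Fin A.N) (z w : C2) : ((mrho B.sb0 a).φ a z).comp (κ0 G a z w) =
    (∑ j, sm G a (0, ee j) j z w) • ContinuousLinearMap.id ℂ (Fin r → ℂ) := by
  refine ContinuousLinearMap.ext fun v => ?_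
  simp only [ContinuousLinearMap.comp_apply, mrho_φ, κ0, smul_apply, ContinuousLinearMap.id_apply,
    smul_smul, ← rc_em, Finset.mul_sum]

theorem skerScal {V : Type} [NormedAddCommGroup V] [NormedSpace ℂ V] {a : Fin A.N}
    {f : C2 → C2 → ℂ} (hf : ContDiff ℝ ∞ fun p : VV => f p.1 p.2)
    (hs : ∀ x y, f x y ≠ 0 → x ∈ G.LL a ∧ y ∈ G.LL a) (T : V →L[ℂ] V) :
    SKer A a fun z w => f z w • T := by
  refine ⟨hf.smul contDiff_const, G.LL a, G.isCompact_LL a, G.LL_sub a, fun x y h => ?_⟩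
  exact hs x y fun h0 => h (by simp [h0])

theorem sum_sm_smooth (a : Fin A.N) (v : Fin 2 → VV) (j : Fin 2 → Fin 2) :
    ContDiff ℝ ∞ fun p : VV => ∑ i, sm G a (v i) (j i) p.1 p.2 :=
  ContDiff.sum fun i _ => sm_smooth G a (v i) (j i)

theorem sum_sm_ne {a : Fin A.N} {v : Fin 2 → VV} {j : Fin 2 → Fin 2} {x y : C2}
    (h : ∑ i, sm G a (v i) (j i) x y ≠ 0) : x ∈ G.LL a ∧ y ∈ G.LL a := by
  by_contra hcon
  apply h
  refine Finset.sum_eq_zero fun i _ => ?_
  by_contra hne
  exact hcon (sm_ne G hne)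

theorem sker0 (a : Fin A.N) :
    SKer A a fun z w => ((mrho B.sb0 a).φ a z).comp (κ0 G a z w) := by
  simp_rw [κ0_comp]
  exact skerScal G (sum_sm_smooth G a (fun j => (0, ee j)) (fun j => j))
    (fun x y h => sum_sm_ne G (v := fun j => (0, ee j)) (j := fun j => j) h) _

theorem exists_gl {V : Type} [NormedAddCommGroup V] [NormedSpace ℂ V] {S : SB A V} (u : S.Sec)
    (a : Fin A.N) : ∃ g : C2 → V, ContDiff ℝ ∞ g ∧
      ∀ y ∈ G.LL a, y ∈ A.O a ∧ g =ᶠ[𝓝 y] u.1 a := by
  obtain ⟨g, hg, -, N, hN, hLN, hNO, hgu⟩ := exists_glob (A.isOpen_O a) (G.isCompact_LL a)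
    (G.LL_sub a) (sec_smooth u a)
  refine ⟨g, hg, fun y hy => ⟨hNO (hLN hy), ?_⟩⟩
  filter_upwards [hN.mem_nhds (hLN hy)] with z hz using hgu z hz

theorem mrho_off {V : Type} [NormedAddCommGroup V] [NormedSpace ℂ V] (S : SB A V) (a : Fin A.N) :
    ∀ b, ∀ z ∈ A.O b, (A.e b).symm z ∉ sp A a → (mrho S a).φ b z = 0 := by
  intro b z hz h
  change rc A a b z • ContinuousLinearMap.id ℂ V = 0
  rw [rc_zero hz h, zero_smul]

theorem B1_apply {a : Fin A.N} {u : B.sb1.Sec} {f : C2 → Fin 2 → Fin r → ℂ} (hf : Continuous f)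
    (h : ∀ y ∈ G.LL a, u.1 a y = f y) {x : C2} (hx : x ∈ A.O a) : (G.B1 a u).1 a x =
      ∑ j, H551.TT (fun x y => th2 G a (x, y) • H667.K j (x - y)) (fun y => f y j) x := by
  rw [Gl.B1, LO_self a _ _ u hx, ← IK_kB1 G hf x]
  exact IK_congr (fun y hy => kB1_ne G hy) h

theorem k0 (a : Fin A.N) : K0 G a := by
  refine ⟨fun z w => ((mrho B.sb0 a).φ a z).comp (κ0 G a z w), fun x => ?_, sker0 G a, ?_⟩
  · change ((mrho B.sb0 a).φ a x).comp (κ0 G a x x) = 0
    rw [κ0_comp]
    simp [sm_diag]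
  refine op_comp_eq_LO (N := sp A a) a (A.rho_supp a) (mrho B.sb0 a) (mrho_off B.sb0 a) _ (κ0 G a)
    zero_lt4 (sker0 G a).lker ?_ ?_
  · intro u z _
    obtain ⟨g, hg, hgu⟩ := exists_gl G u a
    have h1 : Integrable fun w => (∑ j, em G a (0, ee j) j z w) • g w := by
      simp_rw [Finset.sum_smul]
      exact integrable_finsetSum _ fun j _ => integrable_em G a _ j hg.continuous z
    refine h1.congr (Eventually.of_forall fun w => ?_)
    simp only [κ0, smul_apply, ContinuousLinearMap.id_apply]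
    by_cases hw : w ∈ G.LL a
    · rw [(hgu w hw).2.self_of_nhds]
    · have : ∀ j, em G a (0, ee j) j z w = 0 := fun j => by
        by_contra hne; exact hw (em_ne G hne)
      simp [this]
  · intro u z hz
    have hzK : z ∈ A.K a := hz
    have hzL : z ∈ G.LL a := K_sub_LL G a hzK
    obtain ⟨g, hg, hgu⟩ := exists_gl G u a
    have hg1 : ContDiff ℝ 1 g := hg.of_le (by exact_mod_cast le_top)
    have hfc : Continuous fun (y : C2) (j : Fin 2) => dbv (ee j) g y := by
      refine continuous_pi fun j => ?_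
      unfold dbv
      have := hg1.continuous_fderiv one_ne_zero
      fun_prop
    have e1 : ∀ y ∈ G.LL a, (B.d0 u).1 a y = fun j => dbv (ee j) g y := by
      intro y hy
      funext j
      rw [d0_apply B u (hgu y hy).1, dzb_eq_dbv]
      exact (Vale.Agent.P267.H433.dbv_congr (hgu y hy).2).symm
    have e2 := B1_apply G hfc e1 (hgu z hzL).1
    have e3 := kop0 (th2_smooth G a) (th2_comp G a) hg1 z
    have e4 : ∫ w, κ0 G a z w (u.1 a w) =
        ∑ j, H551.TT (fun x y => dbv ((0, ee j) : VV) (fun p => (th2 G a p : ℂ)) (x, y) •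
          H667.K j (x - y)) g z := by
      have h1 : ∀ w, κ0 G a z w (u.1 a w) = ∑ j, em G a (0, ee j) j z w • g w := by
        intro w
        simp only [κ0, smul_apply, ContinuousLinearMap.id_apply]
        by_cases hw : w ∈ G.LL a
        · rw [(hgu w hw).2.self_of_nhds, Finset.sum_smul]
        · have : ∀ j, em G a (0, ee j) j z w = 0 := fun j => by
            by_contra hne; exact hw (em_ne G hne)
          simp [this]
      simp_rw [h1]
      rw [integral_finsetSum _ fun j _ => integrable_em G a _ j hg.continuous z]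
      rfl
    change u.1 a z - (G.B1 a (B.d0 u)).1 a z = _
    rw [e2, e3, e4, th2_diag G hzK, one_smul, (hgu z hzL).2.self_of_nhds]
    abel

/-! #### degree 2 -/

/-- the remainder kernel in degree `2` -/
def κ2 (a : Fin A.N) (z w : C2) : EA r :=
  (∑ j, em G a (ee j, 0) j z w) • (-ContinuousLinearMap.id ℂ (Fin r → ℂ))

theorem κ2_comp (a : Fin A.N) (z w : C2) : ((mrho B.sb2 a).φ a z).comp (κ2 G a z w) =
    (∑ j, sm G a (ee j, 0) j z w) • (-ContinuousLinearMap.id ℂ (Fin r → ℂ)) := by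
  refine ContinuousLinearMap.ext fun v => ?_
  simp only [ContinuousLinearMap.comp_apply, mrho_φ, κ2, smul_apply, 
    smul_smul, ← rc_em, Finset.mul_sum]

theorem sker2 (a : Fin A.N) :
    SKer A a fun z w => ((mrho B.sb2 a).φ a z).comp (κ2 G a z w) := by
  simp_rw [κ2_comp]
  exact skerScal G (sum_sm_smooth G a (fun j => (ee j, 0)) (fun j => j))
    (fun x y h => sum_sm_ne G (v := fun j => (ee j, 0)) (j := fun j => j) h) _

theorem IK_kB2 {a : Fin A.N} (f : C2 → Fin r → ℂ) (hf : Continuous f) (x : C2) :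
    IK (G.kB2 a) f x = ![-H551.TT (fun x y => th2 G a (x, y) • H667.K 1 (x - y)) f x,
      H551.TT (fun x y => th2 G a (x, y) • H667.K 0 (x - y)) f x] := by
  have hi : ∀ j, Integrable fun y => (th2 G a (x, y) • H667.K j (x - y)) • f y := fun j =>
    integrable_TT (th2_smooth G a) (th2_comp G a) (ker_K (th2_smooth G a) (th2_comp G a) j)
      (by norm_num) hf x
  have h1 : ∀ y, G.kB2 a x y (f y) = ![-((th2 G a (x, y) • H667.K 1 (x - y)) • f y),
      (th2 G a (x, y) • H667.K 0 (x - y)) • f y] := by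
    intro y
    funext i
    rw [Gl.kB2, pr1_apply]
    fin_cases i
    · simp [th2_K]
    · simp [th2_K]
  have hint : Integrable fun y => G.kB2 a x y (f y) := by
    simp_rw [h1]
    refine Integrable.of_eval fun i => ?_
    fin_cases i
    · simpa using (hi 1).neg
    · simpa using hi 0
  unfold IK
  funext i
  rw [eval_integral (fun i => hint.eval i)]
  simp_rw [h1]
  fin_cases i
  · simp only [Fin.zero_eta, Matrix.cons_val_zero]
    rw [integral_neg]
    rfl
  · simp only [Fin.mk_one, Matrix.cons_val_one]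
    rfl

theorem B2_apply {a : Fin A.N} {u : B.sb2.Sec} {f : C2 → Fin r → ℂ} (hf : Continuous f)
    (h : ∀ y ∈ G.LL a, u.1 a y = f y) {x : C2} (hx : x ∈ A.O a) : (G.B2 a u).1 a x =
      ![-H551.TT (fun x y => th2 G a (x, y) • H667.K 1 (x - y)) f x,
        H551.TT (fun x y => th2 G a (x, y) • H667.K 0 (x - y)) f x] := by
  rw [Gl.B2, LO_self a _ _ u hx, ← IK_kB2 G f hf x]
  exact IK_congr (fun y hy => kB2_ne G hy) h

theorem TT_diff {V : Type} [NormedAddCommGroup V] [NormedSpace ℂ V] [CompleteSpace V]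
    (a : Fin A.N) (j : Fin 2) {g : C2 → V} (hg : ContDiff ℝ 1 g) (x : C2) : DifferentiableAt ℝ
      (H551.TT (fun x y => th2 G a (x, y) • H667.K j (x - y)) g) x := by
  have h4 : 3 < Module.finrank ℝ V2 := by
    rw [show Module.finrank ℝ V2 = 4 from finrank_V2]; norm_num
  have := Ker.contDiff_Tk_nat (m := 1) volume (ContinuousLinearMap.lsmul ℝ ℂ : ℂ →L[ℝ] V →L[ℝ] V)
    ((ker_K (th2_smooth G a) (th2_comp G a) j).of_le (by exact_mod_cast le_top)) h4 hg
  exact this.differentiable (by simp) x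

theorem k2 (a : Fin A.N) : K2 G a := by
  refine ⟨fun z w => ((mrho B.sb2 a).φ a z).comp (κ2 G a z w), fun x => ?_, sker2 G a, ?_⟩
  · change ((mrho B.sb2 a).φ a x).comp (κ2 G a x x) = 0
    rw [κ2_comp]
    simp [sm_diag]
  refine op_comp_eq_LO (N := sp A a) a (A.rho_supp a) (mrho B.sb2 a) (mrho_off B.sb2 a) _ (κ2 G a)
    zero_lt4 (sker2 G a).lker ?_ ?_
  · intro u z _
    obtain ⟨g, hg, hgu⟩ := exists_gl G u a
    have h1 : Integrable fun w => (∑ j, em G a (ee j, 0) j z w) • g w := by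
      simp_rw [Finset.sum_smul]
      exact integrable_finsetSum _ fun j _ => integrable_em G a _ j hg.continuous z
    refine h1.neg.congr (Eventually.of_forall fun w => ?_)
    simp only [κ2, smul_apply, neg_apply, ContinuousLinearMap.id_apply, Pi.neg_apply, smul_neg]
    by_cases hw : w ∈ G.LL a
    · rw [(hgu w hw).2.self_of_nhds]
    · have : ∀ j, em G a (ee j, 0) j z w = 0 := fun j => by
        by_contra hne; exact hw (em_ne G hne)
      simp [this]
  · intro u z hz
    have hzK : z ∈ A.K a := hz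
    have hzL : z ∈ G.LL a := K_sub_LL G a hzK
    obtain ⟨g, hg, hgu⟩ := exists_gl G u a
    have hg1 : ContDiff ℝ 1 g := hg.of_le (by exact_mod_cast le_top)
    have e1 : ∀ y ∈ G.LL a, u.1 a y = g y := fun y hy => (hgu y hy).2.self_of_nhds.symm
    have hO : A.O a ∈ 𝓝 z := (A.isOpen_O a).mem_nhds (hgu z hzL).1
    have e2 : (fun y => (G.B2 a u).1 a y 1) =ᶠ[𝓝 z]
        H551.TT (fun x y => th2 G a (x, y) • H667.K 0 (x - y)) g := by
      filter_upwards [hO] with y hy
      rw [B2_apply G hg.continuous e1 hy]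
      simp
    have e2' : (fun y => (G.B2 a u).1 a y 0) =ᶠ[𝓝 z] fun y =>
        -H551.TT (fun x y => th2 G a (x, y) • H667.K 1 (x - y)) g y := by
      filter_upwards [hO] with y hy
      rw [B2_apply G hg.continuous e1 hy]
      simp
    have e3 := kop2 (th2_smooth G a) (th2_comp G a) hg1 z
    have e4 : ∫ w, κ2 G a z w (u.1 a w) =
        -∑ j, H551.TT (fun x y => dbv ((ee j, 0) : VV) (fun p => (th2 G a p : ℂ)) (x, y) •
          H667.K j (x - y)) g z := by
      have h1 : ∀ w, κ2 G a z w (u.1 a w) = -∑ j, em G a (ee j, 0) j z w • g w := by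
        intro w
        simp only [κ2, smul_apply, neg_apply, ContinuousLinearMap.id_apply, smul_neg]
        by_cases hw : w ∈ G.LL a
        · rw [(hgu w hw).2.self_of_nhds, Finset.sum_smul]
        · have : ∀ j, em G a (ee j, 0) j z w = 0 := fun j => by
            by_contra hne; exact hw (em_ne G hne)
          simp [this]
      simp_rw [h1]
      rw [integral_neg, integral_finsetSum _ fun j _ => integrable_em G a _ j hg.continuous z]
      rfl
    change u.1 a z - (B.d1 (G.B2 a u)).1 a z = _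
    rw [d1_apply B _ (hgu z hzL).1, dzb_congr e2, dzb_congr e2', e4, dzb_eq_dbv, dzb_eq_dbv]
    have e5 : dbv (ee 1) (fun y => -H551.TT (fun x y => th2 G a (x, y) • H667.K 1 (x - y)) g y) z =
        -dbv (ee 1) (H551.TT (fun x y => th2 G a (x, y) • H667.K 1 (x - y)) g) z := by
      have h0 := Vale.Agent.P267.H433.dbv_sub (v := ee 1) (x := z)
        (f := fun _ : C2 => (0 : Fin r → ℂ))
        (differentiableAt_const _) (TT_diff G a 1 hg1 z)
      rw [Vale.Agent.P267.H433.dbv_const, zero_sub] at h0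
      rw [← h0]
      congr 1
      funext y
      rw [zero_sub]
    rw [e5, sub_neg_eq_add]
    rw [Fin.sum_univ_two] at e3
    rw [e3, th2_diag G hzK, one_smul, e1 z hzL]
    abel

/-! #### degree 1 -/

/-- the elementary operators `u ↦ (u_j in the place i)` -/
def El (r : ℕ) (i j : Fin 2) : (Fin 2 → Fin r → ℂ) →L[ℂ] (Fin 2 → Fin r → ℂ) :=
  (ContinuousLinearMap.single ℂ (fun _ : Fin 2 => Fin r → ℂ) i).comp
    (ContinuousLinearMap.proj (R := ℂ) (φ := fun _ : Fin 2 => Fin r → ℂ) j)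

theorem El_apply (r : ℕ) (i j : Fin 2) (u : Fin 2 → Fin r → ℂ) :
    El r i j u = Pi.single i (u j) := rfl

/-- the remainder kernel in degree `1` -/
def κ1 (a : Fin A.N) (z w : C2) : (Fin 2 → Fin r → ℂ) →L[ℂ] (Fin 2 → Fin r → ℂ) :=
  (∑ j, em G a (0, ee j) j z w) • ContinuousLinearMap.id ℂ (Fin 2 → Fin r → ℂ) -
    ∑ i, ∑ j, em G a (ee i, ee i) j z w • El r i j

theorem κ1_comp (a : Fin A.N) (z w : C2) : ((mrho B.sb1 a).φ a z).comp (κ1 G a z w) =
    (∑ j, sm G a (0, ee j) j z w) • ContinuousLinearMap.id ℂ (Fin 2 → Fin r → ℂ) -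
    ∑ i, ∑ j, sm G a (ee i, ee i) j z w • El r i j := by
  refine ContinuousLinearMap.ext fun v => ?_
  simp only [ContinuousLinearMap.comp_apply, mrho_φ, κ1, smul_apply, sub_apply, smul_sub,
    ContinuousLinearMap.id_apply, FunLike.coe_sum, Finset.sum_apply, Finset.smul_sum,
    smul_smul, ← rc_em, Finset.mul_sum]

theorem κ1_apply (a : Fin A.N) (z w : C2) (v : Fin 2 → Fin r → ℂ) (i : Fin 2) :
    κ1 G a z w v i = ∑ j, em G a (0, ee j) j z w • v i - ∑ j, em G a (ee i, ee i) j z w • v j := by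
  simp only [κ1, smul_apply, sub_apply, FunLike.coe_sum, Finset.sum_apply, Pi.sub_apply,
    Pi.smul_apply, ContinuousLinearMap.id_apply, El_apply, Finset.sum_smul]
  congr 1
  rw [Fin.sum_univ_two]
  fin_cases i <;> simp [Pi.single_apply]

theorem sker1 (a : Fin A.N) :
    SKer A a fun z w => ((mrho B.sb1 a).φ a z).comp (κ1 G a z w) := by
  simp_rw [κ1_comp]
  refine ⟨?_, G.LL a, G.isCompact_LL a, G.LL_sub a, fun x y h => ?_⟩
  · refine ContDiff.sub ?_ (ContDiff.sum fun i _ => ContDiff.sum fun j _ => ?_)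
    · exact (sum_sm_smooth G a (fun j => (0, ee j)) (fun j => j)).smul contDiff_const
    · exact (sm_smooth G a (ee i, ee i) j).smul contDiff_const
  · by_contra hcon
    have h0 : ∀ v j, sm G a v j x y = 0 := fun v j => by
      by_contra hne; exact hcon (sm_ne G hne)
    refine h ?_
    have hz : ∀ T : (Fin 2 → Fin r → ℂ) →L[ℂ] (Fin 2 → Fin r → ℂ), (0 : ℂ) • T = 0 :=
      fun T => zero_smul ℂ T
    simp only [Fin.sum_univ_two, h0, add_zero, hz, sub_zero]

theorem TT_zero {V : Type} [NormedAddCommGroup V] [NormedSpace ℂ V] (k : V2 → V2 → ℂ) (x : V2) :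
    H551.TT k (fun _ => (0 : V)) x = 0 := by
  rw [TT_eq]
  simp

theorem TT_neg {V : Type} [NormedAddCommGroup V] [NormedSpace ℂ V] (k : V2 → V2 → ℂ) (f : V2 → V)
    (x : V2) : H551.TT k (fun y => -f y) x = -H551.TT k f x := by
  rw [TT_eq, TT_eq, ← integral_neg]
  simp

theorem k1 (a : Fin A.N) : K1 G a := by
  refine ⟨fun z w => ((mrho B.sb1 a).φ a z).comp (κ1 G a z w), fun x => ?_, sker1 G a, ?_⟩
  · change ((mrho B.sb1 a).φ a x).comp (κ1 G a x x) = 0
    rw [κ1_comp]
    have hz : ∀ T : (Fin 2 → Fin r → ℂ) →L[ℂ] (Fin 2 → Fin r → ℂ), (0 : ℂ) • T = 0 :=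
      fun T => zero_smul ℂ T
    simp only [Fin.sum_univ_two, sm_diag, add_zero, hz, sub_zero]
  -- integrability of the components
  have hcomp : ∀ (g : C2 → Fin 2 → Fin r → ℂ), Continuous g → ∀ (z : C2) (i : Fin 2),
      Integrable fun w => κ1 G a z w (g w) i := by
    intro g hg z i
    have hgi : ∀ j, Continuous fun w => g w j := fun j => by fun_prop
    simp_rw [κ1_apply]
    exact (integrable_finsetSum _ fun j _ => integrable_em G a _ j (hgi i) z).sub
      (integrable_finsetSum _ fun j _ => integrable_em G a _ j (hgi j) z)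
  have hcongr : ∀ (u : B.sb1.Sec) (g : C2 → Fin 2 → Fin r → ℂ),
      (∀ y ∈ G.LL a, u.1 a y = g y) → ∀ z w, κ1 G a z w (u.1 a w) = κ1 G a z w (g w) := by
    intro u g h z w
    by_cases hw : w ∈ G.LL a
    · rw [h w hw]
    · have h0 : ∀ v j, em G a v j z w = 0 := fun v j => by
        by_contra hne; exact hw (em_ne G hne)
      simp [κ1, h0]
  refine op_comp_eq_LO (N := sp A a) a (A.rho_supp a) (mrho B.sb1 a) (mrho_off B.sb1 a) _ (κ1 G a)
    zero_lt4 (sker1 G a).lker ?_ ?_
  · intro u z _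
    obtain ⟨g, hg, hgu⟩ := exists_gl G u a
    have e1 : ∀ y ∈ G.LL a, u.1 a y = g y := fun y hy => (hgu y hy).2.self_of_nhds.symm
    simp_rw [hcongr u g e1]
    exact Integrable.of_eval fun i => hcomp g hg.continuous z i
  · intro u z hz
    have hzK : z ∈ A.K a := hz
    have hzL : z ∈ G.LL a := K_sub_LL G a hzK
    obtain ⟨g, hg, hgu⟩ := exists_gl G u a
    have hg1 : ContDiff ℝ 1 g := hg.of_le (by exact_mod_cast le_top)
    have hgi : ∀ j, ContDiff ℝ 1 fun w => g w j := fun j => by fun_prop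
    have e1 : ∀ y ∈ G.LL a, u.1 a y = g y := fun y hy => (hgu y hy).2.self_of_nhds.symm
    have hO : A.O a ∈ 𝓝 z := (A.isOpen_O a).mem_nhds (hgu z hzL).1
    set c : C2 → Fin r → ℂ := fun y =>
      dbv (ee 0) (fun y => g y 1) y - dbv (ee 1) (fun y => g y 0) y with hc
    have hcc : Continuous c := by
      have h2 : ∀ i j : Fin 2, Continuous (dbv (ee i) fun y => g y j) := by
        intro i j
        unfold dbv
        have := (hgi j).continuous_fderiv one_ne_zero
        fun_prop
      exact (h2 0 1).sub (h2 1 0)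
    have e2 : (G.B1 a u).1 a =ᶠ[𝓝 z] fun x =>
        ∑ j, H551.TT (fun x y => th2 G a (x, y) • H667.K j (x - y)) (fun y => g y j) x := by
      filter_upwards [hO] with y hy
      exact B1_apply G hg.continuous e1 hy
    have e3 : ∀ y ∈ G.LL a, (B.d1 u).1 a y = c y := by
      intro y hy
      rw [d1_apply B u (hgu y hy).1, hc, dzb_eq_dbv, dzb_eq_dbv]
      have h3 : ∀ j, (fun y => u.1 a y j) =ᶠ[𝓝 y] fun y => g y j := by
        intro j
        filter_upwards [(hgu y hy).2] with w hw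
        rw [hw]
      rw [Vale.Agent.P267.H433.dbv_congr (h3 1), Vale.Agent.P267.H433.dbv_congr (h3 0)]
    have e4 := B2_apply G hcc e3 (hgu z hzL).1
    have e5 : ∀ i, (∫ w, κ1 G a z w (u.1 a w)) i =
        ∑ j, H551.TT (fun x y => dbv ((0, ee j) : VV) (fun p => (th2 G a p : ℂ)) (x, y) •
          H667.K j (x - y)) (fun y => g y i) z -
        ∑ j, H551.TT (fun x y => dbv ((ee i, ee i) : VV) (fun p => (th2 G a p : ℂ)) (x, y) •
          H667.K j (x - y)) (fun y => g y j) z := by
      intro i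
      simp_rw [hcongr u g e1]
      rw [eval_integral (fun i => hcomp g hg.continuous z i)]
      simp_rw [κ1_apply]
      rw [integral_sub, integral_finsetSum, integral_finsetSum]
      · rfl
      · exact fun j _ => integrable_em G a _ j (hgi j).continuous z
      · exact fun j _ => integrable_em G a _ j (hgi i).continuous z
      · exact integrable_finsetSum _ fun j _ => integrable_em G a _ j (hgi i).continuous z
      · exact integrable_finsetSum _ fun j _ => integrable_em G a _ j (hgi j).continuous z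
    funext i
    have e6 := kop1 (th2_smooth G a) (th2_comp G a) (u := fun j y => g y j) hgi i z
    change u.1 a z i - ((B.d0 (G.B1 a u)).1 a z i + (G.B2 a (B.d1 u)).1 a z i) = _
    rw [d0_apply B _ (hgu z hzL).1, dzb_congr e2, dzb_eq_dbv, e6, e4, e5, th2_diag G hzK, one_smul,
      e1 z hzL]
    have e7 : ∑ j, H551.TT (fun x y => th2 G a (x, y) • H667.K j (x - y))
        (fun y => dbv (ee i) (fun y => g y j) y - dbv (ee j) (fun y => g y i) y) z +
        (![-H551.TT (fun x y => th2 G a (x, y) • H667.K 1 (x - y)) c z,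
          H551.TT (fun x y => th2 G a (x, y) • H667.K 0 (x - y)) c z] : Fin 2 → Fin r → ℂ) i =
        0 := by
      rw [Fin.sum_univ_two]
      fin_cases i
      · simp only [Fin.zero_eta, Matrix.cons_val_zero, sub_self]
        rw [TT_zero, zero_add]
        exact add_neg_cancel _
      · simp only [Fin.mk_one, Matrix.cons_val_one, sub_self]
        rw [TT_zero, add_zero]
        have h8 : (fun y => dbv (ee 1) (fun y => g y 0) y - dbv (ee 0) (fun y => g y 1) y) =
            fun y => -c y := by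
          funext y
          exact (neg_sub _ _).symm
        rw [h8, TT_neg]
        exact neg_add_cancel _
    have key : ∀ gi S R1 R2 Q : Fin r → ℂ, S + Q = 0 →
        gi - ((gi + S + R1 - R2) + Q) = R2 - R1 := by
      intro gi S R1 R2 Q h
      have h' : Q = -S := eq_neg_of_add_eq_zero_right h
      rw [h']
      abel
    exact key _ _ _ _ _ e7

end main

end Vale.Agent.P267.H551
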