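import Vale.Agent.P267.H551.K5a

/-! P267 / RRC-GLUE (helper551): `K5`: `ρ_c ∂̄ρ_b ∧ ∂̄ρ_a (T_ab + T_bc + T_ca)` is a local operator
with smooth kernel, with the value of the composition law on the diagonal. -/

set_option linter.unusedSectionVars false

open scoped Manifold ContDiff ComplexConjugate Matrix
open MeasureTheory Set Filter Topology Metric

noncomputable section

namespace Vale.Agent.P267.H551

open Vale.Agent.P267.FL Vale.Agent.P267.RR Vale.Agent.P267.H462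
open Vale.Agent.P267.H667 (IsCutoff kc cst)
open Vale.Agent.P267.H433 (Tr dbv ee VV V2 StarD starD_prod)

theorem On_mono {𝔸 : Type} [NormedRing 𝔸] [NormedAlgebra ℂ 𝔸] {T : Tr 𝔸} {D D' : Set VV}
    {Ω Ω' : Set V2} (h : T.On D Ω) (hD' : StarD D') (hsub : D' ⊆ D) (hΩ : IsOpen Ω')
    (hΩsub : Ω' ⊆ Ω) (hsnd : ∀ p ∈ D', p.2 ∈ Ω') : T.On D' Ω' :=
  ⟨hD', hΩ, hsnd, h.hf.mono hΩsub, h.he.mono hΩsub, h.hei.mono hΩsub,
    fun y hy => h.e_ei y (hΩsub hy), fun y hy => h.ei_e y (hΩsub hy),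
    fun p hp => h.dM_ne p (hsub hp)⟩

variable {X : Type*} [TopologicalSpace X] [ChartedSpace C2 X] {A : FinAt X}
  {r : ℕ} {B : Bun A r} (G : Gl B)

/-! #### the compositions of transitions -/

theorem mL_mul (M N : Matrix (Fin r) (Fin r) ℂ) : mL M * mL N = mL (M * N) := by
  refine ContinuousLinearMap.ext fun v => ?_
  change M *ᵥ (N *ᵥ v) = (M * N) *ᵥ v
  rw [Matrix.mulVec_mulVec]

theorem mL_one : mL (1 : Matrix (Fin r) (Fin r) ℂ) = 1 := by
  refine ContinuousLinearMap.ext fun v => ?_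
  change (1 : Matrix (Fin r) (Fin r) ℂ) *ᵥ v = v
  rw [Matrix.one_mulVec]

section cmp

variable {O : Set C2} {a b c : Fin A.N}

theorem cmp_f (hO : O ⊆ A.ov a b ∩ A.ov a c) :
    EqOn ((H462.TT B b c).comp (H462.TT B a b)).f (H462.TT B a c).f O := fun _ hx =>
  FinAt.tau_comp c (hO hx).1

theorem cmp_e (hO : O ⊆ A.ov a b ∩ A.ov a c) :
    EqOn ((H462.TT B b c).comp (H462.TT B a b)).e (H462.TT B a c).e O := fun x hx => by
  change mL (B.E b c (A.tau a b x)) * mL (B.E a b x) = mL (B.E a c x)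
  rw [mL_mul, B.comp a b c x (hO hx).1 (hO hx).2]

theorem cmp_ei (hO : O ⊆ A.ov a b ∩ A.ov a c) :
    EqOn ((H462.TT B b c).comp (H462.TT B a b)).ei (H462.TT B a c).ei O := fun x hx => by
  change mL (B.E b a (A.tau a b x)) * mL (B.E c b (A.tau b c (A.tau a b x))) =
    mL (B.E c a (A.tau a c x))
  have h1 : A.tau a c x ∈ A.ov c b := FinAt.tau_mem_ov (hO hx).2 (hO hx).1
  have h2 := B.comp c b a (A.tau a c x) h1 (FinAt.tau_mem (hO hx).2)
  rw [FinAt.tau_comp b (hO hx).2] at h2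
  rw [FinAt.tau_comp c (hO hx).1, mL_mul, h2]

theorem cmp_f' (hO : O ⊆ A.ov a c) :
    EqOn ((H462.TT B c a).comp (H462.TT B a c)).f (idTr (EA r)).f O := fun _ hx =>
  FinAt.tau_tau (hO hx)

theorem cmp_e' (hO : O ⊆ A.ov a c) :
    EqOn ((H462.TT B c a).comp (H462.TT B a c)).e (idTr (EA r)).e O := fun x hx => by
  change mL (B.E c a (A.tau a c x)) * mL (B.E a c x) = 1
  rw [mL_mul, B.comp a c a x (hO hx) ⟨(hO hx).1, (hO hx).1.2⟩, B.self a x (hO hx).1, mL_one]

theorem cmp_ei' (hO : O ⊆ A.ov a c) :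
    EqOn ((H462.TT B c a).comp (H462.TT B a c)).ei (idTr (EA r)).ei O := fun x hx => by
  change mL (B.E c a (A.tau a c x)) * mL (B.E a c (A.tau c a (A.tau a c x))) = 1
  rw [FinAt.tau_tau (hO hx), mL_mul, B.comp a c a x (hO hx) ⟨(hO hx).1, (hO hx).1.2⟩,
    B.self a x (hO hx).1, mL_one]

end cmp

section main

variable [T2Space X] [IsManifold 𝓘(ℂ, C2) ω X]

/-- the sum of the two functions `r` -/
def rr (B : Bun A r) (a b c : Fin A.N) (p : VV) : EA r :=
  Tr.r (H462.TT B b c) (H462.TT B a b) p + Tr.r (H462.TT B c a) (H462.TT B a c) p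

open Classical in
/-- the kernel of `T a b + T b c + T c a` in the chart `a` -/
def κ5 (a b c : Fin A.N) (z w : C2) : EA r :=
  if z = w then (cst : ℂ) • rr B a b c (z, z) else
    G.kT a b z w + pT G a b c z w + pT G a c a z w

theorem κ5_diag (a b c : Fin A.N) (z : C2) : κ5 G a b c z z = (cst : ℂ) • rr B a b c (z, z) :=
  if_pos rfl

theorem κ5_off {a b c : Fin A.N} {z w : C2} (h : z ≠ w) :
    κ5 G a b c z w = G.kT a b z w + pT G a b c z w + pT G a c a z w := if_neg h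

/-- near the diagonal -/
theorem near5 {a b c : Fin A.N} {z : C2} (hz : z ∈ im A a (N3 A a b c)) : ∃ δ > 0,
    ContDiffOn ℝ ∞ (rr B a b c) (ball z δ ×ˢ ball z δ) ∧
    ∀ p ∈ ball z δ ×ˢ ball z δ, κ5 G a b c p.1 p.2 = (cst : ℂ) • rr B a b c p := by
  obtain ⟨hab, hac⟩ := mem_ov_of_N3 hz
  obtain ⟨x, hx, hxz⟩ := hz
  have hza : z ∈ im A a (sp A a ∩ sp A b) := ⟨x, ⟨hx.1.1, hx.1.2⟩, hxz⟩
  have hzb : A.tau a b z ∈ im A b (sp A b ∩ sp A c) :=
    tau_im (N := sp A b ∩ sp A c ∩ sp A a) (fun y hy => A.rho_supp a hy.2)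
      ⟨x, ⟨⟨hx.1.2, hx.2⟩, hx.1.1⟩, hxz⟩ |> fun ⟨y, hy, h⟩ => ⟨y, hy.1, h⟩
  have hzc : A.tau a c z ∈ im A c (sp A c ∩ sp A a) :=
    tau_im (N := sp A c ∩ sp A a) (fun y hy => A.rho_supp a hy.2)
      ⟨x, ⟨hx.2, hx.1.1⟩, hxz⟩
  -- continuity of the transitions
  have cab : ContinuousAt (A.tau a b) z := (tau_contDiffAt_real (n := 0) hab).continuousAt
  have cac : ContinuousAt (A.tau a c) z := (tau_contDiffAt_real (n := 0) hac).continuousAt
  have Cab : ContinuousAt (fun p : VV => (A.tau a b p.1, A.tau a b p.2)) (z, z) :=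
    (ContinuousAt.comp (g := A.tau a b) (f := fun p : VV => p.1) (x := (z, z)) cab
      continuousAt_fst).prodMk
    (ContinuousAt.comp (g := A.tau a b) (f := fun p : VV => p.2) (x := (z, z)) cab
      continuousAt_snd)
  have Cac : ContinuousAt (fun p : VV => (A.tau a c p.1, A.tau a c p.2)) (z, z) :=
    (ContinuousAt.comp (g := A.tau a c) (f := fun p : VV => p.1) (x := (z, z)) cac
      continuousAt_fst).prodMk
    (ContinuousAt.comp (g := A.tau a c) (f := fun p : VV => p.2) (x := (z, z)) cac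
      continuousAt_snd)
  -- neighbourhoods
  have th1 : ∀ a b : Fin A.N, ∀ z ∈ im A a (sp A a ∩ sp A b), ∀ᶠ p in 𝓝 (z, z), G.θ a b p = 1 := by
    intro a b z hz
    obtain ⟨N, hN, hzN, h1⟩ := G.θ_one a b
    filter_upwards [hN.mem_nhds (hzN z hz)] with p hp using h1 p hp
  have D1 : ∀ a b : Fin A.N, ∀ z ∈ A.ov a b, ∀ᶠ p in 𝓝 (z, z), p ∈ G.D a b := fun a b z hz =>
    (G.D_on a b).oD.mem_nhds (G.D_diag a b z hz)
  have n1 := th1 a b z hza
  have n2 := Cab.eventually (th1 b c _ hzb)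
  have n3 := Cac.eventually (th1 c a _ hzc)
  have n4 := D1 a b z hab
  have n5 := D1 a c z hac
  have n6 := Cab.eventually (D1 b c _ (FinAt.tau_mem_ov hab hac))
  have n7 := Cac.eventually (D1 c a _ (FinAt.tau_mem hac))
  have n8 : ∀ᶠ p : VV in 𝓝 (z, z), p.1 ∈ A.ov a b ∩ A.ov a c :=
    (continuousAt_fst (p := ((z, z) : VV))).eventually
      (((A.isOpen_ov a b).inter (A.isOpen_ov a c)).mem_nhds ⟨hab, hac⟩)
  obtain ⟨δ, hδ, hball⟩ := Metric.eventually_nhds_iff_ball.1
    (n1.and (n2.and (n3.and (n4.and (n5.and (n6.and (n7.and n8)))))))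
  refine ⟨δ, hδ, ?_⟩
  rw [ball_prod_same]
  set D0 : Set VV := ball (z, z) δ with hD0
  have hD0' : D0 = ball z δ ×ˢ ball z δ := (ball_prod_same z z δ).symm
  have hst : StarD D0 := by
    rw [hD0']
    exact starD_prod isOpen_ball (convex_ball z δ)
  have hov : ball z δ ⊆ A.ov a b ∩ A.ov a c := by
    intro y hy
    have : ((y, z) : VV) ∈ D0 := by
      rw [hD0']
      exact ⟨hy, mem_ball_self hδ⟩
    exact (hball _ this).2.2.2.2.2.2.2
  have hsnd : ∀ p ∈ D0, p.2 ∈ ball z δ := fun p hp => by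
    rw [hD0'] at hp
    exact hp.2
  have hfst : ∀ p ∈ D0, p.1 ∈ ball z δ := fun p hp => by
    rw [hD0'] at hp
    exact hp.1
  -- the two compositions
  have On1 : (H462.TT B a b).On D0 (ball z δ) :=
    On_mono (G.D_on a b) hst (fun p hp => (hball p hp).2.2.2.1) isOpen_ball
      (fun y hy => (hov hy).1) hsnd
  have On2 : (H462.TT B a c).On D0 (ball z δ) :=
    On_mono (G.D_on a c) hst (fun p hp => (hball p hp).2.2.2.2.1) isOpen_ball
      (fun y hy => (hov hy).2) hsnd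
  have Co1 : Tr.CompOn (H462.TT B b c) (H462.TT B a b) D0 (G.D b c) (ball z δ) (A.ov b c) := by
    refine Tr.CompOn.mk' On1 (G.D_on b c) (fun p hp => (hball p hp).2.2.2.2.2.1)
      (fun y hy => FinAt.tau_mem_ov (hov hy).1 (hov hy).2) fun p hp => ?_
    rw [tr_congr_dM isOpen_ball hst hsnd (cmp_f hov) hp]
    exact On2.dM_ne p hp
  have Co2 : Tr.CompOn (H462.TT B c a) (H462.TT B a c) D0 (G.D c a) (ball z δ) (A.ov c a) := by
    refine Tr.CompOn.mk' On2 (G.D_on c a) (fun p hp => (hball p hp).2.2.2.2.2.2.1)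
      (fun y hy => FinAt.tau_mem (hov hy).2) fun p hp => ?_
    rw [tr_congr_dM isOpen_ball hst hsnd (cmp_f' fun y hy => (hov hy).2) hp, idTr_dM]
    exact one_ne_zero
  refine ⟨(Co1.cr.restrict_scalars ℝ).add (Co2.cr.restrict_scalars ℝ), fun p hp => ?_⟩
  by_cases hne : p.1 = p.2
  · have hp' : p = (p.1, p.1) := Prod.ext rfl hne.symm
    rw [hp', κ5_diag]
  rw [κ5_off G hne, kT_eq, pT_of_mem G (hov (hsnd p hp)).1, pT_of_mem G (hov (hsnd p hp)).2,
    Prod.mk.eta, (hball p hp).1]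
  have t2 : G.θ b c ((H462.TT B a b).Ph p) = 1 := (hball p hp).2.1
  have t3 : G.θ c a ((H462.TT B a c).Ph p) = 1 := (hball p hp).2.2.1
  rw [t2, t3]
  have hs : p.2 - p.1 ≠ 0 := sub_ne_zero.2 (Ne.symm hne)
  have L1 := Co1.comp_law hp hs
  have L2 := Co2.comp_law hp hs
  rw [tr_congr_C isOpen_ball hst hsnd (cmp_f hov) (cmp_e hov) (cmp_ei hov) hp] at L1
  rw [tr_congr_C isOpen_ball hst hsnd (cmp_f' fun y hy => (hov hy).2)
    (cmp_e' fun y hy => (hov hy).2) (cmp_ei' fun y hy => (hov hy).2) hp, idTr_C, sub_zero] at L2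
  have key : ∀ (s : ℂ) (x1 x2 x3 x4 r1 r2 : EA r), x1 + x2 - x4 = -r1 → x4 + x3 = -r2 →
      (-s) • ((1 : ℝ) • x1) + (-s) • ((1 : ℝ) • x2) + (-s) • ((1 : ℝ) • x3) = s • (r1 + r2) := by
    intro s x1 x2 x3 x4 r1 r2 h1 h2
    have e1 : x2 = -r1 + x4 - x1 := by rw [← h1]; abel
    have e2 : x3 = -r2 - x4 := by rw [← h2]; abel
    subst e1 e2
    refine ContinuousLinearMap.ext fun v => ?_
    simp only [smul_apply, add_apply, neg_apply, sub_apply]
    module
  exact key _ _ _ _ _ _ _ L1 L2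

variable [CompactSpace X]

/-- the kernel of `K5` -/
theorem sker5 (a b c : Fin A.N) :
    SKer A a fun z w => cf A a b c z • κ5 G a b c z w := by
  set Nc := im A a (N3 A a b c) with hNc
  have cNc : IsCompact Nc := isCompact_imN3 a b c
  have hab : Nc ⊆ A.ov a b := fun z hz => (mem_ov_of_N3 hz).1
  have hac : Nc ⊆ A.ov a c := fun z hz => (mem_ov_of_N3 hz).2
  have hb1 : ∀ z ∈ Nc, closedBall (A.tau a b z) G.ε ⊆ A.ov b a := by
    intro z hz
    obtain ⟨x, hx, hxz⟩ := hz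
    have h1 : A.tau a b z ∈ im A b (sp A b ∩ sp A a ∩ sp A c) :=
      tau_im (fun y hy => A.rho_supp a hy.1.2) ⟨x, ⟨⟨hx.1.2, hx.1.1⟩, hx.2⟩, hxz⟩
    exact fun y hy => (G.ball b a c _ h1 hy).1
  have hb2 : ∀ z ∈ Nc, closedBall (A.tau a c z) G.ε ⊆ A.ov c a := by
    intro z hz
    obtain ⟨x, hx, hxz⟩ := hz
    have h1 : A.tau a c z ∈ im A c (sp A c ∩ sp A a ∩ sp A b) :=
      tau_im (fun y hy => A.rho_supp a hy.1.2) ⟨x, ⟨⟨hx.2, hx.1.1⟩, hx.1.2⟩, hxz⟩
    exact fun y hy => (G.ball c a b _ h1 hy).1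
  have hcf : ContDiff ℝ ∞ (cf A a b c) := cf_smooth a b c
  have hcf0 : ∀ z ∉ Nc, cf A a b c z = 0 := fun z hz => cf_zero hz
  refine ⟨contDiff_iff_contDiffAt.2 ?_, ?_⟩
  · rintro ⟨z, w⟩
    by_cases hz : z ∈ Nc
    · by_cases hne : z = w
      · subst hne
        obtain ⟨δ, hδ, hs, he⟩ := near5 G hz
        have hmem : ball z δ ×ˢ ball z δ ∈ 𝓝 ((z, z) : VV) :=
          (isOpen_ball.prod isOpen_ball).mem_nhds ⟨mem_ball_self hδ, mem_ball_self hδ⟩
        have h1 : (fun p : VV => cf A a b c p.1 • κ5 G a b c p.1 p.2) =ᶠ[𝓝 (z, z)] fun p =>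
            cf A a b c p.1 • ((cst : ℂ) • rr B a b c p) := by
          filter_upwards [hmem] with p hp
          rw [he p hp]
        refine ContDiffAt.congr_of_eventuallyEq ?_ h1
        have hc' : ContDiffAt ℝ ∞ (fun p : VV => cf A a b c p.1) (z, z) :=
          (hcf.comp contDiff_fst).contDiffAt
        exact hc'.smul ((contDiff_const (c := (cst : ℂ))).contDiffAt.smul (hs.contDiffAt hmem))
      · have hop : IsOpen {p : VV | p.1 ≠ p.2} := isOpen_ne_fun continuous_fst continuous_snd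
        have h1 : (fun p : VV => cf A a b c p.1 • κ5 G a b c p.1 p.2) =ᶠ[𝓝 (z, w)] fun p =>
            cf A a b c p.1 • G.kT a b p.1 p.2 + cf A a b c p.1 • pT G a b c p.1 p.2 +
              cf A a b c p.1 • pT G a c a p.1 p.2 := by
          filter_upwards [hop.mem_nhds (show ((z, w) : VV) ∈ {p : VV | p.1 ≠ p.2} from hne)]
            with p hp
          rw [κ5_off G hp]
          refine ContinuousLinearMap.ext fun v => ?_
          simp only [smul_apply, add_apply, smul_add]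
        refine ContDiffAt.congr_of_eventuallyEq ?_ h1
        have hc' : ContDiffAt ℝ ∞ (fun p : VV => cf A a b c p.1) (z, w) :=
          (hcf.comp contDiff_fst).contDiffAt
        exact ((hc'.smul (kT_smoothAt G a b hne)).add
          (cpT_smoothAt G c cNc hab hb1 hcf hcf0 hz hne)).add
          (cpT_smoothAt G a cNc hac hb2 hcf hcf0 hz hne)
    · have h1 : (fun p : VV => cf A a b c p.1 • κ5 G a b c p.1 p.2) =ᶠ[𝓝 (z, w)] fun _ => 0 := by
        have h2 : ∀ᶠ p : VV in 𝓝 (z, w), p.1 ∉ Nc :=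
          (continuousAt_fst (p := ((z, w) : VV))).eventually (cNc.isClosed.isOpen_compl.mem_nhds hz)
        filter_upwards [h2] with p hp
        rw [hcf0 _ hp]
        exact zero_smul ℂ (κ5 G a b c p.1 p.2)
      exact (contDiffAt_const (c := (0 : EA r))).congr_of_eventuallyEq h1
  · set S : Set VV := tsupport (G.θ a b) ∪ sT G a b Nc ∪ sT G a c Nc with hS
    have cS : IsCompact S := (((G.θ_comp a b).isCompact.union (isCompact_sT G cNc hab hb1))).union
      (isCompact_sT G cNc hac hb2)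
    refine ⟨Nc ∪ Prod.snd '' S, cNc.union (cS.image continuous_snd), ?_, fun z w h => ?_⟩
    · rintro y (hy | ⟨p, hp, rfl⟩)
      · exact (hab hy).1
      · rcases hp with (hp | hp) | hp
        · exact (G.D_sub a b (G.θ_supp a b hp)).2.1
        · exact (sT_sub G hab hb1 hp).2.1
        · exact (sT_sub G hac hb2 hp).2.1
    · have hz : z ∈ Nc := by
        by_contra hz
        apply h
        rw [hcf0 _ hz]
        exact zero_smul ℂ (κ5 G a b c z w)
      refine ⟨Or.inl hz, ?_⟩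
      by_cases hne : z = w
      · exact Or.inl (hne ▸ hz)
      · refine Or.inr ⟨(z, w), ?_, rfl⟩
        by_contra hcon
        apply h
        have h1 : G.kT a b z w = 0 := by
          by_contra h1
          exact hcon (Or.inl (Or.inl (kT_ne G h1)))
        have h2 : pT G a b c z w = 0 := by
          by_contra h2
          exact hcon (Or.inl (Or.inr (pT_ne G hz h2)))
        have h3 : pT G a c a z w = 0 := by
          by_contra h3
          exact hcon (Or.inr (pT_ne G hz h3))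
        rw [κ5_off G hne, h1, h2, h3, add_zero, add_zero]
        exact sz0 _

theorem phi5_comp (a b c : Fin A.N) (z : C2) (T : EA r) :
    (((mrho B.sb2 c).comp ((wr1 B b).comp (wr0 B a))).φ a z).comp T = cf A a b c z • T := by
  refine ContinuousLinearMap.ext fun v => ?_
  rw [ContinuousLinearMap.comp_apply, phi5]
  rfl

theorem phi5_off (a b c : Fin A.N) : ∀ d, ∀ z ∈ A.O d, (A.e d).symm z ∉ N3 A a b c →
    ((mrho B.sb2 c).comp ((wr1 B b).comp (wr0 B a))).φ d z = 0 := by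
  intro d z hz h
  refine ContinuousLinearMap.ext fun v => ?_
  change rc A c d z • (dr A b d z 0 • (dr A a d z 1 • v) - dr A b d z 1 • (dr A a d z 0 • v)) = 0
  by_cases h2 : (A.e d).symm z ∈ sp A a
  · by_cases h3 : (A.e d).symm z ∈ sp A b
    · have h4 : (A.e d).symm z ∉ sp A c := fun h4 => h ⟨⟨h2, h3⟩, h4⟩
      rw [rc_zero hz h4, zero_smul]
    · rw [dr_zero hz h3, dr_zero hz h3]
      simp
  · rw [dr_zero hz h2, dr_zero hz h2]
    simp

/-- **K5** -/
theorem k5 (a b c : Fin A.N) : K5 G a b c := by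
  refine ⟨fun z w => cf A a b c z • κ5 G a b c z w, fun x => ?_, sker5 G a b c, ?_⟩
  · change cf A a b c x • κ5 G a b c x x = _
    rw [κ5_diag]
    refine ContinuousLinearMap.ext fun v => ?_
    simp only [smul_apply, rr, smul_smul]
    rw [mul_comm]
  have hab : ∀ z ∈ im A a (N3 A a b c), z ∈ A.ov a b := fun z hz => (mem_ov_of_N3 hz).1
  have hac : ∀ z ∈ im A a (N3 A a b c), z ∈ A.ov a c := fun z hz => (mem_ov_of_N3 hz).2
  -- the supports
  have hk1 : ∀ z ∈ im A a (N3 A a b c), ∀ y, G.kT b c (A.tau a b z) y ≠ 0 → y ∈ A.ov b a := by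
    intro z hz y hy
    obtain ⟨x, hx, hxz⟩ := hz
    have h1 : A.tau a b z ∈ im A b (sp A b ∩ sp A a ∩ sp A c) :=
      tau_im (fun y hy => A.rho_supp a hy.1.2) ⟨x, ⟨⟨hx.1.2, hx.1.1⟩, hx.2⟩, hxz⟩
    have h2 : y ∈ closedBall (A.tau a b z) G.ε := G.θ_near b c (A.tau a b z, y) (kT_ne G hy)
    exact (G.ball b a c _ h1 h2).1
  have hk2 : ∀ z ∈ im A a (N3 A a b c), ∀ y, G.kT c a (A.tau a c z) y ≠ 0 → y ∈ A.ov c a := by
    intro z _ y hy
    have h2 : (A.tau a c z, y) ∈ A.ov c a ×ˢ A.ov c a := G.D_sub c a (G.θ_supp c a (kT_ne G hy))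
    exact h2.2
  -- the value of the operator
  have main : ∀ (u : B.sb2.Sec), ∀ z ∈ im A a (N3 A a b c),
      (Integrable fun w => κ5 G a b c z w (u.1 a w)) ∧
      ((G.T a b + G.T b c + G.T c a) u).1 a z = ∫ w, κ5 G a b c z w (u.1 a w) := by
    intro u z hz
    have p1 := pull_int (S := B.sb2) (S' := B.sb0) two_lt (G.lkT b c) u (hab z hz) (hk1 z hz)
    have p2 := pull_int (S := B.sb2) (S' := B.sb0) two_lt (G.lkT c a) u (hac z hz) (hk2 z hz)
    have i0 : Integrable fun w => G.kT a b z w (u.1 a w) :=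
      (G.lkT a b).integrable two_lt (sec_smooth u a) z
    have v0 : (G.T a b u).1 a z = ∫ w, G.kT a b z w (u.1 a w) :=
      LO_self a two_lt (G.lkT a b) u (hab z hz).1
    have hae : (fun w => κ5 G a b c z w (u.1 a w)) =ᵐ[volume] fun w =>
        G.kT a b z w (u.1 a w) + pT G a b c z w (u.1 a w) + pT G a c a z w (u.1 a w) := by
      filter_upwards [ae_ne (μ := (volume : Measure C2)) z] with w hw
      rw [κ5_off G (Ne.symm hw)]
      rfl
    have i1 : Integrable fun w => pT G a b c z w (u.1 a w) := p1.1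
    have i2 : Integrable fun w => pT G a c a z w (u.1 a w) := p2.1
    have i01 : Integrable fun w => G.kT a b z w (u.1 a w) + pT G a b c z w (u.1 a w) := i0.add i1
    refine ⟨(i01.add i2).congr hae.symm, ?_⟩
    rw [integral_congr_ae hae, integral_add i01 i2, integral_add i0 i1]
    have v1 : (G.T b c u).1 a z = ∫ w, pT G a b c z w (u.1 a w) := p1.2
    have v2 : (G.T c a u).1 a z = ∫ w, pT G a c a z w (u.1 a w) := p2.2
    rw [← v0, ← v1, ← v2]
    rfl
  have hL : LKer A a 0 fun z w => (((mrho B.sb2 c).comp ((wr1 B b).comp (wr0 B a))).φ a z).comp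
      (κ5 G a b c z w) := by
    simp_rw [phi5_comp]
    exact (sker5 G a b c).lker
  have hop := op_comp_eq_LO (N := N3 A a b c) a (N3_sub_U a b c)
    ((mrho B.sb2 c).comp ((wr1 B b).comp (wr0 B a))) (phi5_off a b c)
    (G.T a b + G.T b c + G.T c a) (κ5 G a b c) zero_lt4 hL
    (fun u z hz => (main u z hz).1) (fun u z hz => (main u z hz).2)
  rw [hop]
  congr 1
  funext z w
  exact phi5_comp a b c z _

end main

end Vale.Agent.P267.H551
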