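import Vale.Agent.P267.H433.Hol

/-! P267 / RRC-GLUE (helper551): transitions which agree on an open set have the same kernel; the
identity has kernel `0`. -/

set_option linter.unusedSectionVars false

open scoped ContDiff Topology ComplexConjugate
open Set Filter MeasureTheory

noncomputable section

namespace Vale.Agent.P267.H551

open Vale.Agent.P267.H433

variable {A : Type} [NormedRing A] [NormedAlgebra ℂ A]

section congr

variable {T T' : Tr A} {O : Set V2} {D : Set VV} (hO : IsOpen O) (hD : StarD D)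
  (hDO : ∀ p ∈ D, p.2 ∈ O) (hf : EqOn T.f T'.f O)
include hO hD hDO hf

theorem tr_congr_M (i k : Fin 2) : EqOn (T.M i k) (T'.M i k) D := by
  have h1 : EqOn (T.fi i) (T'.fi i) D := fun p hp => by
    simp only [Tr.fi, hf (hDO p hp)]
  exact Io_congr hD (fun p hp => dy_congr_of_eqOn hD.isOpen h1 hp k) 0

theorem tr_congr_dM : EqOn T.dM T'.dM D := fun p hp => by
  simp only [Tr.dM, tr_congr_M hO hD hDO hf _ _ hp]

omit hD hDO in
theorem tr_congr_jac : EqOn T.jac T'.jac O := fun y hy => by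
  have h1 : fderiv ℂ T.f y = fderiv ℂ T'.f y :=
    (hf.eventuallyEq_of_mem (hO.mem_nhds hy)).fderiv_eq
  simp only [Tr.jac, Tr.df, h1]

variable (he : EqOn T.e T'.e O) (hei : EqOn T.ei T'.ei O)
include he hei

theorem tr_congr_j : EqOn T.j T'.j D := fun p hp => by
  have h1 : p.1 ∈ O := hDO _ (hD.diag hp)
  have h2 : p.2 ∈ O := hDO _ hp
  simp only [Tr.j, tr_congr_dM hO hD hDO hf hp, tr_congr_jac hO hf h2, he h2, hei h1]

theorem tr_congr_J (k : Fin 2) : EqOn (T.J k) (T'.J k) D :=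
  Io_congr hD (fun _ hp => dy_congr_of_eqOn hD.isOpen (tr_congr_j hO hD hDO hf he hei) hp k) 0

theorem tr_congr_C : EqOn T.C T'.C D := fun p hp => by
  have h1 : p.1 ∈ O := hDO _ (hD.diag hp)
  have h2 : p.2 ∈ O := hDO _ hp
  simp only [Tr.C, Tr.b, tr_congr_M hO hD hDO hf _ _ hp, tr_congr_J hO hD hDO hf he hei _ hp,
    hf h1, hf h2]

end congr

/-- the identity -/
def idTr (A : Type) [NormedRing A] [NormedAlgebra ℂ A] : Tr A := ⟨id, fun _ => 1, fun _ => 1⟩

theorem idTr_M (i k : Fin 2) (p : VV) : (idTr A).M i k p = ee k i := by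
  have h1 : ∀ q : VV, dy k ((idTr A).fi i) q = ee k i := by
    intro q
    have h2 : HasFDerivAt ((idTr A).fi i)
        ((ContinuousLinearMap.proj (R := ℂ) (φ := fun _ : Fin 2 => ℂ) i).comp
          (ContinuousLinearMap.snd ℂ V2 V2)) q :=
      ((ContinuousLinearMap.proj (R := ℂ) (φ := fun _ : Fin 2 => ℂ) i).comp
          (ContinuousLinearMap.snd ℂ V2 V2)).hasFDerivAt
    rw [dy, h2.fderiv]
    simp
  simp only [Tr.M, Io, h1]
  simp

theorem idTr_dM (p : VV) : (idTr A).dM p = 1 := by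
  simp [Tr.dM, idTr_M]

theorem idTr_jac (y : V2) : (idTr A).jac y = 1 := by
  have h1 : fderiv ℂ (idTr A).f y = ContinuousLinearMap.id ℂ V2 := fderiv_id
  simp [Tr.jac, Tr.df, h1]

theorem idTr_j (p : VV) : (idTr A).j p = 1 := by
  rw [Tr.j, idTr_dM, idTr_jac]
  simp [idTr]

theorem idTr_J (k : Fin 2) (p : VV) : (idTr A).J k p = 0 := by
  have h1 : (idTr A).j = fun _ => 1 := funext idTr_j
  have h2 : ∀ q : VV, dy k (fun _ : VV => (1 : A)) q = 0 := fun q => by simp [dy]
  simp only [Tr.J, Io, h1, h2]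
  simp

theorem idTr_b (k : Fin 2) (p : VV) : (idTr A).b k p = uu (p.2 - p.1) k := by
  simp only [Tr.b, idTr_M]
  fin_cases k <;> simp [idTr]

theorem idTr_C (p : VV) : (idTr A).C p = 0 := by
  rw [Tr.C, idTr_b, idTr_b, idTr_J, idTr_J, add_zero, add_zero, smul_smul, smul_smul, mul_comm,
    sub_self]

end Vale.Agent.P267.H551
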