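import Vale.Agent.P267.H551.Pull
import Vale.Agent.P267.H551.TrCong
import Vale.Agent.P267.H551.K012

/-! P267 / RRC-GLUE (helper551): preparations for `K5`: the coefficient, the transported kernels off
the diagonal and near the diagonal. -/

set_option linter.unusedSectionVars false

open scoped Manifold ContDiff ComplexConjugate Matrix
open MeasureTheory Set Filter Topology Metric

noncomputable section

namespace Vale.Agent.P267.H551

open Vale.Agent.P267.FL Vale.Agent.P267.RR Vale.Agent.P267.H462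
open Vale.Agent.P267.H667 (IsCutoff kc cst)
open Vale.Agent.P267.H433 (Tr dbv ee VV V2)

variable {X : Type*} [TopologicalSpace X] [ChartedSpace C2 X] {A : FinAt X}
  {r : ℕ} {B : Bun A r} (G : Gl B)

/-! #### the coefficient -/

/-- the triple intersection of supports -/
def N3 (A : FinAt X) (a b c : Fin A.N) : Set X := sp A a ∩ sp A b ∩ sp A c

theorem N3_sub_U (a b c : Fin A.N) : N3 A a b c ⊆ A.U a := fun _ h => A.rho_supp a h.1.1

theorem cf_zero {a b c : Fin A.N} {z : C2} (hz : z ∉ im A a (N3 A a b c)) : cf A a b c z = 0 := by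
  by_cases hzO : z ∈ A.O a
  · have h1 : (A.e a).symm z ∉ N3 A a b c := fun h => hz ((mem_im_iff (N3_sub_U a b c)).2 ⟨hzO, h⟩)
    unfold cf
    by_cases h2 : (A.e a).symm z ∈ sp A a
    · by_cases h3 : (A.e a).symm z ∈ sp A b
      · have h4 : (A.e a).symm z ∉ sp A c := fun h4 => h1 ⟨⟨h2, h3⟩, h4⟩
        rw [rc_zero hzO h4, zero_mul]
      · rw [dr_zero hzO h3, dr_zero hzO h3]
        ring
    · rw [dr_zero hzO h2, dr_zero hzO h2]
      ring
  · rw [cf, rc_off hzO, zero_mul]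

section comp

variable [T2Space X] [CompactSpace X]

theorem isCompact_N3 (a b c : Fin A.N) : IsCompact (N3 A a b c) :=
  (((isClosed_tsupport _).inter (isClosed_tsupport _)).inter (isClosed_tsupport _)).isCompact

theorem isCompact_imN3 (a b c : Fin A.N) : IsCompact (im A a (N3 A a b c)) :=
  isCompact_im (isCompact_N3 a b c) (N3_sub_U a b c)

theorem cf_smooth (a b c : Fin A.N) : ContDiff ℝ ∞ (cf A a b c) := by
  refine contDiff_of_supp (A.isOpen_O a) (isCompact_imN3 a b c).isClosed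
    (im_sub (N3_sub_U a b c)) ?_ fun x hx => cf_zero hx
  exact (rc_smooth c a).mul (((dr_smooth b a 0).mul (dr_smooth a a 1)).sub
    ((dr_smooth b a 1).mul (dr_smooth a a 0)))

end comp

theorem mem_ov_of_N3 {a b c : Fin A.N} {z : C2} (hz : z ∈ im A a (N3 A a b c)) :
    z ∈ A.ov a b ∧ z ∈ A.ov a c := by
  obtain ⟨h1, h2⟩ := (mem_im_iff (N3_sub_U a b c)).1 hz
  exact ⟨⟨h1, A.rho_supp b h2.1.2⟩, ⟨h1, A.rho_supp c h2.2⟩⟩

theorem tau_im {a b : Fin A.N} {N : Set X} (hN : N ⊆ A.U a) {z : C2}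
    (hz : z ∈ im A a N) : A.tau a b z ∈ im A b N := by
  obtain ⟨x, hx, rfl⟩ := hz
  refine ⟨x, hx, ?_⟩
  rw [FinAt.tau, (A.e a).left_inv (A.U_sub a (hN hx))]

theorem phi5 [IsManifold 𝓘(ℂ, C2) ω X] (a b c : Fin A.N) (z : C2) (v : Fin r → ℂ) :
    ((mrho B.sb2 c).comp ((wr1 B b).comp (wr0 B a))).φ a z v = cf A a b c z • v := by
  change rc A c a z • (dr A b a z 0 • (dr A a a z 1 • v) - dr A b a z 1 • (dr A a a z 0 • v)) = _
  rw [cf]
  module

/-! #### the kernels `kT` off the diagonal -/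

theorem kT_eq (a b : Fin A.N) (x y : C2) :
    G.kT a b x y = (-(cst : ℂ)) • (G.θ a b (x, y) • (H462.TT B a b).C (x, y)) := rfl

theorem sz0 (c : ℂ) : c • (0 : EA r) = 0 := ContinuousLinearMap.ext fun v => by
  rw [smul_apply, zero_apply, smul_zero]

theorem zz0 (c : ℂ) (T : EA r) : c • ((0 : ℝ) • T) = 0 := by
  have h : (0 : ℝ) • T = 0 := zero_smul ℝ T
  rw [h]
  exact sz0 c

theorem kT_smoothAt (a b : Fin A.N) {p : VV} (hne : p.1 ≠ p.2) :
    ContDiffAt ℝ ∞ (fun p : VV => G.kT a b p.1 p.2) p := by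
  by_cases hp : p ∈ tsupport (G.θ a b)
  · have h1 := (kerOn_C (G.D_on a b)).contDiffOn
    have hop : IsOpen {p : VV | p ∈ G.D a b ∧ p.1 ≠ p.2} :=
      (G.D_on a b).oD.inter (isOpen_ne_fun continuous_fst continuous_snd)
    have h2 := (G.θ_smooth a b).contDiffAt.smul
      (h1.contDiffAt (hop.mem_nhds ⟨G.θ_supp a b hp, hne⟩))
    exact (contDiff_const (c := (-(cst : ℂ)))).contDiffAt.smul h2
  · have h4 : (fun p : VV => G.kT a b p.1 p.2) =ᶠ[𝓝 p] fun _ => 0 := by
      filter_upwards [(isClosed_tsupport (G.θ a b)).isOpen_compl.mem_nhds hp] with w hw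
      rw [kT_eq, Prod.mk.eta, image_eq_zero_of_notMem_tsupport hw]
      exact zz0 _ _
    exact (contDiffAt_const (c := (0 : EA r))).congr_of_eventuallyEq h4

theorem kT_ne {a b : Fin A.N} {x y : C2} (h : G.kT a b x y ≠ 0) : (x, y) ∈ tsupport (G.θ a b) := by
  by_contra h1
  apply h
  rw [kT_eq, image_eq_zero_of_notMem_tsupport h1]
  exact zz0 _ _

/-! #### the transported kernels -/

section pull

variable [T2Space X] [IsManifold 𝓘(ℂ, C2) ω X]

/-- the kernel of `T b d` in the chart `a` -/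
def pT (a b d : Fin A.N) : C2 → C2 → EA r := pullk B.sb2 B.sb0 a b (G.kT b d)

theorem tau_injOn (a b : Fin A.N) {z w : C2} (hz : z ∈ A.ov a b) (hw : w ∈ A.ov a b)
    (h : A.tau a b z = A.tau a b w) : z = w := by
  rw [← FinAt.tau_tau hz, h, FinAt.tau_tau hw]

theorem pT_smoothAt (a b d : Fin A.N) {z w : C2} (hz : z ∈ A.ov a b) (hw : w ∈ A.ov a b)
    (hne : z ≠ w) : ContDiffAt ℝ ∞ (fun p : VV => pT G a b d p.1 p.2) (z, w) := by
  have h1 : (fun p : VV => pT G a b d p.1 p.2) =ᶠ[𝓝 (z, w)] fun p =>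
      ((‖(A.J a b p.2).det‖ ^ 2 : ℝ) : ℂ) • (B.sb0.T b a (A.tau a b p.1)).comp
        ((G.kT b d (A.tau a b p.1) (A.tau a b p.2)).comp (B.sb2.T a b p.2)) := by
    filter_upwards [(isOpen_univ.prod (A.isOpen_ov a b)).mem_nhds ⟨mem_univ _, hw⟩] with p hp
    exact pullk_of_mem hp.2
  refine ContDiffAt.congr_of_eventuallyEq ?_ h1
  have f1 : ContDiffAt ℝ ∞ (fun p : VV => p.1) (z, w) := contDiffAt_fst
  have f2 : ContDiffAt ℝ ∞ (fun p : VV => p.2) (z, w) := contDiffAt_snd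
  have t1 : ContDiffAt ℝ ∞ (fun p : VV => A.tau a b p.1) (z, w) :=
    ContDiffAt.comp (g := A.tau a b) (f := fun p : VV => p.1) (z, w) (tau_contDiffAt_real hz) f1
  have t2 : ContDiffAt ℝ ∞ (fun p : VV => A.tau a b p.2) (z, w) :=
    ContDiffAt.comp (g := A.tau a b) (f := fun p : VV => p.2) (z, w) (tau_contDiffAt_real hw) f2
  have s1 : ContDiffAt ℝ ∞ (fun p : VV => B.sb0.T b a (A.tau a b p.1)) (z, w) :=
    ((sb_contDiffOn B.sb0 b a).contDiffAt
      ((A.isOpen_ov b a).mem_nhds (FinAt.tau_mem hz))).comp (z, w) t1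
  have s2 : ContDiffAt ℝ ∞ (fun p : VV => B.sb2.T a b p.2) (z, w) :=
    ((sb_contDiffOn B.sb2 a b).contDiffAt ((A.isOpen_ov a b).mem_nhds hw)).comp (z, w) f2
  have s3 : ContDiffAt ℝ ∞ (fun p : VV => G.kT b d (A.tau a b p.1) (A.tau a b p.2)) (z, w) :=
    ContDiffAt.comp (g := fun p : VV => G.kT b d p.1 p.2)
      (f := fun p : VV => (A.tau a b p.1, A.tau a b p.2)) (z, w)
      (kT_smoothAt G b d fun h => hne (tau_injOn a b hz hw h)) (t1.prodMk t2)
  have j1 : ∀ p i : Fin 2, ContDiffAt ℝ ∞ (fun q : VV => A.J a b q.2 p i) (z, w) :=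
    fun p i => ContDiffAt.comp (g := fun y : C2 => A.J a b y p i)
      (f := fun p : VV => p.2) (z, w)
      (((FinAt.J_analyticAt hw p i).contDiffAt (n := ∞)).restrict_scalars ℝ) f2
  have j2 : ContDiffAt ℝ ∞ (fun q : VV => (A.J a b q.2).det) (z, w) := by
    simp only [Matrix.det_fin_two]
    exact ((j1 0 0).mul (j1 1 1)).sub ((j1 0 1).mul (j1 1 0))
  have j3 : ContDiffAt ℝ ∞ (fun q : VV => ((‖(A.J a b q.2).det‖ ^ 2 : ℝ) : ℂ)) (z, w) :=
    Complex.ofRealCLM.contDiff.contDiffAt.comp (z, w) (j2.norm_sq ℝ)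
  exact j3.smul (contDiff_comp_clm.contDiffAt.comp (z, w)
    (s1.prodMk (contDiff_comp_clm.contDiffAt.comp (z, w) (s3.prodMk s2))))

/-- the compact set which contains the support of the transported kernel over `Nc` -/
def sT (a b : Fin A.N) (Nc : Set C2) : Set VV :=
  (fun q : VV => (q.1, A.tau b a (A.tau a b q.1 + q.2))) '' (Nc ×ˢ closedBall (0 : C2) G.ε)

theorem add_mem {a b : Fin A.N} {Nc : Set C2}
    (h2 : ∀ z ∈ Nc, closedBall (A.tau a b z) G.ε ⊆ A.ov b a) {q : VV}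
    (hq : q ∈ Nc ×ˢ closedBall (0 : C2) G.ε) : A.tau a b q.1 + q.2 ∈ A.ov b a := by
  apply h2 q.1 hq.1
  have h3 : q.2 ∈ closedBall (0 : C2) G.ε := hq.2
  rw [mem_closedBall_zero_iff] at h3
  rw [mem_closedBall, dist_eq_norm]
  simpa using h3

theorem isCompact_sT {a b : Fin A.N} {Nc : Set C2} (hNc : IsCompact Nc) (h1 : Nc ⊆ A.ov a b)
    (h2 : ∀ z ∈ Nc, closedBall (A.tau a b z) G.ε ⊆ A.ov b a) : IsCompact (sT G a b Nc) := by
  refine (hNc.prod (isCompact_closedBall 0 G.ε)).image_of_continuousOn ?_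
  have h3 : ContinuousOn (fun q : VV => A.tau a b q.1 + q.2) (Nc ×ˢ closedBall (0 : C2) G.ε) := by
    refine ContinuousOn.add ?_ continuous_snd.continuousOn
    exact (tau_continuousOn a b).comp continuous_fst.continuousOn fun q hq => h1 hq.1
  exact continuous_fst.continuousOn.prodMk
    ((tau_continuousOn b a).comp h3 fun q hq => add_mem G h2 hq)

theorem sT_sub {a b : Fin A.N} {Nc : Set C2} (h1 : Nc ⊆ A.ov a b)
    (h2 : ∀ z ∈ Nc, closedBall (A.tau a b z) G.ε ⊆ A.ov b a) :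
    sT G a b Nc ⊆ A.ov a b ×ˢ A.ov a b := by
  rintro _ ⟨q, hq, rfl⟩
  exact ⟨h1 hq.1, FinAt.tau_mem (add_mem G h2 hq)⟩

theorem pT_ne {a b d : Fin A.N} {Nc : Set C2} {z w : C2} (hz : z ∈ Nc)
    (h : pT G a b d z w ≠ 0) : (z, w) ∈ sT G a b Nc := by
  obtain ⟨hw, hk⟩ := pullk_ne h
  have h3 := G.θ_near b d _ (kT_ne G hk)
  refine ⟨(z, A.tau a b w - A.tau a b z), ⟨hz, ?_⟩, ?_⟩
  · change A.tau a b w - A.tau a b z ∈ closedBall (0 : C2) G.ε
    rw [mem_closedBall_zero_iff]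
    rw [mem_closedBall, dist_eq_norm] at h3
    exact h3
  · simp only [add_sub_cancel]
    rw [FinAt.tau_tau hw]

/-- the transported kernel times a smooth function supported in `Nc`, off the diagonal -/
theorem cpT_smoothAt {a b : Fin A.N} (d : Fin A.N) {Nc : Set C2} (hNc : IsCompact Nc)
    (h1 : Nc ⊆ A.ov a b) (h2 : ∀ z ∈ Nc, closedBall (A.tau a b z) G.ε ⊆ A.ov b a)
    {c : C2 → ℂ} (hc : ContDiff ℝ ∞ c) (hc0 : ∀ z ∉ Nc, c z = 0) {z w : C2} (hz : z ∈ Nc)
    (hne : z ≠ w) : ContDiffAt ℝ ∞ (fun p : VV => c p.1 • pT G a b d p.1 p.2) (z, w) := by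
  by_cases hw : w ∈ A.ov a b
  · have hc' : ContDiffAt ℝ ∞ (fun p : VV => c p.1) (z, w) := (hc.comp contDiff_fst).contDiffAt
    exact hc'.smul (pT_smoothAt G a b d (h1 hz) hw hne)
  · have h3 : (z, w) ∉ sT G a b Nc := fun h => hw (sT_sub G h1 h2 h).2
    have h4 : (fun p : VV => c p.1 • pT G a b d p.1 p.2) =ᶠ[𝓝 (z, w)] fun _ => 0 := by
      filter_upwards [(isCompact_sT G hNc h1 h2).isClosed.isOpen_compl.mem_nhds h3] with p hp
      by_cases hp1 : p.1 ∈ Nc
      · have : pT G a b d p.1 p.2 = 0 := by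
          by_contra hne
          exact hp (pT_ne G hp1 hne)
        rw [this]
        exact sz0 (c p.1)
      · rw [hc0 _ hp1]
        exact zero_smul ℂ (pT G a b d p.1 p.2)
    exact (contDiffAt_const (c := (0 : EA r))).congr_of_eventuallyEq h4

/-- the jacobian -/
theorem jac_TT (B : Bun A r) {a b : Fin A.N} {w : C2} (hw : w ∈ A.ov a b) :
    (H462.TT B a b).jac w = (A.J a b w).det := by
  have h1 : ∀ i k : Fin 2, (H462.TT B a b).df i k w = A.J a b w i k := by
    intro i k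
    have h2 := jacM_mulVec (A.he a) (A.he b) (FinAt.symm_mem_source hw.1)
      (FinAt.symm_mem_source' hw) (ee k)
    rw [(A.e a).right_inv hw.1.1] at h2
    change fderiv ℂ (A.tau a b) w (ee k) i = _
    have h3 : fderiv ℂ (A.tau a b) w (ee k) = (A.J a b w).mulVec (ee k) := h2.symm
    rw [h3, ee, Matrix.mulVec_single_one]
    rfl
  rw [Matrix.det_fin_two, Tr.jac, h1, h1, h1, h1]

/-- the transported kernel in terms of transitions -/
theorem pT_of_mem {a b d : Fin A.N} {z w : C2} (hw : w ∈ A.ov a b) :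
    pT G a b d z w = (-(cst : ℂ)) • (G.θ b d ((H462.TT B a b).Ph (z, w)) • ((H462.TT B a b).jac w •
      ((H462.TT B a b).ei z * (H462.TT B b d).C ((H462.TT B a b).Ph (z, w)) * (H462.TT B a b).e w))) := by
  rw [pT, pullk_of_mem hw, jac_TT B hw]
  refine ContinuousLinearMap.ext fun v => ?_
  have h1 : ((‖(A.J a b w).det‖ ^ 2 : ℝ) : ℂ) * (Bun.Cm A a b w).det = (A.J a b w).det := by
    have h2 := Bun.det_Cm hw
    have h3 : ((‖(A.J a b w).det‖ ^ 2 : ℝ) : ℂ) = (A.J a b w).det * conj (A.J a b w).det := by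
      rw [Complex.mul_conj, Complex.normSq_eq_norm_sq]
    rw [h3]
    calc (A.J a b w).det * conj (A.J a b w).det * (Bun.Cm A a b w).det
        = (A.J a b w).det * ((Bun.Cm A a b w).det * conj (A.J a b w).det) := by ring
      _ = _ := by rw [h2, mul_one]
  change ((‖(A.J a b w).det‖ ^ 2 : ℝ) : ℂ) • (mL (B.E b a (A.tau a b z)))
    (((-(cst : ℂ)) • (G.θ b d (A.tau a b z, A.tau a b w) • (H462.TT B b d).C (A.tau a b z, A.tau a b w)))
      ((Bun.Cm A a b w).det • (mL (B.E a b w)) v)) =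
    (-(cst : ℂ)) • (G.θ b d (A.tau a b z, A.tau a b w) • ((A.J a b w).det •
      (mL (B.E b a (A.tau a b z))) ((H462.TT B b d).C (A.tau a b z, A.tau a b w)
        ((mL (B.E a b w)) v))))
  conv_rhs => rw [← h1]
  simp only [smul_apply, map_smul, ← Complex.coe_smul, smul_smul]
  congr 1
  ring

end pull

end Vale.Agent.P267.H551
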