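import Vale.Agent.P267.H462.LO

/-! P267 / RRC-GLUE (O3) (helper551): sup-norm bounds of the local operators. -/

set_option linter.unusedSectionVars false

open scoped Manifold ContDiff ComplexConjugate Matrix
open MeasureTheory Set Filter Topology

noncomputable section

namespace Vale.Agent.P267.H551

open Vale.Agent.P267.FL Vale.Agent.P267.RR Vale.Agent.P267.H462

theorem exists_uniform {ι : Type*} [Finite ι] {p : ι → ℝ → Prop}
    (mono : ∀ i c c', c ≤ c' → p i c → p i c') (h : ∀ i, ∃ c, p i c) :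
    ∃ c, 0 ≤ c ∧ ∀ i, p i c := by
  cases nonempty_fintype ι
  choose c hc using h
  refine ⟨∑ i, max (c i) 0, Finset.sum_nonneg fun i _ => le_max_right _ _, fun i => ?_⟩
  refine mono i (c i) _ ((le_max_left (c i) 0).trans ?_) (hc i)
  exact Finset.single_le_sum (f := fun i => max (c i) 0) (fun j _ => le_max_right _ _)
    (Finset.mem_univ i)

variable {X : Type*} [TopologicalSpace X] [ChartedSpace C2 X] {A : FinAt X}
  {V : Type} [NormedAddCommGroup V] [NormedSpace ℂ V]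
  {W : Type} [NormedAddCommGroup W] [NormedSpace ℂ W]
  {Z : Type} [NormedAddCommGroup Z] [NormedSpace ℂ Z]
  {S : SB A V} {S' : SB A W} {S'' : SB A Z}

/-- operators bounded in the sup norm over the sets `K a` -/
def SBd (P : S.Sec →ₗ[ℂ] S'.Sec) : Prop :=
  ∃ C : ℝ, 0 ≤ C ∧ ∀ (u : S.Sec) (M : ℝ), (∀ b, ∀ w ∈ A.K b, ‖u.1 b w‖ ≤ M) →
    ∀ a, ∀ z ∈ A.K a, ‖(P u).1 a z‖ ≤ C * M

theorem SBd.add {P Q : S.Sec →ₗ[ℂ] S'.Sec} (hP : SBd P) (hQ : SBd Q) : SBd (P + Q) := by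
  obtain ⟨C, hC0, hC⟩ := hP
  obtain ⟨D, hD0, hD⟩ := hQ
  refine ⟨C + D, by positivity, fun u M hM a z hz => ?_⟩
  change ‖(P u).1 a z + (Q u).1 a z‖ ≤ _
  rw [add_mul]
  exact (norm_add_le _ _).trans (add_le_add (hC u M hM a z hz) (hD u M hM a z hz))

theorem SBd.neg {P : S.Sec →ₗ[ℂ] S'.Sec} (hP : SBd P) : SBd (-P) := by
  obtain ⟨C, hC0, hC⟩ := hP
  refine ⟨C, hC0, fun u M hM a z hz => ?_⟩
  change ‖-((P u).1 a z)‖ ≤ _
  rw [norm_neg]
  exact hC u M hM a z hz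

theorem SBd.sub {P Q : S.Sec →ₗ[ℂ] S'.Sec} (hP : SBd P) (hQ : SBd Q) : SBd (P - Q) := by
  obtain ⟨C, hC0, hC⟩ := hP
  obtain ⟨D, hD0, hD⟩ := hQ
  refine ⟨C + D, by positivity, fun u M hM a z hz => ?_⟩
  change ‖(P u).1 a z - (Q u).1 a z‖ ≤ _
  rw [add_mul]
  exact (norm_sub_le _ _).trans (add_le_add (hC u M hM a z hz) (hD u M hM a z hz))

theorem SBd.zero : SBd (0 : S.Sec →ₗ[ℂ] S'.Sec) := by
  refine ⟨0, le_rfl, fun u M hM a z hz => ?_⟩
  change ‖(0 : W)‖ ≤ _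
  simp

theorem SBd.smul {P : S.Sec →ₗ[ℂ] S'.Sec} (hP : SBd P) (c : ℂ) : SBd (c • P) := by
  obtain ⟨C, hC0, hC⟩ := hP
  refine ⟨‖c‖ * C, by positivity, fun u M hM a z hz => ?_⟩
  change ‖c • (P u).1 a z‖ ≤ _
  rw [norm_smul, mul_assoc]
  exact mul_le_mul_of_nonneg_left (hC u M hM a z hz) (norm_nonneg _)

theorem SBd.sum {ι : Type*} {t : Finset ι} {P : ι → S.Sec →ₗ[ℂ] S'.Sec}
    (h : ∀ i ∈ t, SBd (P i)) : SBd (∑ i ∈ t, P i) := by
  classical
  induction t using Finset.induction_on with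
  | empty => simpa using SBd.zero
  | insert i t hi ih =>
    rw [Finset.sum_insert hi]
    exact (h i (Finset.mem_insert_self i t)).add (ih fun j hj => h j (Finset.mem_insert_of_mem hj))

theorem SBd.comp {Q : S'.Sec →ₗ[ℂ] S''.Sec} {P : S.Sec →ₗ[ℂ] S'.Sec} (hQ : SBd Q) (hP : SBd P) :
    SBd (Q.comp P) := by
  obtain ⟨C, hC0, hC⟩ := hP
  obtain ⟨D, hD0, hD⟩ := hQ
  refine ⟨D * C, by positivity, fun u M hM a z hz => ?_⟩
  rw [mul_assoc]
  exact hD (P u) (C * M) (fun b w hw => hC u M hM b w hw) a z hz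

/-- bundle maps are bounded -/
theorem SBd_op [CompactSpace X] [FiniteDimensional ℂ V] (Φ : BM S S') : SBd Φ.op := by
  have h1 : ∀ a, ∃ C : ℝ, ∀ z ∈ A.K a, ‖Φ.φ a z‖ ≤ C := fun a =>
    (isCompact_K a).exists_bound_of_continuousOn ((Φ.smooth a).continuousOn.mono (K_sub a))
  obtain ⟨C, hC0, hC⟩ := exists_uniform (p := fun a C => ∀ z ∈ A.K a, ‖Φ.φ a z‖ ≤ C)
    (fun a c c' hc h z hz => (h z hz).trans hc) h1
  refine ⟨C, hC0, fun u M hM a z hz => ?_⟩
  rw [BM.op_apply]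
  refine ((Φ.φ a z).le_opNorm _).trans ?_
  exact mul_le_mul (hC a z hz) (hM a z hz) (norm_nonneg _) hC0

/-! ### comparison of charts over a compact set -/

section cmp

variable [IsManifold 𝓘(ℂ, C2) ω X]

theorem isCompact_part {c : Fin A.N} {L : Set C2} (hL : IsCompact L) (hLO : L ⊆ A.O c)
    (b : Fin A.N) : IsCompact (L ∩ (A.e c).symm ⁻¹' tsupport (A.rho b)) := by
  have h1 : IsClosed (L ∩ (A.e c).symm ⁻¹' tsupport (A.rho b)) :=
    ((continuousOn_symm c).mono hLO).preimage_isClosed_of_isClosed hL.isClosed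
      (isClosed_tsupport _)
  exact hL.of_isClosed_subset h1 inter_subset_left

theorem part_sub {c : Fin A.N} {L : Set C2} (hLO : L ⊆ A.O c) (b : Fin A.N) :
    L ∩ (A.e c).symm ⁻¹' tsupport (A.rho b) ⊆ A.ov c b :=
  fun _ hw => ⟨hLO hw.1, A.rho_supp b hw.2⟩

theorem exists_T_bound [FiniteDimensional ℂ V] (S : SB A V) {c : Fin A.N} {L : Set C2}
    (hL : IsCompact L) (hLO : L ⊆ A.O c) : ∃ C : ℝ, 0 ≤ C ∧ ∀ b, ∀ w ∈ L,
      (A.e c).symm w ∈ tsupport (A.rho b) → ‖S.T c b w‖ ≤ C := by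
  refine exists_uniform (p := fun b C => ∀ w ∈ L, (A.e c).symm w ∈ tsupport (A.rho b) →
    ‖S.T c b w‖ ≤ C) (fun a c c' hc h w hw hw' => (h w hw hw').trans hc) fun b => ?_
  obtain ⟨C, hC⟩ := (isCompact_part hL hLO b).exists_bound_of_continuousOn
    ((sb_contDiffOn S c b).continuousOn.mono (part_sub hLO b))
  exact ⟨C, fun w hw hw' => hC w ⟨hw, hw'⟩⟩

theorem exists_T_bound' [FiniteDimensional ℂ V] (S : SB A V) {c : Fin A.N} {L : Set C2}
    (hL : IsCompact L) (hLO : L ⊆ A.O c) : ∃ C : ℝ, 0 ≤ C ∧ ∀ b, ∀ w ∈ L,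
      (A.e c).symm w ∈ tsupport (A.rho b) → ‖S.T b c (A.tau c b w)‖ ≤ C := by
  refine exists_uniform (p := fun b C => ∀ w ∈ L, (A.e c).symm w ∈ tsupport (A.rho b) →
    ‖S.T b c (A.tau c b w)‖ ≤ C) (fun a c c' hc h w hw hw' => (h w hw hw').trans hc) fun b => ?_
  have h1 : ContinuousOn (fun w => S.T b c (A.tau c b w)) (A.ov c b) :=
    (sb_contDiffOn S b c).continuousOn.comp (tau_continuousOn c b) fun w hw => FinAt.tau_mem hw
  obtain ⟨C, hC⟩ := (isCompact_part hL hLO b).exists_bound_of_continuousOn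
    (h1.mono (part_sub hLO b))
  exact ⟨C, fun w hw hw' => hC w ⟨hw, hw'⟩⟩

/-- the sup norm over a compact subset of a chart is controlled by the sup norm over the `K b` -/
theorem exists_sec_bound [FiniteDimensional ℂ V] (S : SB A V) {c : Fin A.N} {L : Set C2}
    (hL : IsCompact L) (hLO : L ⊆ A.O c) : ∃ C : ℝ, 0 ≤ C ∧ ∀ (u : S.Sec) (M : ℝ),
      (∀ b, ∀ w ∈ A.K b, ‖u.1 b w‖ ≤ M) → ∀ w ∈ L, ‖u.1 c w‖ ≤ C * M := by
  obtain ⟨C, hC0, hC⟩ := exists_T_bound' S hL hLO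
  refine ⟨C, hC0, fun u M hM w hw => ?_⟩
  obtain ⟨b, hb⟩ := exists_chart A ((A.e c).symm w)
  have hwb : w ∈ A.ov c b := ⟨hLO hw, A.rho_supp b hb⟩
  have h1 : A.tau c b w ∈ A.K b := ⟨(A.e c).symm w, hb, rfl⟩
  have h2 := sec_compat u (FinAt.tau_mem hwb)
  rw [FinAt.tau_tau hwb] at h2
  rw [h2]
  refine ((S.T b c (A.tau c b w)).le_opNorm _).trans ?_
  exact mul_le_mul (hC b w hw hb) (hM b _ h1) (norm_nonneg _) hC0

theorem symm_mem_of_K {a : Fin A.N} {z : C2} (hz : z ∈ A.K a) :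
    (A.e a).symm z ∈ tsupport (A.rho a) := by
  obtain ⟨x, hx, rfl⟩ := hz
  rw [(A.e a).left_inv (A.U_sub a (A.rho_supp a hx))]
  exact hx

/-- **(O3)** local operators are bounded -/
theorem SBd_LO [T2Space X] [FiniteDimensional ℂ V] [FiniteDimensional ℂ W] (S : SB A V)
    (S' : SB A W) (c : Fin A.N) {m : ℕ} (hm : m < 4) {k : C2 → C2 → (V →L[ℂ] W)}
    (h : LKer A c m k) : SBd (LO S S' c hm h) := by
  obtain ⟨L, hL, hLO, hk⟩ := h.supp
  obtain ⟨C1, hC10, hC1⟩ := exists_sec_bound S hL hLO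
  obtain ⟨C2', hC20, hC2⟩ := (h.ker.of_le (N' := 0) (by simp)).norm_Tk_le volume (evB V W)
    (LKer.lt4 hm)
  obtain ⟨C3, hC30, hC3⟩ := exists_T_bound S' hL hLO
  refine ⟨C3 * (C2' * C1), by positivity, fun u M hM a z hz => ?_⟩
  have hM0 : 0 ≤ M := (norm_nonneg _).trans (hM a z hz)
  rw [LO_val]
  by_cases hzc : z ∈ A.ov a c
  · rw [extz_of_mem S' _ hzc]
    by_cases hzL : A.tau a c z ∈ L
    · have h1 : ‖IK k (u.1 c) (A.tau a c z)‖ ≤ C2' * (C1 * M) := by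
        have h2 : IK k (u.1 c) (A.tau a c z) = IK k (L.indicator (u.1 c)) (A.tau a c z) :=
          IK_congr (fun y hy => (hk _ y hy).2) fun y hy => (indicator_of_mem hy _).symm
        rw [h2, IK_eq]
        refine hC2 _ (C1 * M) (fun y => ?_) _
        by_cases hy : y ∈ L
        · rw [indicator_of_mem hy]
          exact hC1 u M hM y hy
        · rw [indicator_of_notMem hy, norm_zero]
          positivity
      have h3 : (A.e c).symm (A.tau a c z) ∈ tsupport (A.rho a) := by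
        rw [FinAt.symm_tau hzc]
        exact symm_mem_of_K hz
      refine ((S'.T c a (A.tau a c z)).le_opNorm _).trans ?_
      calc ‖S'.T c a (A.tau a c z)‖ * ‖IK k (u.1 c) (A.tau a c z)‖ ≤ C3 * (C2' * (C1 * M)) :=
            mul_le_mul (hC3 a _ hzL h3) h1 (norm_nonneg _) hC30
        _ = _ := by ring
    · have h1 : ∀ y, k (A.tau a c z) y = 0 := by
        intro y
        by_contra hy
        exact hzL (hk _ y hy).1
      have h2 : IK k (u.1 c) (A.tau a c z) = 0 := by simp [IK, h1]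
      rw [h2, map_zero, norm_zero]
      positivity
  · rw [extz_of_notMem S' _ hzc, norm_zero]
    positivity

end cmp

end Vale.Agent.P267.H551
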