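import Mathlib

/-! P267 / RRC-T (helper551): functions `g q s` polyhomogeneous of order `a` at `s = 0`
(`r ^ a • g q (r • s)` extends smoothly to `r = 0`), and smoothness of `∫ g q s ds`, `a < n`. -/

set_option linter.unusedSectionVars false

open scoped ContDiff Topology
open MeasureTheory Metric Set Filter

namespace Vale.Agent.P267.H551

noncomputable section

universe u

section defs

variable {Q : Type u} [NormedAddCommGroup Q] [NormedSpace ℝ Q]
  {E : Type u} [NormedAddCommGroup E] [NormedSpace ℝ E]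
  {G : Type u} [NormedAddCommGroup G] [NormedSpace ℝ G]

/-- the domain of the profiles -/
def Dom (Q E : Type*) [Zero E] : Set (Q × E × ℝ) := {z | z.2.1 ≠ 0}

theorem isOpen_Dom : IsOpen (Dom Q E) := by
  have : Continuous fun z : Q × E × ℝ => z.2.1 := by fun_prop
  exact isOpen_ne.preimage this

/-- `g` is polyhomogeneous of order `a` (and class `C^N`) at `s = 0`. -/
def PH (N : WithTop ℕ∞) (a : ℕ) (g : Q → E → G) : Prop :=
  ∃ Φ : Q × E × ℝ → G, ContDiffOn ℝ N Φ (Dom Q E) ∧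
    ∀ q s r, s ≠ 0 → 0 < r → g q (r • s) = ((r : ℝ) ^ a)⁻¹ • Φ (q, s, r)

theorem PH.of_le {N N' : WithTop ℕ∞} {a : ℕ} {g : Q → E → G} (h : PH N a g) (hN : N' ≤ N) :
    PH N' a g := by
  obtain ⟨Φ, h1, h2⟩ := h
  exact ⟨Φ, h1.of_le hN, h2⟩

theorem PH.eq_one {N : WithTop ℕ∞} {a : ℕ} {g : Q → E → G} {Φ : Q × E × ℝ → G}
    (h2 : ∀ q s r, s ≠ 0 → 0 < r → g q (r • s) = ((r : ℝ) ^ a)⁻¹ • Φ (q, s, r)) {q : Q} {s : E}
    (hs : s ≠ 0) : g q s = Φ (q, s, 1) := by
  have := h2 q s 1 hs one_pos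
  simpa using this

theorem PH.contDiffOn {N : WithTop ℕ∞} {a : ℕ} {g : Q → E → G} (h : PH N a g) :
    ContDiffOn ℝ N (fun p : Q × E => g p.1 p.2) {p | p.2 ≠ 0} := by
  obtain ⟨Φ, h1, h2⟩ := h
  have h3 : ContDiffOn ℝ N (fun p : Q × E => Φ (p.1, p.2, 1)) {p | p.2 ≠ 0} := by
    refine h1.comp (f := fun p : Q × E => (p.1, p.2, (1 : ℝ))) ?_ (fun p hp => hp)
    fun_prop
  refine h3.congr fun p hp => ?_
  exact PH.eq_one (N := N) h2 hp

theorem PH.continuousOn_right {N : WithTop ℕ∞} {a : ℕ} {g : Q → E → G} (h : PH N a g) (q : Q) :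
    ContinuousOn (g q) {s | s ≠ 0} := by
  refine h.contDiffOn.continuousOn.comp (f := fun s : E => (q, s)) ?_ (fun s hs => hs)
  fun_prop

theorem PH.raise {N : WithTop ℕ∞} {a : ℕ} {g : Q → E → G} (h : PH N a g) : PH N (a + 1) g := by
  obtain ⟨Φ, h1, h2⟩ := h
  refine ⟨fun z => z.2.2 • Φ z, ?_, fun q s r hs hr => ?_⟩
  · refine ContDiffOn.smul ?_ h1
    fun_prop
  · dsimp only
    rw [h2 q s r hs hr, smul_smul, pow_succ]
    congr 1
    field_simp

theorem PH.raise_le {N : WithTop ℕ∞} {a b : ℕ} {g : Q → E → G} (h : PH N a g) (hab : a ≤ b) :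
    PH N b g := by
  induction b, hab using Nat.le_induction with
  | base => exact h
  | succ n _ ih => exact ih.raise

theorem PH.add {N : WithTop ℕ∞} {a : ℕ} {g g' : Q → E → G} (h : PH N a g) (h' : PH N a g') :
    PH N a fun q s => g q s + g' q s := by
  obtain ⟨Φ, h1, h2⟩ := h
  obtain ⟨Φ', h1', h2'⟩ := h'
  refine ⟨fun z => Φ z + Φ' z, h1.add h1', fun q s r hs hr => ?_⟩
  dsimp only
  rw [h2 q s r hs hr, h2' q s r hs hr, smul_add]

theorem PH.neg {N : WithTop ℕ∞} {a : ℕ} {g : Q → E → G} (h : PH N a g) :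
    PH N a fun q s => -g q s := by
  obtain ⟨Φ, h1, h2⟩ := h
  refine ⟨fun z => -Φ z, h1.neg, fun q s r hs hr => ?_⟩
  dsimp only
  rw [h2 q s r hs hr, smul_neg]

theorem PH.sub {N : WithTop ℕ∞} {a : ℕ} {g g' : Q → E → G} (h : PH N a g) (h' : PH N a g') :
    PH N a fun q s => g q s - g' q s := by
  simpa [sub_eq_add_neg] using h.add h'.neg

theorem PH.const_smul {N : WithTop ℕ∞} {a : ℕ} {g : Q → E → G} (h : PH N a g) {R : Type*}
    [Semiring R] [Module R G] [SMulCommClass ℝ R G] [ContinuousConstSMul R G] (c : R) :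
    PH N a fun q s => c • g q s := by
  obtain ⟨Φ, h1, h2⟩ := h
  refine ⟨fun z => c • Φ z, h1.const_smul c, fun q s r hs hr => ?_⟩
  dsimp only
  haveI : SMulCommClass R ℝ G := SMulCommClass.symm _ _ _
  rw [h2 q s r hs hr, smul_comm]

theorem PH.sum {N : WithTop ℕ∞} {a : ℕ} {ι : Type*} {t : Finset ι} {g : ι → Q → E → G}
    (h : ∀ i ∈ t, PH N a (g i)) : PH N a fun q s => ∑ i ∈ t, g i q s := by
  classical
  induction t using Finset.induction_on with
  | empty => exact ⟨0, contDiffOn_const, fun q s r _ _ => by simp⟩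
  | insert i t hi ih =>
    simp only [Finset.sum_insert hi]
    exact (h i (Finset.mem_insert_self i t)).add (ih fun j hj => h j (Finset.mem_insert_of_mem hj))

variable {G' G'' : Type u} [NormedAddCommGroup G'] [NormedSpace ℝ G'] [NormedAddCommGroup G'']
  [NormedSpace ℝ G'']

theorem PH.bilin {N : WithTop ℕ∞} {a b : ℕ} {g : Q → E → G} {g' : Q → E → G'}
    (B : G →L[ℝ] G' →L[ℝ] G'') (h : PH N a g) (h' : PH N b g') :
    PH N (a + b) fun q s => B (g q s) (g' q s) := by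
  obtain ⟨Φ, h1, h2⟩ := h
  obtain ⟨Φ', h1', h2'⟩ := h'
  refine ⟨fun z => B (Φ z) (Φ' z), ?_, fun q s r hs hr => ?_⟩
  · exact (B.contDiff.comp_contDiffOn h1).clm_apply h1'
  · dsimp only
    rw [h2 q s r hs hr, h2' q s r hs hr]
    simp only [map_smul, smul_apply, smul_smul]
    congr 1
    rw [pow_add, mul_inv]
    ring

theorem PH.clm {N : WithTop ℕ∞} {a : ℕ} {g : Q → E → G} (A : G →L[ℝ] G') (h : PH N a g) :
    PH N a fun q s => A (g q s) := by
  obtain ⟨Φ, h1, h2⟩ := h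
  refine ⟨fun z => A (Φ z), A.contDiff.comp_contDiffOn h1, fun q s r hs hr => ?_⟩
  dsimp only
  rw [h2 q s r hs hr, map_smul]

/-- a smooth function of `(q, s)` has order `0` -/
theorem PH.of_contDiff {N : WithTop ℕ∞} {g : Q → E → G}
    (h : ContDiff ℝ N fun p : Q × E => g p.1 p.2) : PH N 0 g := by
  refine ⟨fun z => g z.1 (z.2.2 • z.2.1), ?_, fun q s r hs hr => by simp⟩
  have : ContDiff ℝ N fun z : Q × E × ℝ => (z.1, z.2.2 • z.2.1) := by fun_prop
  exact (h.comp this).contDiffOn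

/-- change of the parameter -/
theorem PH.comp_left {Q' : Type u} [NormedAddCommGroup Q'] [NormedSpace ℝ Q']
    {N : WithTop ℕ∞} {a : ℕ} {g : Q → E → G}
    (h : PH N a g) {φ : Q' → Q} (hφ : ContDiff ℝ N φ) : PH N a fun q s => g (φ q) s := by
  obtain ⟨Φ, h1, h2⟩ := h
  refine ⟨fun z => Φ (φ z.1, z.2), ?_, fun q s r hs hr => h2 _ s r hs hr⟩
  refine h1.comp (f := fun z : Q' × E × ℝ => (φ z.1, z.2)) ?_ (fun z hz => hz)
  have : ContDiff ℝ N fun z : Q' × E × ℝ => (φ z.1, z.2) := by fun_prop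
  exact this.contDiffOn

/-- partial derivative in the parameter -/
def dq (g : Q → E → G) (q : Q) (s : E) : Q →L[ℝ] G := fderiv ℝ (fun q => g q s) q

theorem differentiableAt_profile_left {Φ : Q × E × ℝ → G} (h1 : ContDiffOn ℝ 1 Φ (Dom Q E))
    {z : Q × E × ℝ} (hz : z.2.1 ≠ 0) :
    HasFDerivAt (fun q => Φ (q, z.2))
      ((fderiv ℝ Φ z).comp (ContinuousLinearMap.inl ℝ Q (E × ℝ))) z.1 := by
  have h2 : DifferentiableAt ℝ Φ z :=
    (h1.differentiableOn one_ne_zero).differentiableAt (isOpen_Dom.mem_nhds hz)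
  have h3 : HasFDerivAt (fun q : Q => (q, z.2)) (ContinuousLinearMap.inl ℝ Q (E × ℝ)) z.1 :=
    hasFDerivAt_prodMk_left z.1 z.2
  exact HasFDerivAt.comp z.1 (f := fun q : Q => (q, z.2)) (g := Φ) h2.hasFDerivAt h3

theorem PH.hasFDerivAt {a : ℕ} {g : Q → E → G} (h : PH 1 a g) {q : Q} {s : E} (hs : s ≠ 0) :
    HasFDerivAt (fun q => g q s) (dq g q s) q := by
  obtain ⟨Φ, h1, h2⟩ := h
  have h3 : (fun q => g q s) = fun q => Φ (q, s, 1) := by
    funext q; exact PH.eq_one (N := 1) h2 hs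
  have h4 : DifferentiableAt ℝ (fun q => g q s) q := by
    rw [h3]
    exact (differentiableAt_profile_left h1 (z := (q, s, 1)) hs).differentiableAt
  exact h4.hasFDerivAt

theorem PH.dq {N : WithTop ℕ∞} {a : ℕ} {g : Q → E → G} (h : PH (N + 1) a g) :
    PH N a (dq g) := by
  obtain ⟨Φ, h1, h2⟩ := h
  have h1' : ContDiffOn ℝ 1 Φ (Dom Q E) := h1.of_le le_add_self
  refine ⟨fun z => (fderiv ℝ Φ z).comp (ContinuousLinearMap.inl ℝ Q (E × ℝ)), ?_, ?_⟩
  · have h3 : ContDiffOn ℝ N (fderiv ℝ Φ) (Dom Q E) := h1.fderiv_of_isOpen isOpen_Dom le_rfl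
    exact h3.clm_comp contDiffOn_const
  · intro q s r hs hr
    have h3 : (fun q => g q (r • s)) = fun q => ((r : ℝ) ^ a)⁻¹ • Φ (q, s, r) := by
      funext q; exact h2 q s r hs hr
    unfold H551.dq
    rw [h3]
    exact ((differentiableAt_profile_left h1' (z := (q, s, r)) hs).const_smul _).fderiv

/-- partial derivative in `s` -/
def ds (g : Q → E → G) (q : Q) (s : E) : E →L[ℝ] G := fderiv ℝ (g q) s

theorem PH.hasFDerivAt_right {a : ℕ} {g : Q → E → G} (h : PH 1 a g) {q : Q} {s : E}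
    (hs : s ≠ 0) : HasFDerivAt (g q) (ds g q s) s := by
  have h1 := h.contDiffOn
  have hop : IsOpen {p : Q × E | p.2 ≠ 0} := isOpen_ne.preimage continuous_snd
  have h2 : DifferentiableAt ℝ (fun p : Q × E => g p.1 p.2) (q, s) :=
    (h1.differentiableOn one_ne_zero).differentiableAt (hop.mem_nhds hs)
  have h3 : DifferentiableAt ℝ (fun s : E => (fun p : Q × E => g p.1 p.2) (q, s)) s := by
    refine DifferentiableAt.comp s (f := fun s : E => (q, s)) (g := fun p : Q × E => g p.1 p.2)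
      h2 ?_
    fun_prop
  exact h3.hasFDerivAt

theorem PH.ds {N : WithTop ℕ∞} {a : ℕ} {g : Q → E → G} (h : PH (N + 1) a g) :
    PH N (a + 1) (ds g) := by
  have hg1 : PH 1 a g := h.of_le le_add_self
  obtain ⟨Φ, h1, h2⟩ := h
  have h1' : ContDiffOn ℝ 1 Φ (Dom Q E) := h1.of_le le_add_self
  refine ⟨fun z => (fderiv ℝ Φ z).comp ((ContinuousLinearMap.inr ℝ Q (E × ℝ)).comp
    (ContinuousLinearMap.inl ℝ E ℝ)), ?_, ?_⟩
  · have h3 : ContDiffOn ℝ N (fderiv ℝ Φ) (Dom Q E) := h1.fderiv_of_isOpen isOpen_Dom le_rfl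
    exact h3.clm_comp contDiffOn_const
  · intro q s r hs hr
    have hrs : r • s ≠ 0 := smul_ne_zero hr.ne' hs
    -- the derivative of `s ↦ g q (r • s)` in two ways
    have e1 : HasFDerivAt (fun s : E => g q (r • s)) ((H551.ds g q (r • s)).comp
        (r • ContinuousLinearMap.id ℝ E)) s := by
      have h4 : HasFDerivAt (fun s : E => r • s) (r • ContinuousLinearMap.id ℝ E) s :=
        (ContinuousLinearMap.hasFDerivAt (r • ContinuousLinearMap.id ℝ E))
      exact HasFDerivAt.comp s (f := fun s : E => r • s) (g := g q)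
        (hg1.hasFDerivAt_right hrs) h4
    have h5 : DifferentiableAt ℝ Φ (q, s, r) :=
      (h1'.differentiableOn one_ne_zero).differentiableAt (isOpen_Dom.mem_nhds hs)
    have h6 : HasFDerivAt (fun s : E => (q, s, r)) ((ContinuousLinearMap.inr ℝ Q (E × ℝ)).comp
        (ContinuousLinearMap.inl ℝ E ℝ)) s := by
      have h7 : HasFDerivAt (fun s : E => (s, r)) (ContinuousLinearMap.inl ℝ E ℝ) s :=
        hasFDerivAt_prodMk_left s r
      have h8 : HasFDerivAt (fun p : E × ℝ => (q, p)) (ContinuousLinearMap.inr ℝ Q (E × ℝ))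
        (s, r) := hasFDerivAt_prodMk_right q (s, r)
      exact HasFDerivAt.comp s (f := fun s : E => (s, r)) (g := fun p : E × ℝ => (q, p)) h8 h7
    have e2 : HasFDerivAt (fun s : E => ((r : ℝ) ^ a)⁻¹ • Φ (q, s, r))
        (((r : ℝ) ^ a)⁻¹ • (fderiv ℝ Φ (q, s, r)).comp ((ContinuousLinearMap.inr ℝ Q (E × ℝ)).comp
        (ContinuousLinearMap.inl ℝ E ℝ))) s :=
      (HasFDerivAt.comp s (f := fun s : E => (q, s, r)) (g := Φ) h5.hasFDerivAt h6).const_smul _
    have e3 : (fun s : E => g q (r • s)) =ᶠ[𝓝 s] fun s : E => ((r : ℝ) ^ a)⁻¹ • Φ (q, s, r) := by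
      filter_upwards [isOpen_ne.mem_nhds hs] with s' hs'
      exact h2 q s' r hs' hr
    have e4 := e1.unique (e2.congr_of_eventuallyEq e3)
    have e5 : (H551.ds g q (r • s)).comp (r • ContinuousLinearMap.id ℝ E) =
        r • H551.ds g q (r • s) := by
      ext v; simp
    rw [e5] at e4
    have e6 : H551.ds g q (r • s) = r⁻¹ • (r • H551.ds g q (r • s)) := by
      rw [smul_smul, inv_mul_cancel₀ hr.ne', one_smul]
    rw [e6, e4, smul_smul, pow_succ]
    congr 1
    field_simp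

/-- the basic bound -/
theorem PH.bound [FiniteDimensional ℝ E] {a : ℕ} {g : Q → E → G} (h : PH 0 a g) {K : Set Q}
    (hK : IsCompact K) (R : ℝ) :
    ∃ C, 0 ≤ C ∧ ∀ q ∈ K, ∀ s, s ≠ 0 → ‖s‖ ≤ R → ‖g q s‖ ≤ C * (‖s‖ ^ a)⁻¹ := by
  obtain ⟨Φ, h1, h2⟩ := h
  have : ProperSpace E := FiniteDimensional.proper_real E
  have hc : IsCompact (K ×ˢ (sphere (0 : E) 1 ×ˢ Icc (0 : ℝ) R)) :=
    hK.prod ((isCompact_sphere 0 1).prod isCompact_Icc)
  have hsub : K ×ˢ (sphere (0 : E) 1 ×ˢ Icc (0 : ℝ) R) ⊆ Dom Q E := by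
    rintro ⟨q, s, r⟩ ⟨_, hs, _⟩
    have : ‖s‖ = 1 := by simpa using hs
    change s ≠ 0
    rw [← norm_ne_zero_iff, this]; exact one_ne_zero
  obtain ⟨C, hC⟩ := hc.exists_bound_of_continuousOn (h1.continuousOn.mono hsub)
  refine ⟨max C 0, le_max_right _ _, fun q hq s hs hsR => ?_⟩
  have hn : 0 < ‖s‖ := norm_pos_iff.2 hs
  have e : s = ‖s‖ • (‖s‖⁻¹ • s) := by rw [smul_smul, mul_inv_cancel₀ hn.ne', one_smul]
  have hs1 : ‖s‖⁻¹ • s ≠ 0 := smul_ne_zero (inv_ne_zero hn.ne') hs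
  have e2 : g q s = (‖s‖ ^ a)⁻¹ • Φ (q, ‖s‖⁻¹ • s, ‖s‖) := by
    conv_lhs => rw [e]
    exact h2 q _ _ hs1 hn
  rw [e2, norm_smul, Real.norm_of_nonneg (by positivity), mul_comm]
  refine mul_le_mul_of_nonneg_right (le_trans (hC _ ⟨hq, ?_, hn.le, hsR⟩) (le_max_left _ _))
    (by positivity)
  simp [norm_smul, hn.ne']

end defs

/-! ### integrals -/

section integral

variable {Q : Type u} [NormedAddCommGroup Q] [NormedSpace ℝ Q]
  {E : Type u} [NormedAddCommGroup E] [NormedSpace ℝ E] [FiniteDimensional ℝ E]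
  [MeasurableSpace E] [BorelSpace E] (μ : Measure E) [μ.IsAddHaarMeasure]
  {G : Type u} [NormedAddCommGroup G] [NormedSpace ℝ G]

theorem integrableOn_inv_pow [Nontrivial E] {a : ℕ} (ha : a < Module.finrank ℝ E) (R : ℝ) :
    IntegrableOn (fun s : E => (‖s‖ ^ a)⁻¹) (closedBall 0 R) μ := by
  have h1 : IntegrableOn (fun s : E => (fun y : ℝ => (y ^ a)⁻¹) ‖s‖) (ball 0 (R + 1)) μ := by
    rw [integrableOn_fun_norm_addHaar μ (f := fun y : ℝ => (y ^ a)⁻¹)]
    have h2 : IntegrableOn (fun y : ℝ => y ^ (Module.finrank ℝ E - 1 - a)) (Ioo 0 (R + 1)) := by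
      have h3 : IntegrableOn (fun y : ℝ => y ^ (Module.finrank ℝ E - 1 - a)) (Icc 0 (R + 1)) :=
        (continuous_pow _).continuousOn.integrableOn_compact isCompact_Icc
      exact h3.mono_set Ioo_subset_Icc_self
    refine h2.congr_fun (fun y hy => ?_) measurableSet_Ioo
    have hy0 : 0 < y := hy.1
    change y ^ (Module.finrank ℝ E - 1 - a) = y ^ (Module.finrank ℝ E - 1) * (y ^ a)⁻¹
    rw [← div_eq_mul_inv, eq_div_iff (pow_ne_zero _ hy0.ne'), ← pow_add]
    congr 1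
    omega
  exact h1.mono_set (closedBall_subset_ball (by linarith))

/-- the dominating function -/
theorem integrable_bound [Nontrivial E] {a : ℕ} (ha : a < Module.finrank ℝ E) (C R : ℝ) :
    Integrable ((closedBall (0 : E) R).indicator fun s => C * (‖s‖ ^ a)⁻¹) μ := by
  have h : IntegrableOn (fun s : E => C * (‖s‖ ^ a)⁻¹) (closedBall 0 R) μ :=
    (integrableOn_inv_pow μ ha R).const_mul C
  exact h.integrable_indicator measurableSet_closedBall

variable {a : ℕ} {g : Q → E → G} {R : ℝ}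

theorem PH.aesm [Nontrivial E] {N : WithTop ℕ∞} (h : PH N a g) (q : Q) :
    AEStronglyMeasurable (g q) μ := by
  have h1 : AEStronglyMeasurable (g q) (μ.restrict {s | s ≠ 0}) :=
    (h.continuousOn_right q).aestronglyMeasurable isOpen_ne.measurableSet
  have h2 : μ.restrict {s : E | s ≠ 0} = μ := by
    have : {s : E | s ≠ 0} = {(0 : E)}ᶜ := rfl
    rw [this]
    exact restrict_compl_singleton 0
  rwa [h2] at h1

theorem ae_ne_zero [Nontrivial E] : ∀ᵐ s ∂μ, s ≠ (0 : E) := by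
  rw [ae_iff]
  simp

theorem PH.norm_le_bound (h : PH 0 a g) (hR : ∀ q s, R < ‖s‖ → g q s = 0) {K : Set Q}
    (hK : IsCompact K) : ∃ C, 0 ≤ C ∧ ∀ q ∈ K, ∀ s, s ≠ 0 →
      ‖g q s‖ ≤ (closedBall (0 : E) R).indicator (fun s => C * (‖s‖ ^ a)⁻¹) s := by
  obtain ⟨C, hC0, hC⟩ := h.bound hK R
  refine ⟨C, hC0, fun q hq s hs => ?_⟩
  by_cases hsR : ‖s‖ ≤ R
  · rw [indicator_of_mem (by simpa using hsR)]
    exact hC q hq s hs hsR
  · rw [indicator_of_notMem (by simpa using hsR), hR q s (not_le.1 hsR), norm_zero]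

theorem PH.integrable [Nontrivial E] (h : PH 0 a g) (ha : a < Module.finrank ℝ E)
    (hR : ∀ q s, R < ‖s‖ → g q s = 0) (q : Q) : Integrable (g q) μ := by
  obtain ⟨C, hC0, hC⟩ := h.norm_le_bound hR (isCompact_singleton (x := q))
  refine (integrable_bound μ ha C R).mono' (h.aesm μ q) ?_
  filter_upwards [ae_ne_zero μ] with s hs
  exact hC q rfl s hs

theorem PH.continuous_integral [Nontrivial E] [FiniteDimensional ℝ Q] {g : Q → E → G}
    (h : PH 0 a g) (ha : a < Module.finrank ℝ E) (hR : ∀ q s, R < ‖s‖ → g q s = 0) :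
    Continuous fun q => ∫ s, g q s ∂μ := by
  have : ProperSpace Q := FiniteDimensional.proper_real Q
  rw [continuous_iff_continuousAt]
  intro q₀
  obtain ⟨C, hC0, hC⟩ := h.norm_le_bound hR (isCompact_closedBall q₀ 1)
  refine continuousAt_of_dominated (F := g) (Eventually.of_forall fun q => h.aesm μ q) ?_
    (integrable_bound μ ha C R) ?_
  · filter_upwards [closedBall_mem_nhds q₀ one_pos] with q hq
    filter_upwards [ae_ne_zero μ] with s hs
    exact hC q hq s hs
  · filter_upwards [ae_ne_zero μ] with s hs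
    have h1 := h.contDiffOn.continuousOn
    have hop : IsOpen {p : Q × E | p.2 ≠ 0} := isOpen_ne.preimage continuous_snd
    have h2 : ContinuousAt (fun p : Q × E => g p.1 p.2) (q₀, s) :=
      h1.continuousAt (hop.mem_nhds hs)
    exact ContinuousAt.comp (f := fun q : Q => (q, s)) (g := fun p : Q × E => g p.1 p.2) h2
      (by fun_prop)

theorem PH.dq_support {Q : Type u} [NormedAddCommGroup Q] [NormedSpace ℝ Q]
    {E : Type u} [NormedAddCommGroup E] {G : Type u} [NormedAddCommGroup G] [NormedSpace ℝ G]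
    {g : Q → E → G} {R : ℝ} (hR : ∀ q s, R < ‖s‖ → g q s = 0) :
    ∀ q s, R < ‖s‖ → H551.dq g q s = 0 := by
  intro q s hs
  unfold H551.dq
  have : (fun q => g q s) = fun _ => 0 := by
    funext q'; exact hR q' s hs
  rw [this]
  simp

theorem PH.hasFDerivAt_integral [Nontrivial E] [FiniteDimensional ℝ Q] (h : PH 1 a g)
    (ha : a < Module.finrank ℝ E) (hR : ∀ q s, R < ‖s‖ → g q s = 0) (q₀ : Q) :
    HasFDerivAt (fun q => ∫ s, g q s ∂μ) (∫ s, H551.dq g q₀ s ∂μ) q₀ := by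
  have : ProperSpace Q := FiniteDimensional.proper_real Q
  have hd : PH 0 a (H551.dq g) := PH.dq (N := 0) (by simpa using h)
  obtain ⟨C, hC0, hC⟩ := hd.norm_le_bound (PH.dq_support hR) (isCompact_closedBall q₀ 1)
  refine hasFDerivAt_integral_of_dominated_of_fderiv_le (F := g) (F' := H551.dq g)
    (closedBall_mem_nhds q₀ one_pos) (Eventually.of_forall fun q => h.aesm μ q)
    ((h.of_le zero_le_one).integrable μ ha hR q₀) (hd.aesm μ q₀) ?_
    (integrable_bound μ ha C R) ?_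
  · filter_upwards [ae_ne_zero μ] with s hs
    intro q hq
    exact hC q hq s hs
  · filter_upwards [ae_ne_zero μ] with s hs
    intro q _
    exact h.hasFDerivAt hs

end integral

section smooth

variable {Q : Type u} [NormedAddCommGroup Q] [NormedSpace ℝ Q] [FiniteDimensional ℝ Q]
  {E : Type u} [NormedAddCommGroup E] [NormedSpace ℝ E] [FiniteDimensional ℝ E] [Nontrivial E]
  [MeasurableSpace E] [BorelSpace E] (μ : Measure E) [μ.IsAddHaarMeasure] {a : ℕ} {R : ℝ}

theorem PH.contDiff_integral_nat (ha : a < Module.finrank ℝ E) (m : ℕ) :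
    ∀ (G : Type u) [NormedAddCommGroup G] [NormedSpace ℝ G] (g : Q → E → G), PH (m : ℕ) a g →
      (∀ q s, R < ‖s‖ → g q s = 0) → ContDiff ℝ m fun q => ∫ s, g q s ∂μ := by
  induction m with
  | zero =>
    intro G _ _ g h hR
    have h0 : PH 0 a g := h.of_le (by simp)
    have h1 : Continuous fun q => ∫ s, g q s ∂μ := h0.continuous_integral μ ha hR
    simpa using (contDiff_zero (𝕜 := ℝ)).2 h1
  | succ m ih =>
    intro G _ _ g h hR
    have h1 : PH 1 a g := h.of_le (by norm_cast; omega)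
    have h' : PH ((m : WithTop ℕ∞) + 1) a g := by exact_mod_cast h
    have hd : PH (m : WithTop ℕ∞) a (H551.dq g) := h'.dq
    have h2 := ih (Q →L[ℝ] G) (H551.dq g) hd (PH.dq_support hR)
    have h3 := PH.hasFDerivAt_integral μ h1 ha hR
    rw [show ((m + 1 : ℕ) : WithTop ℕ∞) = (m : WithTop ℕ∞) + 1 by norm_cast,
      contDiff_succ_iff_fderiv]
    refine ⟨fun q => (h3 q).differentiableAt, fun hω => by simp at hω, ?_⟩
    have h4 : fderiv ℝ (fun q => ∫ s, g q s ∂μ) = fun q => ∫ s, H551.dq g q s ∂μ :=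
      funext fun q => (h3 q).fderiv
    rw [h4]
    exact h2

/-- **smoothness of integrals of polyhomogeneous functions** -/
theorem PH.contDiff_integral {G : Type u} [NormedAddCommGroup G] [NormedSpace ℝ G]
    {g : Q → E → G} (h : PH ∞ a g) (ha : a < Module.finrank ℝ E)
    (hR : ∀ q s, R < ‖s‖ → g q s = 0) : ContDiff ℝ ∞ fun q => ∫ s, g q s ∂μ := by
  rw [contDiff_infty]
  intro m
  exact PH.contDiff_integral_nat μ ha m G g (h.of_le (by exact_mod_cast le_top)) hR

end smooth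

end

end Vale.Agent.P267.H551
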