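import Vale.Agent.P267.H462.Gl

/-! P267 / RRC-GLUE (helper551): transport of a local operator to another chart. -/

set_option linter.unusedSectionVars false

open scoped Manifold ContDiff ComplexConjugate Matrix
open MeasureTheory Set Filter Topology Metric

noncomputable section

namespace Vale.Agent.P267.H551

open Vale.Agent.P267.FL Vale.Agent.P267.RR Vale.Agent.P267.H462
open Vale.Agent.P267.H667 (IsCutoff kc cst)
open Vale.Agent.P267.H433 (Tr dbv ee VV V2)

variable {X : Type*} [TopologicalSpace X] [ChartedSpace C2 X] {A : FinAt X}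
  {V : Type} [NormedAddCommGroup V] [NormedSpace ℂ V]
  {W : Type} [NormedAddCommGroup W] [NormedSpace ℂ W]

open Classical in
/-- the kernel `k` of the chart `b` in the chart `a` -/
def pullk (S : SB A V) (S' : SB A W) (a b : Fin A.N) (k : C2 → C2 → (V →L[ℂ] W)) (z w : C2) :
    V →L[ℂ] W :=
  if w ∈ A.ov a b then ((‖(A.J a b w).det‖ ^ 2 : ℝ) : ℂ) •
    (S'.T b a (A.tau a b z)).comp ((k (A.tau a b z) (A.tau a b w)).comp (S.T a b w)) else 0

theorem pullk_of_mem {S : SB A V} {S' : SB A W} {a b : Fin A.N} {k : C2 → C2 → (V →L[ℂ] W)}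
    {z w : C2} (hw : w ∈ A.ov a b) : pullk S S' a b k z w = ((‖(A.J a b w).det‖ ^ 2 : ℝ) : ℂ) •
    (S'.T b a (A.tau a b z)).comp ((k (A.tau a b z) (A.tau a b w)).comp (S.T a b w)) := if_pos hw

theorem pullk_of_notMem {S : SB A V} {S' : SB A W} {a b : Fin A.N} {k : C2 → C2 → (V →L[ℂ] W)}
    {z w : C2} (hw : w ∉ A.ov a b) : pullk S S' a b k z w = 0 := if_neg hw

theorem pullk_ne {S : SB A V} {S' : SB A W} {a b : Fin A.N} {k : C2 → C2 → (V →L[ℂ] W)}
    {z w : C2} (h : pullk S S' a b k z w ≠ 0) :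
    w ∈ A.ov a b ∧ k (A.tau a b z) (A.tau a b w) ≠ 0 := by
  by_cases hw : w ∈ A.ov a b
  · refine ⟨hw, fun h0 => h ?_⟩
    rw [pullk_of_mem hw, h0]
    simp
  · exact absurd (pullk_of_notMem hw) h

variable [T2Space X] [IsManifold 𝓘(ℂ, C2) ω X]

/-- **transport**: the value of a local operator of the chart `b` in the chart `a` -/
theorem pull_int [FiniteDimensional ℂ W] {S : SB A V} {S' : SB A W} {a b : Fin A.N} {m : ℕ}
    (hm : m < 4) {k : C2 → C2 → (V →L[ℂ] W)} (h : LKer A b m k) (u : S.Sec) {z : C2}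
    (hz : z ∈ A.ov a b) (hk : ∀ y, k (A.tau a b z) y ≠ 0 → y ∈ A.ov b a) :
    (Integrable fun w => pullk S S' a b k z w (u.1 a w)) ∧
      (LO S S' b hm h u).1 a z = ∫ w, pullk S S' a b k z w (u.1 a w) := by
  have : CompleteSpace W := FiniteDimensional.complete ℂ W
  set y0 := A.tau a b z with hy0
  set F : C2 → W := fun y => S'.T b a y0 (k y0 y (u.1 b y)) with hF
  have hF0 : ∀ y, y ∉ A.ov b a → F y = 0 := by
    intro y hy
    have : k y0 y = 0 := by
      by_contra hne
      exact hy (hk _ hne)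
    simp [hF, this]
  have hFi : Integrable F := by
    have h1 : Integrable fun y => k y0 y (u.1 b y) := h.integrable hm (sec_smooth u b) y0
    exact (S'.T b a y0).integrable_comp h1
  have e1 : ∀ w, pullk S S' a b k z w (u.1 a w) =
      (A.ov a b).indicator (fun w => ‖(A.J a b w).det‖ ^ 2 • F (A.tau a b w)) w := by
    intro w
    by_cases hw : w ∈ A.ov a b
    · rw [indicator_of_mem hw, pullk_of_mem hw]
      simp only [smul_apply, ContinuousLinearMap.comp_apply, hF]
      rw [sec_compat u hw, ← hy0, Complex.coe_smul]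
    · rw [indicator_of_notMem hw, pullk_of_notMem hw, zero_apply]
  have e2 : ∫ w, pullk S S' a b k z w (u.1 a w) = ∫ y, F y := by
    simp_rw [e1]
    rw [integral_indicator (A.isOpen_ov a b).measurableSet]
    have h2 := integral_trans (A.he a) (A.he b) ((A.isOpen_U a).inter (A.isOpen_U b))
      (inter_subset_left.trans (A.U_sub a)) (inter_subset_right.trans (A.U_sub b)) F
    rw [← FinAt.ov_eq A a b, inter_comm (A.U a) (A.U b), ← FinAt.ov_eq A b a] at h2
    have h3 : ∫ y in A.ov b a, F y = ∫ y, F y := by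
      rw [← integral_indicator (A.isOpen_ov b a).measurableSet]
      congr 1
      funext y
      by_cases hy : y ∈ A.ov b a
      · rw [indicator_of_mem hy]
      · rw [indicator_of_notMem hy, hF0 y hy]
    rw [← h3, h2]
    rfl
  refine ⟨?_, ?_⟩
  · simp_rw [e1]
    rw [integrable_indicator_iff (A.isOpen_ov a b).measurableSet]
    have h2 := integrableOn_trans (A.he a) (A.he b) ((A.isOpen_U a).inter (A.isOpen_U b))
      (inter_subset_left.trans (A.U_sub a)) (inter_subset_right.trans (A.U_sub b)) F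
    rw [← FinAt.ov_eq A a b, inter_comm (A.U a) (A.U b), ← FinAt.ov_eq A b a] at h2
    exact h2.1 hFi.integrableOn
  · rw [e2]
    have h4 : y0 ∈ A.ov b a := FinAt.tau_mem hz
    have h5 := sec_compat (LO S S' b hm h u) h4
    rw [FinAt.tau_tau hz] at h5
    rw [h5, LO_self b hm h u h4.1, IK]
    have h1 : Integrable fun y => k y0 y (u.1 b y) := h.integrable hm (sec_smooth u b) y0
    exact ((S'.T b a y0).integral_comp_comm h1).symm

end Vale.Agent.P267.H551
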