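import Mathlib

/-! P267 / DBAR-FRED (helper551): Riesz theory of `1 - S`, `S` compact, in the form needed for
complexes: there are `N`, a finite rank projection `Pi` onto `ker (1 - S)^N` along
`range (1 - S)^N` and a partial inverse `R`. -/

namespace Vale.Agent.P267.H551

open Filter Topology Metric Module End

noncomputable section

variable {V : Type*} [NormedAddCommGroup V] [NormedSpace ℂ V]

/-- composition of `1 - S` with itself is again of the form `1 - compact` -/
theorem exists_pow_eq {S : V →L[ℂ] V} (hS : IsCompactOperator S) (n : ℕ) :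
    ∃ S' : V →L[ℂ] V, IsCompactOperator S' ∧ (1 - S) ^ n = 1 - S' := by
  induction n with
  | zero => exact ⟨0, isCompactOperator_zero, by simp⟩
  | succ n ih =>
    obtain ⟨S', h1, h2⟩ := ih
    refine ⟨S' + S - S' * S, ?_, ?_⟩
    · refine (h1.add hS).sub ?_
      exact h1.comp_clm S
    · rw [pow_succ, h2]
      noncomm_ring

/-- a strictly increasing sequence of kernels contradicts compactness -/
theorem exists_ker_pow_eq {S : V →L[ℂ] V} (hS : IsCompactOperator S) :
    ∃ N : ℕ, ((1 - S) ^ N).ker = ((1 - S) ^ (N + 1)).ker := by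
  by_contra hcon
  push Not at hcon
  set T : V →L[ℂ] V := 1 - S with hT
  have hmono : ∀ {n m : ℕ}, n ≤ m → (T ^ n).ker ≤ (T ^ m).ker := by
    intro n m h x hx
    obtain ⟨k, rfl⟩ := Nat.exists_eq_add_of_le' h
    rw [LinearMap.mem_ker] at hx ⊢
    rw [pow_add]
    change (T ^ k) ((T ^ n) x) = 0
    erw [hx]; simp
  obtain ⟨c, hc⟩ := NormedField.exists_one_lt_norm ℂ
  have hx : ∀ n : ℕ, ∃ x ∈ (T ^ (n + 1)).ker, ‖x‖ ≤ ‖c‖ + 1 ∧ ∀ y ∈ (T ^ n).ker, 1 ≤ ‖x - y‖ := by
    intro n
    have h₁ : IsClosed (((T ^ n).ker.comap (T ^ (n + 1)).ker.subtype :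
        Submodule ℂ (T ^ (n + 1)).ker) : Set (T ^ (n + 1)).ker) := by
      have : IsClosed ((T ^ n).ker : Set V) := (T ^ n).isClosed_ker
      simpa using! this.preimage_val
    have h₂ : ∃ x : (T ^ (n + 1)).ker, x ∉ (T ^ n).ker.comap (T ^ (n + 1)).ker.subtype := by
      by_contra h
      push Not at h
      exact hcon n (le_antisymm (hmono (Nat.le_succ n)) fun x hx => h ⟨x, hx⟩)
    obtain ⟨⟨x, hx⟩, hxn, hxy⟩ := riesz_lemma_of_norm_lt hc (lt_add_one ‖c‖) h₁ h₂
    simp only [Submodule.mem_comap, Submodule.subtype_apply, Subtype.forall] at hxn hxy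
    exact ⟨x, hx, hxn, fun y hy ↦ hxy y (hmono (Nat.le_succ n) hy) hy⟩
  choose x hx1 hx2 hx3 using hx
  have hTmem : ∀ {n : ℕ} {y : V}, y ∈ (T ^ (n + 1)).ker → T y ∈ (T ^ n).ker := by
    intro n y hy
    rw [LinearMap.mem_ker] at hy ⊢
    rw [pow_succ] at hy
    exact hy
  have hp : Pairwise fun m n ↦ 1 ≤ ‖S (x m) - S (x n)‖ := by
    have : Std.Symm fun m n ↦ 1 ≤ ‖S (x m) - S (x n)‖ := by grind [symm_def, norm_sub_rev]
    apply Pairwise.of_lt
    intro m n hmn
    have hu : S (x n) - S (x m) = x n - (T (x n) + x m - T (x m)) := by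
      simp only [hT, sub_apply, one_apply_eq_self]
      abel
    have : T (x n) + x m - T (x m) ∈ (T ^ n).ker := by
      refine Submodule.sub_mem _ (Submodule.add_mem _ (hTmem (hx1 n)) ?_) ?_
      · exact hmono (Nat.succ_le_of_lt hmn) (hx1 m)
      · exact hmono (Nat.le_of_lt hmn) (hTmem (hx1 m))
    rw [norm_sub_rev, hu]
    exact hx3 n _ this
  obtain ⟨K, hK, hK'⟩ := hS.image_closedBall_subset_compact (‖c‖ + 1)
  obtain ⟨y, hyK, ψ, hψ, hψy⟩ := hK.tendsto_subseq (x := fun n => S (x n))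
    (fun n ↦ hK' ⟨x n, by simpa using hx2 n, rfl⟩)
  replace hψy := hψy.cauchySeq
  rw [Metric.cauchySeq_iff'] at hψy
  obtain ⟨N, hN⟩ := hψy 1 one_pos
  have : ‖S (x (ψ (N + 1))) - S (x (ψ N))‖ < 1 := by simpa [dist_eq_norm_sub] using hN (N + 1)
  refine this.not_ge (hp ?_)
  simp [hψ.injective.eq_iff]

/-- the kernel of `1 - S` is finite-dimensional -/
theorem finiteDimensional_ker {S : V →L[ℂ] V} (hS : IsCompactOperator S) :
    FiniteDimensional ℂ (1 - S : V →L[ℂ] V).ker := by
  have hcl : IsClosed ((1 - S : V →L[ℂ] V).ker : Set V) := (1 - S : V →L[ℂ] V).isClosed_ker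
  have hx : ∀ x ∈ (1 - S : V →L[ℂ] V).ker, S x = x := by
    intro x hx
    have : x - S x = 0 := hx
    exact (sub_eq_zero.1 this).symm
  have h := (hS.comp_clm (1 - S : V →L[ℂ] V).ker.subtypeL).codRestrict
    (V := (1 - S : V →L[ℂ] V).ker) (fun x => by
      have : (S ∘ ⇑(1 - S : V →L[ℂ] V).ker.subtypeL) x = x := hx _ x.2
      rw [this]; exact x.2) hcl
  refine FiniteDimensional.of_isCompactOperator_id (𝕜 := ℂ) ?_
  have e : (id : (1 - S : V →L[ℂ] V).ker → (1 - S : V →L[ℂ] V).ker) =
      Set.codRestrict (⇑S ∘ ⇑(1 - S : V →L[ℂ] V).ker.subtypeL) ((1 - S : V →L[ℂ] V).ker : Set V)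
        (fun x => by
          have : (S ∘ ⇑(1 - S : V →L[ℂ] V).ker.subtypeL) x = x := hx _ x.2
          rw [this]; exact x.2) := by
    funext x
    exact Subtype.ext (hx _ x.2).symm
  rw [e]
  exact h

/-- the kernels of the powers of `1 - S` are finite-dimensional -/
theorem finiteDimensional_ker_pow {S : V →L[ℂ] V} (hS : IsCompactOperator S) (n : ℕ) :
    FiniteDimensional ℂ ((1 - S) ^ n).ker := by
  obtain ⟨S', h1, h2⟩ := exists_pow_eq hS n
  rw [h2]
  exact finiteDimensional_ker h1

/-- Riesz data for `T = 1 - S`. -/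
structure RieszData (T : V →L[ℂ] V) where
  N : ℕ
  /-- the projection onto `range (T ^ N)` along `ker (T ^ N)` -/
  Q : V →L[ℂ] V
  /-- the inverse of `T` on `range (T ^ N)`, extended by `0` -/
  R : V →L[ℂ] V
  ker_pow : ∀ n, N ≤ n → ∀ x, (T ^ n) x = 0 ↔ Q x = 0
  TR : T * R = Q
  RT : R * T = Q
  QR : Q * R = R
  RQ : R * Q = R
  finite : FiniteDimensional ℂ (Q.ker)

namespace RieszData

variable {T : V →L[ℂ] V} (D : RieszData T)

include D in
theorem ker_stable {n : ℕ} (hn : D.N ≤ n) {x : V} (hx : (T ^ n) x = 0) : (T ^ D.N) x = 0 :=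
  (D.ker_pow D.N le_rfl x).2 ((D.ker_pow n hn x).1 hx)

theorem QQ : D.Q * D.Q = D.Q := by
  nth_rw 1 [← D.TR]
  rw [mul_assoc, D.RQ, D.TR]

theorem TQ : T * D.Q = D.Q * T := by
  nth_rw 1 [← D.RT]
  rw [← mul_assoc, D.TR]

theorem pow_TR (n : ℕ) : T ^ (n + 1) * D.R ^ (n + 1) = D.Q := by
  induction n with
  | zero => simpa using D.TR
  | succ n ih =>
    have h1 : D.Q * D.R ^ (n + 1) = D.R ^ (n + 1) := by
      rw [pow_succ', ← mul_assoc, D.QR]
    rw [pow_succ T, mul_assoc, pow_succ' D.R (n + 1), ← mul_assoc T, D.TR, h1, ih]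

theorem Q_pow_T {n : ℕ} (hn : D.N ≤ n) : D.Q * T ^ n = T ^ n := by
  ext x
  have h1 : D.Q (x - D.Q x) = 0 := by
    have := congrArg (fun A : V →L[ℂ] V => A x) D.QQ
    simp only [mul_apply_eq_comp] at this
    rw [map_sub, this, sub_self]
  have h2 : (T ^ n) (x - D.Q x) = 0 := (D.ker_pow n hn _).2 h1
  have h3 : (T ^ n) x = (T ^ n) (D.Q x) := by
    rw [map_sub, sub_eq_zero] at h2
    exact h2
  have h4 : T ^ n * D.Q = D.Q * T ^ n := by
    have : Commute T D.Q := D.TQ
    exact this.pow_left n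
  have h5 := congrArg (fun A : V →L[ℂ] V => A x) h4
  simp only [mul_apply_eq_comp] at h5
  rw [mul_apply_eq_comp, h3, h5]
  -- `Q (Q (T^n x)) = Q (T^n x)`
  have h6 := congrArg (fun A : V →L[ℂ] V => A ((T ^ n) x)) D.QQ
  simp only [mul_apply_eq_comp] at h6
  exact h6

end RieszData

/-- **Riesz decomposition** for `1 - S`, `S` compact. -/
theorem exists_rieszData [CompleteSpace V] {S : V →L[ℂ] V} (hS : IsCompactOperator S) :
    Nonempty (RieszData (1 - S)) := by
  obtain ⟨N, hN⟩ := exists_ker_pow_eq hS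
  set T : V →L[ℂ] V := 1 - S with hT
  set K : Submodule ℂ V := (T ^ N).ker with hK
  have hKfin : FiniteDimensional ℂ K := finiteDimensional_ker_pow hS N
  -- stability of the kernels
  have hstab : ∀ n, N ≤ n → ∀ x, (T ^ n) x = 0 → (T ^ N) x = 0 := by
    intro n hn
    induction n, hn using Nat.le_induction with
    | base => exact fun x hx => hx
    | succ n hn ih =>
      intro x hx
      obtain ⟨k, rfl⟩ := Nat.exists_eq_add_of_le hn
      refine ih x ?_
      have h1 : (T ^ (N + 1)) ((T ^ k) x) = 0 := by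
        have : (T ^ (N + k + 1)) x = (T ^ (N + 1)) ((T ^ k) x) := by
          rw [← mul_apply_eq_comp, ← pow_add]; congr 2; ring
        rw [← this]; exact hx
      have h2 : (T ^ k) x ∈ (T ^ (N + 1)).ker := h1
      rw [← hN] at h2
      have h3 : (T ^ N) ((T ^ k) x) = 0 := h2
      rw [pow_add]; exact h3
  obtain ⟨f, hf⟩ := Submodule.ClosedComplemented.of_finiteDimensional (𝕜 := ℂ) K
  set p : V →L[ℂ] V := 1 - K.subtypeL ∘L f with hp
  have hpK : ∀ x ∈ K, p x = 0 := by
    intro x hx
    have : f x = ⟨x, hx⟩ := hf ⟨x, hx⟩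
    simp [hp, this]
  have hp1 : ∀ x, x - p x ∈ K := by
    intro x
    have : x - p x = f x := by simp [hp]
    rw [this]; exact (f x).2
  clear_value p
  have hpp : p * p = p := by
    ext x
    have h := hpK _ (hp1 x)
    rw [map_sub, sub_eq_zero] at h
    exact h.symm
  have hker : ∀ x, p x = 0 ↔ x ∈ K := by
    intro x
    refine ⟨fun h => ?_, hpK x⟩
    have := hp1 x
    rwa [h, sub_zero] at this
  have hKmem : ∀ x, x ∈ K ↔ (T ^ N) x = 0 := fun x => Iff.rfl
  have hTK : ∀ x ∈ K, T x ∈ K := by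
    intro x hx
    rw [hKmem] at hx ⊢
    have : (T ^ N) (T x) = T ((T ^ N) x) := by
      rw [← mul_apply_eq_comp, ← mul_apply_eq_comp, ← pow_succ, ← pow_succ']
    rw [this, hx, map_zero]
  have hpT : p * T = p * T * p := by
    ext x
    have h1 : p (T (x - p x)) = 0 := hpK _ (hTK _ (hp1 x))
    rw [map_sub, map_sub, sub_eq_zero] at h1
    exact h1
  -- the modified operator
  set S' : V →L[ℂ] V := p * S * p with hS'
  have hS'c : IsCompactOperator S' := by
    have := (hS.comp_clm p).clm_comp p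
    exact this
  have hB : (1 - S') * p = p * T * p := by
    rw [hS', hT, mul_sub, sub_mul, sub_mul, one_mul, mul_one, hpp]
    simp only [mul_assoc, hpp]
  have hinj : ¬ HasEigenvalue (S' : End ℂ V) 1 := by
    intro hev
    obtain ⟨x, hx⟩ := hev.exists_hasEigenvector
    have hx1 : S' x = x := by simpa using hx.apply_eq_smul
    have hxp : p x = x := by
      rw [← hx1]
      have := congrArg (fun A : V →L[ℂ] V => A (S (p x))) hpp
      exact this
    have h2 : p (T x) = 0 := by
      have h3 : p (S x) = x := by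
        have : S' x = p (S (p x)) := rfl
        rw [hxp] at this
        rw [← this, hx1]
      simp [hT, hxp, h3]
    have h3 : T x ∈ K := (hker _).1 h2
    have h4 : (T ^ (N + 1)) x = 0 := by
      rw [pow_succ]; exact h3
    have h5 : x ∈ K := hstab (N + 1) (Nat.le_succ N) x h4
    have h6 : x = 0 := by rw [← hxp]; exact hpK x h5
    exact hx.2 h6
  have hres := (hS'c.hasEigenvalue_or_mem_resolventSet one_ne_zero).resolve_left hinj
  rw [spectrum.mem_resolventSet_iff, map_one] at hres
  obtain ⟨u, hu⟩ := hres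
  set U : V →L[ℂ] V := ((u⁻¹ : (V →L[ℂ] V)ˣ) : V →L[ℂ] V) with hU
  have hU1 : U * (1 - S') = 1 := by rw [← hu, hU]; exact u.inv_mul
  have hU2 : (1 - S') * U = 1 := by rw [← hu, hU]; exact u.mul_inv
  have hcomm : p * (1 - S') = (1 - S') * p := by
    rw [hS', mul_sub, sub_mul, mul_one, one_mul]
    simp only [mul_assoc, hpp]
    simp only [← mul_assoc, hpp]
  have hpU : p * U = U * p := by
    calc p * U = U * (1 - S') * (p * U) := by rw [hU1, one_mul]
      _ = U * ((1 - S') * p) * U := by simp only [mul_assoc]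
      _ = U * (p * (1 - S')) * U := by rw [hcomm]
      _ = U * p * ((1 - S') * U) := by simp only [mul_assoc]
      _ = U * p := by rw [hU2, mul_one]
  have hpUn : ∀ n, p * U ^ n = U ^ n * p := fun n => by
    have : Commute p U := hpU
    exact this.pow_right n
  -- `p T^n p = (1 - S')^n p`
  have hpTn : ∀ n, p * T ^ n = (1 - S') ^ n * p := by
    intro n
    induction n with
    | zero => simp
    | succ n ih =>
      calc p * T ^ (n + 1) = p * T ^ n * T := by rw [pow_succ, mul_assoc]
        _ = (1 - S') ^ n * (p * T) := by rw [ih, mul_assoc]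
        _ = (1 - S') ^ n * ((1 - S') * p) := by rw [hpT, ← hB]
        _ = _ := by rw [pow_succ, mul_assoc]
  have hTNp : T ^ N * p = T ^ N := by
    ext x
    have : (T ^ N) (x - p x) = 0 := hp1 x
    rw [map_sub, sub_eq_zero] at this
    exact this.symm
  have hUn : ∀ n, U ^ n * (1 - S') ^ n = 1 := by
    intro n
    have h : Commute U (1 - S') := by
      change U * (1 - S') = (1 - S') * U
      rw [hU1, hU2]
    rw [← h.mul_pow, hU1, one_pow]
  have hUn' : ∀ n, (1 - S') ^ n * U ^ n = 1 := by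
    intro n
    have h : Commute (1 - S') U := by
      change (1 - S') * U = U * (1 - S')
      rw [hU1, hU2]
    rw [← h.mul_pow, hU2, one_pow]
  set Q : V →L[ℂ] V := T ^ N * (U ^ N * p) with hQ
  set R : V →L[ℂ] V := T ^ N * (U ^ (N + 1) * p) with hR
  have hTR : T * R = Q := by
    ext x
    -- `T^N (T U y - y) = 0` for `y = U^N p x`
    have h1 : (p * (T * U) * (U ^ N * p)) = p * (U ^ N * p) := by
      calc p * (T * U) * (U ^ N * p) = p * T * (U * (U ^ N * p)) := by simp only [mul_assoc]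
        _ = p * T * p * (U * (U ^ N * p)) := by rw [← hpT]
        _ = (1 - S') * p * (U * (U ^ N * p)) := by rw [← hB]
        _ = (1 - S') * (p * U) * (U ^ N * p) := by simp only [mul_assoc]
        _ = (1 - S') * U * (p * (U ^ N * p)) := by rw [hpU]; simp only [mul_assoc]
        _ = p * (U ^ N * p) := by rw [hU2, one_mul]
    have h2 : p ((T * U) ((U ^ N * p) x) - (U ^ N * p) x) = 0 := by
      rw [map_sub, sub_eq_zero]
      exact congrArg (fun A : V →L[ℂ] V => A x) h1
    have h3 : (T ^ N) ((T * U) ((U ^ N * p) x) - (U ^ N * p) x) = 0 := (hker _).1 h2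
    rw [map_sub, sub_eq_zero] at h3
    have h4 : T * R = T ^ N * ((T * U) * (U ^ N * p)) := by
      rw [hR, pow_succ' U]
      calc T * (T ^ N * (U * U ^ N * p)) = (T * T ^ N) * (U * U ^ N * p) :=
            (mul_assoc _ _ _).symm
        _ = (T ^ N * T) * (U * U ^ N * p) := by rw [← pow_succ', pow_succ]
        _ = _ := by simp only [mul_assoc]
    rw [h4, hQ]
    exact h3
  have hRT : R * T = Q := by
    calc R * T = T ^ N * (U ^ (N + 1) * (p * T)) := by rw [hR]; simp only [mul_assoc]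
      _ = T ^ N * (U ^ (N + 1) * ((1 - S') * p)) := by rw [hpT, ← hB]
      _ = T ^ N * (U ^ N * (U * (1 - S')) * p) := by rw [pow_succ]; simp only [mul_assoc]
      _ = Q := by rw [hU1, mul_one]
  have hQTN : Q * T ^ N = T ^ N := by
    calc Q * T ^ N = T ^ N * (U ^ N * (p * T ^ N)) := by rw [hQ]; simp only [mul_assoc]
      _ = T ^ N * ((U ^ N * (1 - S') ^ N) * p) := by rw [hpTn]; simp only [mul_assoc]
      _ = T ^ N := by rw [hUn, one_mul, hTNp]
  have hkerQ : ∀ x, (T ^ N) x = 0 ↔ Q x = 0 := by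
    intro x
    constructor
    · intro hx
      have : p x = 0 := (hker x).2 hx
      change (T ^ N) ((U ^ N) (p x)) = 0
      rw [this, map_zero, map_zero]
    · intro hx
      have h1 : p * Q = p := by
        calc p * Q = p * T ^ N * (U ^ N * p) := by rw [hQ, mul_assoc]
          _ = (1 - S') ^ N * (p * U ^ N * p) := by rw [hpTn]; simp only [mul_assoc]
          _ = (1 - S') ^ N * (U ^ N * (p * p)) := by rw [hpUn]; simp only [mul_assoc]
          _ = p := by rw [hpp, ← mul_assoc, hUn', one_mul]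
      have h2 : p x = 0 := by
        have := congrArg (fun A : V →L[ℂ] V => A x) h1
        simp only [mul_apply_eq_comp] at this
        rw [← this, hx, map_zero]
      exact (hker x).1 h2
  have hQR : Q * R = R := by rw [hR, ← mul_assoc, hQTN]
  have hRQ : R * Q = R := by
    have h1 : p * Q = p := by
      calc p * Q = p * T ^ N * (U ^ N * p) := by rw [hQ, mul_assoc]
        _ = (1 - S') ^ N * (p * U ^ N * p) := by rw [hpTn]; simp only [mul_assoc]
        _ = (1 - S') ^ N * (U ^ N * (p * p)) := by rw [hpUn]; simp only [mul_assoc]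
        _ = p := by rw [hpp, ← mul_assoc, hUn', one_mul]
    calc R * Q = T ^ N * (U ^ (N + 1) * (p * Q)) := by rw [hR]; simp only [mul_assoc]
      _ = R := by rw [h1, hR]
  refine ⟨⟨N, Q, R, ?_, hTR, hRT, hQR, hRQ, ?_⟩⟩
  · intro n hn x
    rw [← hkerQ x]
    refine ⟨hstab n hn x, fun h => ?_⟩
    obtain ⟨k, rfl⟩ := Nat.exists_eq_add_of_le' hn
    rw [pow_add]
    change (T ^ k) ((T ^ N) x) = 0
    rw [h, map_zero]
  · have : Q.ker = K := by
      ext x
      exact (hkerQ x).symm
    rw [this]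
    exact hKfin

end

end Vale.Agent.P267.H551
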