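import Vale.Agent.P267.H551.WkLoc
import Vale.Agent.P267.H433.Ker

/-! P267 / RRC-T (helper551): complex form of the calculus: `∂̄` of weakly singular operators. -/

set_option linter.unusedSectionVars false

open scoped ContDiff Topology ComplexConjugate
open MeasureTheory Metric Set Filter

namespace Vale.Agent.P267.H551

open Vale.Agent.P267.H433 (dbv)

noncomputable section

section cx

variable {E : Type} [NormedAddCommGroup E] [NormedSpace ℂ E] [FiniteDimensional ℝ E]
  [Nontrivial E] [MeasurableSpace E] [BorelSpace E] (μ : Measure E) [μ.IsAddHaarMeasure]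
  {M F G : Type} [NormedAddCommGroup M] [NormedSpace ℂ M] [NormedAddCommGroup F]
  [NormedSpace ℂ F] [NormedAddCommGroup G] [NormedSpace ℂ G]

/-- complex bilinear pairings -/
structure CB (B : M →L[ℝ] F →L[ℝ] G) : Prop where
  left : ∀ m f, B (Complex.I • m) f = Complex.I • B m f
  right : ∀ m f, B m (Complex.I • f) = Complex.I • B m f

theorem CB.smul_left {B : M →L[ℝ] F →L[ℝ] G} (h : CB B) (c : ℂ) (m : M) (f : F) :
    B (c • m) f = c • B m f := by
  have e1 : c • m = c.re • m + c.im • (Complex.I • m) := by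
    conv_lhs => rw [← Complex.re_add_im c]
    rw [add_smul, mul_smul]
    simp only [Complex.coe_smul]
  have e2 : c • B m f = c.re • B m f + c.im • (Complex.I • B m f) := by
    conv_lhs => rw [← Complex.re_add_im c]
    rw [add_smul, mul_smul]
    simp only [Complex.coe_smul]
  rw [e1, e2]
  simp only [map_add, map_smul, add_apply, smul_apply, h.left]

theorem CB.smul_right {B : M →L[ℝ] F →L[ℝ] G} (h : CB B) (c : ℂ) (m : M) (f : F) :
    B m (c • f) = c • B m f := by
  have e1 : c • f = c.re • f + c.im • (Complex.I • f) := by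
    conv_lhs => rw [← Complex.re_add_im c]
    rw [add_smul, mul_smul]
    simp only [Complex.coe_smul]
  have e2 : c • B m f = c.re • B m f + c.im • (Complex.I • B m f) := by
    conv_lhs => rw [← Complex.re_add_im c]
    rw [add_smul, mul_smul]
    simp only [Complex.coe_smul]
  rw [e1, e2]
  simp only [map_add, map_smul, h.right]

/-- scalar kernels -/
theorem CB_lsmul : CB (ContinuousLinearMap.lsmul ℝ ℂ : ℂ →L[ℝ] F →L[ℝ] F) :=
  ⟨fun m f => by simp [mul_smul], fun m f => by
    simp only [ContinuousLinearMap.lsmul_apply]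
    exact smul_comm _ _ _⟩

/-- operator valued kernels -/
def clmB : (F →L[ℂ] G) →L[ℝ] F →L[ℝ] G :=
  (ContinuousLinearMap.restrictScalarsL ℂ F G ℝ ℝ : (F →L[ℂ] G) →L[ℝ] (F →L[ℝ] G))

theorem clmB_apply (m : F →L[ℂ] G) (f : F) : clmB m f = m f := rfl

theorem CB_clmB : CB (clmB : (F →L[ℂ] G) →L[ℝ] F →L[ℝ] G) :=
  ⟨fun m f => by simp [clmB_apply], fun m f => by simp [clmB_apply]⟩

variable (B : M →L[ℝ] F →L[ℝ] G) {a : ℕ} {K : E × E → M}

theorem Ker.differentiableAt (h : Ker 1 a fun x y => K (x, y)) {x y : E} (hxy : y ≠ x) :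
    DifferentiableAt ℝ K (x, y) := by
  have hs : y - x ≠ 0 := sub_ne_zero.2 hxy
  have hop : IsOpen {p : E × E | p.2 ≠ 0} := isOpen_ne.preimage continuous_snd
  have h2 : DifferentiableAt ℝ (fun p : E × E => K (p.1, p.1 + p.2)) (x, y - x) :=
    (h.ph.contDiffOn.differentiableOn one_ne_zero).differentiableAt (hop.mem_nhds hs)
  have h3 : DifferentiableAt ℝ (fun p : E × E => (p.1, p.2 - p.1)) (x, y) := by fun_prop
  have h4 := DifferentiableAt.comp (x, y) (f := fun p : E × E => (p.1, p.2 - p.1))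
    (g := fun p : E × E => K (p.1, p.1 + p.2)) h2 h3
  have e : (fun p : E × E => K (p.1, p.1 + p.2)) ∘ (fun p : E × E => (p.1, p.2 - p.1)) = K := by
    funext p
    simp
  rwa [e] at h4

theorem Ker.kx_eq (h : Ker 1 a fun x y => K (x, y)) {x y : E} (hxy : y ≠ x) (v : E) :
    H551.kx (fun x y => K (x, y)) x y v = fderiv ℝ K (x, y) (v, 0) := by
  have h1 := h.hasFDerivAt_x hxy
  have h2 : HasFDerivAt (fun x' : E => (x', y)) (ContinuousLinearMap.inl ℝ E E) x :=
    hasFDerivAt_prodMk_left x y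
  have h3 := HasFDerivAt.comp x (f := fun x' : E => (x', y)) (g := K)
    (h.differentiableAt hxy).hasFDerivAt h2
  rw [h1.unique h3]
  simp

theorem Ker.ky_eq (h : Ker 1 a fun x y => K (x, y)) {x y : E} (hxy : y ≠ x) (v : E) :
    H551.ky (fun x y => K (x, y)) x y v = fderiv ℝ K (x, y) (0, v) := by
  have h1 := h.hasFDerivAt_y hxy
  have h2 : HasFDerivAt (fun y' : E => (x, y')) (ContinuousLinearMap.inr ℝ E E) y :=
    hasFDerivAt_prodMk_right x y
  have h3 := HasFDerivAt.comp y (f := fun y' : E => (x, y')) (g := K)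
    (h.differentiableAt hxy).hasFDerivAt h2
  rw [h1.unique h3]
  simp

theorem Ker.dk_eq (h : Ker 1 a fun x y => K (x, y)) {x y : E} (hxy : y ≠ x) (v : E) :
    H551.dk (fun x y => K (x, y)) x y v = fderiv ℝ K (x, y) (v, v) := by
  have e : H551.dk (fun x y => K (x, y)) x y =
      H551.kx (fun x y => K (x, y)) x y + H551.ky (fun x y => K (x, y)) x y := by
    simp [H551.kx]
  rw [e, add_apply, h.kx_eq hxy, h.ky_eq hxy, ← map_add]
  simp

theorem Tk_congr {k k' : E → E → M} {f : E → F} {x : E} (hk : ∀ y, y ≠ x → k x y = k' x y) :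
    Tk μ B k f x = Tk μ B k' f x := by
  unfold Tk
  refine integral_congr_ae ?_
  have h1 : ∀ᵐ y ∂μ, y ≠ x := by
    rw [ae_iff]; simp
  filter_upwards [h1] with y hy
  rw [hk y hy]

theorem int_comb {f g h : E → G} (hf : Integrable f μ) (hg : Integrable g μ)
    (hae : ∀ᵐ y ∂μ, h y = (1 / 2 : ℂ) • (f y + Complex.I • g y)) :
    ∫ y, h y ∂μ = (1 / 2 : ℂ) • (∫ y, f y ∂μ + Complex.I • ∫ y, g y ∂μ) := by
  have h2 : Integrable (fun y => Complex.I • g y) μ := hg.smul Complex.I
  rw [← integral_smul, ← integral_add hf h2, ← integral_smul]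
  exact integral_congr_ae hae

theorem int_comb3 {f1 f2 f3 h : E → G} (h1 : Integrable f1 μ) (h2 : Integrable f2 μ)
    (h3 : Integrable f3 μ) (hae : ∀ᵐ y ∂μ, h y = f1 y + (f2 y - f3 y)) :
    ∫ y, h y ∂μ = ∫ y, f1 y ∂μ + (∫ y, f2 y ∂μ - ∫ y, f3 y ∂μ) := by
  have h4 : Integrable (fun y => f2 y - f3 y) μ := h2.sub h3
  rw [← integral_sub h2 h3, ← integral_add h1 h4]
  exact integral_congr_ae hae

theorem ae_ne (x : E) : ∀ᵐ y ∂μ, y ≠ x := by
  rw [ae_iff]; simp

/-- **`∂̄` under the integral sign** -/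
theorem Ker.dbv_Tk (hB : CB B) (h : Ker 1 a fun x y => K (x, y))
    (ha : a + 1 < Module.finrank ℝ E) {u : E → F} (hu : ContDiff ℝ 1 u) (w x : E) :
    dbv w (Tk μ B (fun x y => K (x, y)) u) x = Tk μ B (fun x y => dbv (w, 0) K (x, y)) u x := by
  have hx : Ker 0 (a + 1) (H551.kx fun x y => K (x, y)) := Ker.kx (N := 0) (by simpa using h)
  have hI : ∀ v : E, Integrable (fun y => B (H551.kx (fun x y => K (x, y)) x y v) (u y)) μ := fun v => by
    simpa using (hx.integrable_bil' μ (B.precompL E) ha hu.continuous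
      x).apply_continuousLinearMap v
  have e : dbv w (Tk μ B (fun x y => K (x, y)) u) x = (1 / 2 : ℂ) •
      (Tk μ B (fun x y => H551.kx (fun x y => K (x, y)) x y w) u x +
        Complex.I • Tk μ B (fun x y => H551.kx (fun x y => K (x, y)) x y (Complex.I • w)) u x) := by
    unfold dbv
    rw [h.fderiv_Tk_apply μ B ha hu, h.fderiv_Tk_apply μ B ha hu]
  rw [e]
  refine (int_comb μ (hI w) (hI _) ?_).symm
  filter_upwards [ae_ne μ x] with y hy
  rw [h.kx_eq hy, h.kx_eq hy]
  simp only [dbv]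
  rw [hB.smul_left]
  simp only [map_add, add_apply]
  rw [hB.left]
  simp

/-- `∂̄` of an operator: the derivative along the diagonal falls on the kernel -/
theorem Ker.dbv_Tk' (hB : CB B) (h : Ker 1 a fun x y => K (x, y))
    (ha : a < Module.finrank ℝ E) {u : E → F} (hu : ContDiff ℝ 1 u) (w x : E) :
    dbv w (Tk μ B (fun x y => K (x, y)) u) x = Tk μ B (fun x y => dbv (w, w) K (x, y)) u x +
      Tk μ B (fun x y => K (x, y)) (dbv w u) x := by
  have hx : Ker 0 a (H551.dk fun x y => K (x, y)) := Ker.dk (N := 0) (by simpa using h)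
  have h0 : Ker 0 a fun x y => K (x, y) := h.of_le zero_le_one
  have hfu := hu.continuous_fderiv one_ne_zero
  have hI : ∀ v : E, Integrable (fun y => B (H551.dk (fun x y => K (x, y)) x y v) (u y)) μ :=
    fun v => by
      simpa using (hx.integrable_bil' μ (B.precompL E) ha hu.continuous
        x).apply_continuousLinearMap v
  have hJ : ∀ v : E, Integrable (fun y => B (K (x, y)) (fderiv ℝ u y v)) μ := fun v =>
    h0.integrable_bil' μ B ha (hfu.clm_apply continuous_const) x
  have e1 : ∀ v, fderiv ℝ (Tk μ B (fun x y => K (x, y)) u) x v =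
      Tk μ B (fun x y => H551.dk (fun x y => K (x, y)) x y v) u x +
        Tk μ B (fun x y => K (x, y)) (fun y => fderiv ℝ u y v) x := by
    intro v
    rw [(h.hasFDerivAt_Tk' μ B ha hu x).fderiv, add_apply,
      hx.Tk_precompL_apply μ B ha hu.continuous, h0.Tk_precompR_apply μ B ha hfu]
  have e2 : Tk μ B (fun x y => dbv (w, w) K (x, y)) u x = (1 / 2 : ℂ) •
      (Tk μ B (fun x y => H551.dk (fun x y => K (x, y)) x y w) u x +
        Complex.I • Tk μ B (fun x y => H551.dk (fun x y => K (x, y)) x y (Complex.I • w)) u x) := by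
    refine int_comb μ (hI w) (hI _) ?_
    filter_upwards [ae_ne μ x] with y hy
    rw [h.dk_eq hy, h.dk_eq hy]
    simp only [dbv]
    rw [hB.smul_left]
    simp only [map_add, add_apply]
    rw [hB.left]
    simp
  have e3 : Tk μ B (fun x y => K (x, y)) (dbv w u) x = (1 / 2 : ℂ) •
      (Tk μ B (fun x y => K (x, y)) (fun y => fderiv ℝ u y w) x +
        Complex.I • Tk μ B (fun x y => K (x, y)) (fun y => fderiv ℝ u y (Complex.I • w)) x) := by
    refine int_comb μ (hJ w) (hJ _) (Eventually.of_forall fun y => ?_)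
    simp only [dbv]
    rw [hB.smul_right]
    simp only [map_add]
    rw [hB.right]
  rw [e2, e3]
  unfold dbv
  rw [e1, e1]
  module

/-- **integration by parts for `∂̄`** -/
theorem Ker.Tk_dbv (hB : CB B) (h : Ker 1 a fun x y => K (x, y))
    (ha : a + 1 < Module.finrank ℝ E) {u : E → F} (hu : ContDiff ℝ 1 u) (w x : E) :
    Tk μ B (fun x y => K (x, y)) (dbv w u) x = -Tk μ B (fun x y => dbv (0, w) K (x, y)) u x := by
  have ha' : a < Module.finrank ℝ E := by omega
  have h0 : Ker 0 a fun x y => K (x, y) := h.of_le zero_le_one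
  have hy : Ker 0 (a + 1) (H551.ky fun x y => K (x, y)) := Ker.ky (N := 0) (by simpa using h)
  have hI : ∀ v : E, Integrable (fun y => B (H551.ky (fun x y => K (x, y)) x y v) (u y)) μ := fun v => by
    simpa using (hy.integrable_bil' μ (B.precompL E) ha hu.continuous
      x).apply_continuousLinearMap v
  have hJ : ∀ v : E, Integrable (fun y => B (K (x, y)) (fderiv ℝ u y v)) μ := fun v =>
    h0.integrable_bil' μ B ha' ((hu.continuous_fderiv one_ne_zero).clm_apply continuous_const) x
  have e1 := h.Tk_fderiv μ B ha hu x w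
  have e2 := h.Tk_fderiv μ B ha hu x (Complex.I • w)
  have e3 : Tk μ B (fun x y => K (x, y)) (dbv w u) x = (1 / 2 : ℂ) •
      (Tk μ B (fun x y => K (x, y)) (fun y => fderiv ℝ u y w) x +
        Complex.I • Tk μ B (fun x y => K (x, y)) (fun y => fderiv ℝ u y (Complex.I • w)) x) := by
    refine int_comb μ (hJ w) (hJ _) (Eventually.of_forall fun y => ?_)
    simp only [dbv]
    rw [hB.smul_right]
    simp only [map_add]
    rw [hB.right]
  rw [e3, e1, e2]
  have e4 : Tk μ B (fun x y => dbv (0, w) K (x, y)) u x = (1 / 2 : ℂ) •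
      (Tk μ B (fun x y => H551.ky (fun x y => K (x, y)) x y w) u x +
        Complex.I • Tk μ B (fun x y => H551.ky (fun x y => K (x, y)) x y (Complex.I • w)) u x) := by
    refine int_comb μ (hI w) (hI _) ?_
    filter_upwards [ae_ne μ x] with y hy
    rw [h.ky_eq hy, h.ky_eq hy]
    simp only [dbv]
    rw [hB.smul_left]
    simp only [map_add, add_apply]
    rw [hB.left]
    simp
  rw [e4]
  module

/-- smooth functions go to smooth functions -/
theorem Ker.contDiff_Tk {k : E → E → M} (h : Ker ∞ a k) (ha : a < Module.finrank ℝ E)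
    {u : E → F} (hu : ContDiff ℝ ∞ u) : ContDiff ℝ ∞ (Tk μ B k u) := by
  have h1 := h.contDiff_family (P := PUnit) μ B ha (f := fun q : E × PUnit => u q.1)
    (hu.comp contDiff_fst)
  have h2 : ContDiff ℝ ∞ fun x : E => ((x, PUnit.unit) : E × PUnit) := by fun_prop
  exact h1.comp h2

theorem Ker.contDiff_Tk_nat {m : ℕ} {k : E → E → M} (h : Ker m a k)
    (ha : a < Module.finrank ℝ E) {u : E → F} (hu : ContDiff ℝ m u) :
    ContDiff ℝ m (Tk μ B k u) := by
  have h1 := h.contDiff_family_nat (P := PUnit) μ B ha (f := fun q : E × PUnit => u q.1)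
    (hu.comp contDiff_fst)
  have h2 : ContDiff ℝ m fun x : E => ((x, PUnit.unit) : E × PUnit) := by fun_prop
  exact h1.comp h2

omit [FiniteDimensional ℝ E] [Nontrivial E] [MeasurableSpace E] [BorelSpace E] in
/-- a local kernel times a smooth complex function supported in `D`, off the diagonal -/
theorem KerOn.contDiff_offC {N : WithTop ℕ∞} {D : Set (E × E)} (hD : IsOpen D) {k : E → E → M}
    (h : KerOn N a D k) {φ : E × E → ℂ} (hφ : ContDiff ℝ N φ)
    (hsub : ∀ p ∈ tsupport φ, p ∈ D ∧ p.1 ≠ p.2) :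
    ContDiff ℝ N fun p : E × E => φ p • k p.1 p.2 := by
  rw [contDiff_iff_contDiffAt]
  intro p
  by_cases hp : p ∈ tsupport φ
  · have h1 := h.contDiffOn
    have hop : IsOpen {p : E × E | p ∈ D ∧ p.1 ≠ p.2} :=
      hD.inter (isOpen_ne_fun continuous_fst continuous_snd)
    exact hφ.contDiffAt.smul (h1.contDiffAt (hop.mem_nhds (hsub p hp)))
  · have h4 : (fun p : E × E => φ p • k p.1 p.2) =ᶠ[𝓝 p] fun _ => 0 := by
      filter_upwards [(isClosed_tsupport φ).isOpen_compl.mem_nhds hp] with w hw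
      rw [image_eq_zero_of_notMem_tsupport hw, zero_smul]
    exact (contDiffAt_const (c := (0 : M))).congr_of_eventuallyEq h4

omit [Nontrivial E] [MeasurableSpace E] [BorelSpace E] in
/-- cut-off by a complex function -/
theorem KerOn.cutC {D : Set (E × E)} (hD : IsOpen D) {k : E → E → M} (h : KerOn ∞ a D k)
    {φ : E × E → ℂ} (hφ : ContDiff ℝ ∞ φ) (hs : HasCompactSupport φ) (hsub : tsupport φ ⊆ D) :
    Ker ∞ a fun x y => φ (x, y) • k x y := by
  have h1 : KerOn ∞ 0 D fun x y : E => φ (x, y) := KerOn.of_contDiffOn hφ.contDiffOn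
  have h2 := h1.bilin (ContinuousLinearMap.lsmul ℝ ℂ : ℂ →L[ℝ] M →L[ℝ] M) h
  refine KerOn.of_support hD (S := tsupport φ) (by simpa using h2) hs hsub fun p hp => ?_
  rw [Prod.mk.eta, image_eq_zero_of_notMem_tsupport hp, zero_smul]

end cx

theorem finrank_V2 : Module.finrank ℝ (Fin 2 → ℂ) = 4 := by
  rw [Module.finrank_pi_fintype]
  simp [Complex.finrank_real_complex]

end

end Vale.Agent.P267.H551
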