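import Vale.Agent.P267.H551.ParSm

/-! P267 / RRC-T (helper551): weakly singular integral operators. -/

set_option linter.unusedSectionVars false

open scoped ContDiff Topology
open MeasureTheory Metric Set Filter

namespace Vale.Agent.P267.H551

noncomputable section

universe u

section ker

variable {E : Type u} [NormedAddCommGroup E] [NormedSpace ℝ E] [FiniteDimensional ℝ E]
  {M : Type u} [NormedAddCommGroup M] [NormedSpace ℝ M]

/-- compactly supported kernel `k x y` of order `a` along the diagonal -/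
structure Ker (N : WithTop ℕ∞) (a : ℕ) (k : E → E → M) : Prop where
  ph : PH N a fun x s => k x (x + s)
  supp : ∃ ρ : ℝ, ∀ x y, k x y ≠ 0 → ‖x‖ ≤ ρ ∧ ‖y‖ ≤ ρ

theorem Ker.of_le {N N' : WithTop ℕ∞} {a : ℕ} {k : E → E → M} (h : Ker N a k) (hN : N' ≤ N) :
    Ker N' a k := ⟨h.ph.of_le hN, h.supp⟩

/-- derivative along the diagonal, `d/dt k (x + t v) (y + t v)` -/
def dk (k : E → E → M) (x y : E) : E →L[ℝ] M := dq (fun x s => k x (x + s)) x (y - x)

/-- derivative in `y` -/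
def ky (k : E → E → M) (x y : E) : E →L[ℝ] M := ds (fun x s => k x (x + s)) x (y - x)

/-- derivative in `x` -/
def kx (k : E → E → M) (x y : E) : E →L[ℝ] M := dk k x y - ky k x y

theorem Ker.ph_dk {N : WithTop ℕ∞} {a : ℕ} {k : E → E → M} (h : Ker (N + 1) a k) :
    PH N a fun x s => dk k x (x + s) := by
  have := h.ph.dq
  simpa [dk] using this

theorem Ker.ph_ky {N : WithTop ℕ∞} {a : ℕ} {k : E → E → M} (h : Ker (N + 1) a k) :
    PH N (a + 1) fun x s => ky k x (x + s) := by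
  have := h.ph.ds
  simpa [ky] using this

theorem Ker.ph_kx {N : WithTop ℕ∞} {a : ℕ} {k : E → E → M} (h : Ker (N + 1) a k) :
    PH N (a + 1) fun x s => kx k x (x + s) :=
  h.ph_dk.raise.sub h.ph_ky

theorem Ker.hasFDerivAt_y {a : ℕ} {k : E → E → M} (h : Ker 1 a k) {x y : E} (hxy : y ≠ x) :
    HasFDerivAt (k x) (ky k x y) y := by
  have h1 := h.ph.hasFDerivAt_right (q := x) (s := y - x) (sub_ne_zero.2 hxy)
  have h2 : HasFDerivAt (fun y : E => y - x) (ContinuousLinearMap.id ℝ E) y :=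
    (hasFDerivAt_id y).sub_const x
  have h3 := HasFDerivAt.comp y (f := fun y : E => y - x) (g := fun s => k x (x + s)) h1 h2
  have e : (fun s => k x (x + s)) ∘ (fun y : E => y - x) = k x := by
    funext y; simp
  rw [e] at h3
  exact h3

theorem Ker.hasFDerivAt_x {a : ℕ} {k : E → E → M} (h : Ker 1 a k) {x y : E} (hxy : y ≠ x) :
    HasFDerivAt (fun x => k x y) (kx k x y) x := by
  have hs : y - x ≠ 0 := sub_ne_zero.2 hxy
  have hop : IsOpen {p : E × E | p.2 ≠ 0} := isOpen_ne.preimage continuous_snd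
  have h2 : DifferentiableAt ℝ (fun p : E × E => k p.1 (p.1 + p.2)) (x, y - x) :=
    (h.ph.contDiffOn.differentiableOn one_ne_zero).differentiableAt (hop.mem_nhds hs)
  set L := fderiv ℝ (fun p : E × E => k p.1 (p.1 + p.2)) (x, y - x) with hL
  have hd : HasFDerivAt (fun p : E × E => k p.1 (p.1 + p.2)) L (x, y - x) := h2.hasFDerivAt
  have e1 : dk k x y = L.comp (ContinuousLinearMap.inl ℝ E E) := by
    have h3 : HasFDerivAt (fun x' : E => (x', y - x)) (ContinuousLinearMap.inl ℝ E E) x :=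
      hasFDerivAt_prodMk_left x (y - x)
    exact (HasFDerivAt.comp x (f := fun x' : E => (x', y - x))
      (g := fun p : E × E => k p.1 (p.1 + p.2)) hd h3).fderiv
  have e2 : ky k x y = L.comp (ContinuousLinearMap.inr ℝ E E) := by
    have h3 : HasFDerivAt (fun s : E => (x, s)) (ContinuousLinearMap.inr ℝ E E) (y - x) :=
      hasFDerivAt_prodMk_right x (y - x)
    exact (HasFDerivAt.comp (y - x) (f := fun s : E => (x, s))
      (g := fun p : E × E => k p.1 (p.1 + p.2)) hd h3).fderiv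
  have h4 : HasFDerivAt (fun x' : E => (x', y - x'))
      ((ContinuousLinearMap.id ℝ E).prod (-(ContinuousLinearMap.id ℝ E))) x := by
    refine HasFDerivAt.prodMk (hasFDerivAt_id x) ?_
    simpa using (hasFDerivAt_id x).const_sub y
  have h5 := HasFDerivAt.comp x (f := fun x' : E => (x', y - x'))
      (g := fun p : E × E => k p.1 (p.1 + p.2)) hd h4
  have e3 : (fun p : E × E => k p.1 (p.1 + p.2)) ∘ (fun x' : E => (x', y - x')) =
      fun x' => k x' y := by
    funext x'; simp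
  rw [e3] at h5
  convert h5 using 1
  rw [kx, e1, e2]
  ext v
  simp only [sub_apply, ContinuousLinearMap.comp_apply,
    ContinuousLinearMap.inl_apply, ContinuousLinearMap.inr_apply, ContinuousLinearMap.prod_apply,
    ContinuousLinearMap.id_apply, neg_apply]
  rw [← map_sub]
  simp

/-- kernels extended by zero: support of the derivatives -/
theorem Ker.dk_eq_zero {k : E → E → M} {ρ : ℝ} (hρ : ∀ x y, k x y ≠ 0 → ‖x‖ ≤ ρ ∧ ‖y‖ ≤ ρ)
    {x y : E} (h : ρ < ‖x‖ ∨ ρ < ‖y‖) : dk k x y = 0 := by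
  unfold dk dq
  have : (fun q => k q (q + (y - x))) =ᶠ[𝓝 x] fun _ => 0 := by
    rcases h with h | h
    · have h1 : ∀ᶠ q in 𝓝 x, ρ < ‖q‖ := continuous_norm.continuousAt.eventually_const_lt h
      filter_upwards [h1] with q hq
      by_contra hne
      exact absurd (hρ _ _ hne).1 (not_le.2 hq)
    · have h1 : ∀ᶠ q in 𝓝 x, ρ < ‖q + (y - x)‖ := by
        have h2 : ContinuousAt (fun q : E => ‖q + (y - x)‖) x := by fun_prop
        refine h2.eventually_const_lt ?_
        simpa using h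
      filter_upwards [h1] with q hq
      by_contra hne
      exact absurd (hρ _ _ hne).2 (not_le.2 hq)
  rw [this.fderiv_eq]
  simp

theorem Ker.ky_eq_zero {k : E → E → M} {ρ : ℝ} (hρ : ∀ x y, k x y ≠ 0 → ‖x‖ ≤ ρ ∧ ‖y‖ ≤ ρ)
    {x y : E} (h : ρ < ‖x‖ ∨ ρ < ‖y‖) : ky k x y = 0 := by
  unfold ky ds
  have : (fun s => k x (x + s)) =ᶠ[𝓝 (y - x)] fun _ => 0 := by
    rcases h with h | h
    · filter_upwards with s
      by_contra hne
      exact absurd (hρ _ _ hne).1 (not_le.2 h)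
    · have h1 : ∀ᶠ s in 𝓝 (y - x), ρ < ‖x + s‖ := by
        have h2 : ContinuousAt (fun s : E => ‖x + s‖) (y - x) := by fun_prop
        refine h2.eventually_const_lt ?_
        simpa using h
      filter_upwards [h1] with s hs
      by_contra hne
      exact absurd (hρ _ _ hne).2 (not_le.2 hs)
  rw [this.fderiv_eq]
  simp

theorem Ker.dk {N : WithTop ℕ∞} {a : ℕ} {k : E → E → M} (h : Ker (N + 1) a k) :
    Ker N a (dk k) := by
  refine ⟨h.ph_dk, ?_⟩
  obtain ⟨ρ, hρ⟩ := h.supp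
  refine ⟨ρ, fun x y hne => ?_⟩
  by_contra hcon
  rw [not_and_or, not_le, not_le] at hcon
  exact hne (Ker.dk_eq_zero hρ hcon)

theorem Ker.ky {N : WithTop ℕ∞} {a : ℕ} {k : E → E → M} (h : Ker (N + 1) a k) :
    Ker N (a + 1) (ky k) := by
  refine ⟨h.ph_ky, ?_⟩
  obtain ⟨ρ, hρ⟩ := h.supp
  refine ⟨ρ, fun x y hne => ?_⟩
  by_contra hcon
  rw [not_and_or, not_le, not_le] at hcon
  exact hne (Ker.ky_eq_zero hρ hcon)

theorem Ker.kx {N : WithTop ℕ∞} {a : ℕ} {k : E → E → M} (h : Ker (N + 1) a k) :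
    Ker N (a + 1) (kx k) := by
  refine ⟨h.ph_kx, ?_⟩
  obtain ⟨ρ, hρ⟩ := h.supp
  refine ⟨ρ, fun x y hne => ?_⟩
  by_contra hcon
  rw [not_and_or, not_le, not_le] at hcon
  refine hne ?_
  rw [H551.kx, Ker.dk_eq_zero hρ hcon, Ker.ky_eq_zero hρ hcon, sub_zero]

/-- uniform bound of a kernel -/
theorem Ker.bound [MeasurableSpace E] [BorelSpace E] {a : ℕ} {k : E → E → M} (h : Ker 0 a k) :
    ∃ C R : ℝ, 0 ≤ C ∧ 0 ≤ R ∧ ∀ x s, s ≠ 0 →
      ‖k x (x + s)‖ ≤ (closedBall (0 : E) R).indicator (fun s => C * (‖s‖ ^ a)⁻¹) s := by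
  obtain ⟨ρ, hρ⟩ := h.supp
  have : ProperSpace E := FiniteDimensional.proper_real E
  have hR : ∀ x s : E, 2 * max ρ 0 < ‖s‖ → k x (x + s) = 0 := by
    intro x s hs
    by_contra hne
    obtain ⟨h1, h2⟩ := hρ _ _ hne
    have h3 : ‖s‖ ≤ ‖x + s‖ + ‖x‖ := by
      calc ‖s‖ = ‖(x + s) - x‖ := by congr 1; abel
        _ ≤ _ := norm_sub_le _ _
    have h4 : ρ ≤ max ρ 0 := le_max_left _ _
    linarith
  obtain ⟨C, hC0, hC⟩ := h.ph.norm_le_bound hR (isCompact_closedBall (0 : E) ρ)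
  refine ⟨C, 2 * max ρ 0, hC0, by positivity, fun x s hs => ?_⟩
  by_cases hx : ‖x‖ ≤ ρ
  · exact hC x (by simpa using hx) s hs
  · have : k x (x + s) = 0 := by
      by_contra hne
      exact hx (hρ _ _ hne).1
    rw [this, norm_zero]
    exact indicator_nonneg (fun s _ => by positivity) s

end ker

/-! ### the operators -/

section op

variable {E : Type u} [NormedAddCommGroup E] [NormedSpace ℝ E] [FiniteDimensional ℝ E]
  [Nontrivial E] [MeasurableSpace E] [BorelSpace E] (μ : Measure E) [μ.IsAddHaarMeasure]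
  {M F G : Type u} [NormedAddCommGroup M] [NormedSpace ℝ M] [NormedAddCommGroup F]
  [NormedSpace ℝ F] [NormedAddCommGroup G] [NormedSpace ℝ G]
  (B : M →L[ℝ] F →L[ℝ] G)

/-- the operator with kernel `k` -/
def Tk (k : E → E → M) (f : E → F) (x : E) : G := ∫ y, B (k x y) (f y) ∂μ

theorem Tk_eq (k : E → E → M) (f : E → F) (x : E) :
    Tk μ B k f x = ∫ s, B (k x (x + s)) (f (x + s)) ∂μ := by
  unfold Tk
  exact (integral_add_left_eq_self (fun y => B (k x y) (f y)) x).symm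

theorem Ker.aesm {N : WithTop ℕ∞} {a : ℕ} {k : E → E → M} (h : Ker N a k) (x : E) :
    AEStronglyMeasurable (k x) μ := by
  have h1 : AEStronglyMeasurable (fun s => k x (x + s)) μ := h.ph.aesm μ x
  have h2 := (measurePreserving_add_left μ (-x)).quasiMeasurePreserving
  have h3 := h1.comp_quasiMeasurePreserving h2
  convert h3 using 1
  funext y
  simp

theorem aesm_bil {k : E → M} {f : E → F} (hk : AEStronglyMeasurable k μ)
    (hf : AEStronglyMeasurable f μ) : AEStronglyMeasurable (fun y => B (k y) (f y)) μ :=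
  B.aestronglyMeasurable_comp₂ hk hf

/-- the integral of the norm of the kernel is uniformly bounded -/
theorem Ker.integrable_norm {a : ℕ} {k : E → E → M} (h : Ker 0 a k)
    (ha : a < Module.finrank ℝ E) (x : E) : Integrable (k x) μ := by
  obtain ⟨C, R, hC0, hR0, hC⟩ := h.bound
  have h1 : Integrable (fun s => k x (x + s)) μ := by
    refine (integrable_bound μ ha C R).mono' (h.ph.aesm μ x) ?_
    filter_upwards [ae_ne_zero μ] with s hs
    exact hC x s hs
  have := h1.comp_add_left (-x)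
  convert this using 1
  funext y
  simp

theorem Ker.integrable_bil {a : ℕ} {k : E → E → M} (h : Ker 0 a k)
    (ha : a < Module.finrank ℝ E) {f : E → F} (hf : AEStronglyMeasurable f μ) {c : ℝ}
    (hc : ∀ y, ‖f y‖ ≤ c) (x : E) : Integrable (fun y => B (k x y) (f y)) μ := by
  refine ((h.integrable_norm μ ha x).norm.const_mul (‖B‖ * c)).mono'
    (aesm_bil μ B (h.aesm μ x) hf) (Eventually.of_forall fun y => ?_)
  have hc0 : 0 ≤ c := (norm_nonneg _).trans (hc y)
  calc ‖B (k x y) (f y)‖ ≤ ‖B‖ * ‖k x y‖ * ‖f y‖ := B.le_opNorm₂ _ _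
    _ ≤ ‖B‖ * ‖k x y‖ * c := by gcongr; exact hc y
    _ = ‖B‖ * c * ‖k x y‖ := by ring

/-- boundedness in the sup norm -/
theorem Ker.norm_Tk_le {a : ℕ} {k : E → E → M} (h : Ker 0 a k)
    (ha : a < Module.finrank ℝ E) :
    ∃ C, 0 ≤ C ∧ ∀ (f : E → F) (c : ℝ), (∀ y, ‖f y‖ ≤ c) → ∀ x, ‖Tk μ B k f x‖ ≤ C * c := by
  obtain ⟨C, R, hC0, hR0, hC⟩ := h.bound
  refine ⟨‖B‖ * ∫ s, (closedBall (0 : E) R).indicator (fun s => C * (‖s‖ ^ a)⁻¹) s ∂μ,
    mul_nonneg (norm_nonneg B) (integral_nonneg fun s => indicator_nonneg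
      (fun s _ => by positivity) s), fun f c hc x => ?_⟩
  have hc0 : 0 ≤ c := (norm_nonneg _).trans (hc 0)
  rw [Tk_eq, mul_comm ‖B‖, mul_assoc, ← integral_mul_const]
  refine norm_integral_le_of_norm_le ((integrable_bound μ ha C R).mul_const _) ?_
  filter_upwards [ae_ne_zero μ] with s hs
  calc ‖B (k x (x + s)) (f (x + s))‖ ≤ ‖B‖ * ‖k x (x + s)‖ * ‖f (x + s)‖ := B.le_opNorm₂ _ _
    _ ≤ ‖B‖ * (closedBall (0 : E) R).indicator (fun s => C * (‖s‖ ^ a)⁻¹) s * c := by
        have hb : 0 ≤ (closedBall (0 : E) R).indicator (fun s => C * (‖s‖ ^ a)⁻¹) s :=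
          (norm_nonneg _).trans (hC x s hs)
        exact mul_le_mul (mul_le_mul_of_nonneg_left (hC x s hs) (norm_nonneg B)) (hc _)
          (norm_nonneg _) (mul_nonneg (norm_nonneg B) hb)
    _ = _ := by ring

end op

/-! ### smooth families -/

section fam

variable {E : Type u} [NormedAddCommGroup E] [NormedSpace ℝ E] [FiniteDimensional ℝ E]
  [Nontrivial E] [MeasurableSpace E] [BorelSpace E] (μ : Measure E) [μ.IsAddHaarMeasure]
  {M F G : Type u} [NormedAddCommGroup M] [NormedSpace ℝ M] [NormedAddCommGroup F]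
  [NormedSpace ℝ F] [NormedAddCommGroup G] [NormedSpace ℝ G]
  (B : M →L[ℝ] F →L[ℝ] G)
  {P : Type u} [NormedAddCommGroup P] [NormedSpace ℝ P] [FiniteDimensional ℝ P]

theorem Ker.ph_family {N : WithTop ℕ∞} {a : ℕ} {k : E → E → M} (h : Ker N a k) {f : E × P → F}
    (hf : ContDiff ℝ N f) :
    PH N a fun (q : E × P) (s : E) => B (k q.1 (q.1 + s)) (f (q.1 + s, q.2)) := by
  have h1 : PH N a fun (q : E × P) (s : E) => k q.1 (q.1 + s) :=
    h.ph.comp_left (φ := fun q : E × P => q.1) contDiff_fst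
  have h2 : PH N 0 fun (q : E × P) (s : E) => f (q.1 + s, q.2) := by
    refine PH.of_contDiff ?_
    refine hf.comp ?_
    fun_prop
  have := h1.bilin B h2
  simpa using this

theorem Ker.family_supp {a : ℕ} {N : WithTop ℕ∞} {k : E → E → M} (h : Ker N a k)
    (f : E × P → F) : ∃ R : ℝ, ∀ (q : E × P) (s : E), R < ‖s‖ →
      B (k q.1 (q.1 + s)) (f (q.1 + s, q.2)) = 0 := by
  obtain ⟨ρ, hρ⟩ := h.supp
  refine ⟨2 * ρ, fun q s hs => ?_⟩
  have : k q.1 (q.1 + s) = 0 := by
    by_contra hne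
    obtain ⟨h1, h2⟩ := hρ _ _ hne
    have h3 : ‖s‖ ≤ ‖q.1 + s‖ + ‖q.1‖ := by
      calc ‖s‖ = ‖(q.1 + s) - q.1‖ := by congr 1; abel
        _ ≤ _ := norm_sub_le _ _
    linarith
  rw [this, map_zero, zero_apply]

/-- **smooth families go to smooth families** -/
theorem Ker.contDiff_family {a : ℕ} {k : E → E → M} (h : Ker ∞ a k)
    (ha : a < Module.finrank ℝ E) {f : E × P → F} (hf : ContDiff ℝ ∞ f) :
    ContDiff ℝ ∞ fun q : E × P => Tk μ B k (fun y => f (y, q.2)) q.1 := by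
  obtain ⟨R, hR⟩ := h.family_supp B f
  have := (h.ph_family B hf).contDiff_integral μ ha hR
  have e : (fun q : E × P => Tk μ B k (fun y => f (y, q.2)) q.1) =
      fun q => ∫ s, B (k q.1 (q.1 + s)) (f (q.1 + s, q.2)) ∂μ :=
    funext fun q => Tk_eq μ B k (fun y => f (y, q.2)) q.1
  rw [e]
  exact this

theorem Ker.contDiff_family_nat {a m : ℕ} {k : E → E → M} (h : Ker m a k)
    (ha : a < Module.finrank ℝ E) {f : E × P → F} (hf : ContDiff ℝ m f) :
    ContDiff ℝ m fun q : E × P => Tk μ B k (fun y => f (y, q.2)) q.1 := by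
  obtain ⟨R, hR⟩ := h.family_supp B f
  have := PH.contDiff_integral_nat μ ha m G _ (h.ph_family B hf) hR
  have e : (fun q : E × P => Tk μ B k (fun y => f (y, q.2)) q.1) =
      fun q => ∫ s, B (k q.1 (q.1 + s)) (f (q.1 + s, q.2)) ∂μ :=
    funext fun q => Tk_eq μ B k (fun y => f (y, q.2)) q.1
  rw [e]
  exact this

end fam

end

end Vale.Agent.P267.H551
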